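import Vale.Agent.KTV.Core

/-!
Basic facts on class averages.
-/

open Finset

namespace Vale.Agent.KTV

variable {α β : Type*} [Fintype α] [Fintype β]

theorem mem_cls {r : Setoid α} {x y : α} : y ∈ cls r x ↔ r x y := by
  simp [cls]

theorem self_mem_cls (r : Setoid α) (x : α) : x ∈ cls r x := mem_cls.2 (r.refl x)

theorem cls_card_pos (r : Setoid α) (x : α) : 0 < (cls r x).card :=
  card_pos.2 ⟨x, self_mem_cls r x⟩

theorem cls_card_ne (r : Setoid α) (x : α) : ((cls r x).card : ℝ) ≠ 0 := by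
  have := cls_card_pos r x
  positivity

theorem cls_congr {r : Setoid α} {x y : α} (h : r x y) : cls r x = cls r y := by
  ext z
  rw [mem_cls, mem_cls]
  exact ⟨fun hz => r.trans (r.symm h) hz, fun hz => r.trans h hz⟩

theorem av_congr {r : Setoid α} (f : α → ℝ) {x y : α} (h : r x y) : av r f x = av r f y := by
  unfold av; rw [cls_congr h]

theorem cav_congr {r : Setoid α} (P : α → Prop) (f : α → ℝ) {x y : α} (h : r x y) :
    cav r P f x = cav r P f y := by
  unfold cav; rw [cls_congr h]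

theorem av_add (r : Setoid α) (f g : α → ℝ) (x : α) :
    av r (fun y => f y + g y) x = av r f x + av r g x := by
  unfold av; rw [sum_add_distrib, add_div]

theorem av_sub (r : Setoid α) (f g : α → ℝ) (x : α) :
    av r (fun y => f y - g y) x = av r f x - av r g x := by
  unfold av; rw [sum_sub_distrib, sub_div]

theorem av_smul (r : Setoid α) (c : ℝ) (f : α → ℝ) (x : α) :
    av r (fun y => c * f y) x = c * av r f x := by
  unfold av; rw [← mul_sum, mul_div_assoc]

theorem dv_add (r : Setoid α) (f g : α → ℝ) (x : α) :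
    dv r (fun y => f y + g y) x = dv r f x + dv r g x := by
  unfold dv; rw [av_add]; ring

theorem dv_smul (r : Setoid α) (c : ℝ) (f : α → ℝ) (x : α) :
    dv r (fun y => c * f y) x = c * dv r f x := by
  unfold dv; rw [av_smul]; ring

/-- If `f` is constant on the class of `x`, averaging does nothing at `x`. -/
theorem av_eq_of_inv (r : Setoid α) (f : α → ℝ) (x : α) (h : ∀ y, r x y → f y = f x) :
    av r f x = f x := by
  unfold av
  rw [sum_congr rfl (fun y hy => h y (mem_cls.1 hy)), sum_const, nsmul_eq_mul]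
  have := cls_card_ne r x
  field_simp

theorem av_av (r : Setoid α) (f : α → ℝ) (x : α) : av r (av r f) x = av r f x :=
  av_eq_of_inv r _ x (fun _ h => (av_congr f h).symm)

theorem av_dv (r : Setoid α) (f : α → ℝ) (x : α) : av r (dv r f) x = 0 := by
  have : av r (fun y => f y - av r f y) x = 0 := by rw [av_sub, av_av]; ring
  exact this

/-- Double counting over a symmetric relation. -/
theorem sum_mul_av (r : Setoid α) (f g : α → ℝ) :
    ∑ x, f x * av r g x = ∑ x, av r f x * g x := by
  classical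
  have h1 : ∑ x, f x * av r g x =
      ∑ x, ∑ y, if r x y then f x * g y / ((cls r x).card : ℝ) else 0 := by
    refine sum_congr rfl fun x _ => ?_
    rw [← sum_filter]
    unfold av
    rw [mul_div_assoc', mul_sum, sum_div]
    refine sum_congr ?_ fun y _ => rfl
    ext y; simp [mem_cls]
  have h2 : ∑ x, av r f x * g x =
      ∑ x, ∑ y, if r x y then f y * g x / ((cls r x).card : ℝ) else 0 := by
    refine sum_congr rfl fun x _ => ?_
    rw [← sum_filter]
    unfold av
    rw [div_mul_eq_mul_div, sum_mul, sum_div]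
    refine sum_congr ?_ fun y _ => rfl
    ext y; simp [mem_cls]
  rw [h1, h2, sum_comm]
  refine sum_congr rfl fun x _ => sum_congr rfl fun y _ => ?_
  by_cases h : r x y
  · rw [if_pos h, if_pos (r.symm h), cls_congr h]
  · rw [if_neg h, if_neg (fun h' => h (r.symm h'))]

theorem sum_av (r : Setoid α) (f : α → ℝ) : ∑ x, av r f x = ∑ x, f x := by
  have h := sum_mul_av r (fun _ => 1) f
  simp only [one_mul] at h
  rw [h]
  refine sum_congr rfl fun x _ => ?_
  rw [av_eq_of_inv r (fun _ => (1 : ℝ)) x (fun _ _ => rfl), one_mul]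

/-- A sum over the whole type is nonnegative if every class sum is. -/
theorem sum_nonneg_of_cls (r : Setoid α) (F : α → ℝ) (h : ∀ x, 0 ≤ ∑ y ∈ cls r x, F y) :
    0 ≤ ∑ x, F x := by
  rw [← sum_av r F]
  exact sum_nonneg fun x _ => div_nonneg (h x) (Nat.cast_nonneg _)

theorem sum_le_of_cls (r : Setoid α) (F G : α → ℝ)
    (h : ∀ x, ∑ y ∈ cls r x, F y ≤ ∑ y ∈ cls r x, G y) : ∑ x, F x ≤ ∑ x, G x := by
  have := sum_nonneg_of_cls r (fun x => G x - F x) (fun x => by
    rw [sum_sub_distrib]; linarith [h x])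
  rw [sum_sub_distrib] at this
  linarith

theorem sum_eq_of_cls (r : Setoid α) (F G : α → ℝ)
    (h : ∀ x, ∑ y ∈ cls r x, F y = ∑ y ∈ cls r x, G y) : ∑ x, F x = ∑ x, G x :=
  le_antisymm (sum_le_of_cls r F G fun x => (h x).le) (sum_le_of_cls r G F fun x => (h x).ge)

theorem sum_av_mul_dv (r : Setoid α) (f g : α → ℝ) : ∑ x, av r f x * dv r g x = 0 := by
  rw [← sum_mul_av]
  refine sum_eq_zero fun x _ => ?_
  rw [av_dv, mul_zero]

theorem sum_mul_dv (r : Setoid α) (f g : α → ℝ) :
    ∑ x, f x * dv r g x = ∑ x, dv r f x * dv r g x := by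
  have h := sum_av_mul_dv r f g
  have : ∑ x, dv r f x * dv r g x = ∑ x, f x * dv r g x - ∑ x, av r f x * dv r g x := by
    rw [← sum_sub_distrib]
    exact sum_congr rfl fun x _ => by unfold dv; ring
  rw [this, h, sub_zero]

theorem sum_dv_mul (r : Setoid α) (f g : α → ℝ) :
    ∑ x, dv r f x * g x = ∑ x, dv r f x * dv r g x := by
  rw [sum_congr rfl (fun x _ => mul_comm (dv r f x) (g x)), sum_mul_dv]
  exact sum_congr rfl fun x _ => mul_comm _ _

theorem sum_sq_dv (r : Setoid α) (f : α → ℝ) :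
    ∑ x, dv r f x ^ 2 = ∑ x, f x * dv r f x := by
  rw [sum_mul_dv]
  exact sum_congr rfl fun x _ => by ring

/-! ### transfer along a class-closed embedding -/

theorem sum_cls_embed (r : Setoid α) (r' : Setoid β) (φ : β → α) (hφ : Function.Injective φ)
    (hr : ∀ x y, r' x y ↔ r (φ x) (φ y)) (hcl : ∀ x y, r (φ x) y → ∃ z, φ z = y)
    (F : α → ℝ) (x : β) : ∑ y ∈ cls r (φ x), F y = ∑ z ∈ cls r' x, F (φ z) := by
  classical
  have : cls r (φ x) = (cls r' x).map ⟨φ, hφ⟩ := by
    ext y
    simp only [mem_cls, mem_map, Function.Embedding.coeFn_mk]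
    constructor
    · intro h
      obtain ⟨z, rfl⟩ := hcl x y h
      exact ⟨z, (hr x z).2 h, rfl⟩
    · rintro ⟨z, hz, rfl⟩
      exact (hr x z).1 hz
  rw [this, sum_map]
  rfl

theorem card_cls_embed (r : Setoid α) (r' : Setoid β) (φ : β → α) (hφ : Function.Injective φ)
    (hr : ∀ x y, r' x y ↔ r (φ x) (φ y)) (hcl : ∀ x y, r (φ x) y → ∃ z, φ z = y)
    (x : β) : (cls r (φ x)).card = (cls r' x).card := by
  have h := sum_cls_embed r r' φ hφ hr hcl (fun _ => (1 : ℝ)) x
  simp only [sum_const, nsmul_eq_mul, mul_one] at h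
  exact_mod_cast h

theorem av_embed (r : Setoid α) (r' : Setoid β) (φ : β → α) (hφ : Function.Injective φ)
    (hr : ∀ x y, r' x y ↔ r (φ x) (φ y)) (hcl : ∀ x y, r (φ x) y → ∃ z, φ z = y)
    (f : α → ℝ) (x : β) : av r f (φ x) = av r' (fun z => f (φ z)) x := by
  unfold av
  rw [sum_cls_embed r r' φ hφ hr hcl, card_cls_embed r r' φ hφ hr hcl]

theorem dv_embed (r : Setoid α) (r' : Setoid β) (φ : β → α) (hφ : Function.Injective φ)
    (hr : ∀ x y, r' x y ↔ r (φ x) (φ y)) (hcl : ∀ x y, r (φ x) y → ∃ z, φ z = y)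
    (f : α → ℝ) (x : β) : dv r f (φ x) = dv r' (fun z => f (φ z)) x := by
  unfold dv
  rw [av_embed r r' φ hφ hr hcl]

theorem cav_embed (r : Setoid α) (r' : Setoid β) (φ : β → α) (hφ : Function.Injective φ)
    (hr : ∀ x y, r' x y ↔ r (φ x) (φ y)) (hcl : ∀ x y, r (φ x) y → ∃ z, φ z = y)
    (P : α → Prop) (f : α → ℝ) (x : β) :
    cav r P f (φ x) = cav r' (fun z => P (φ z)) (fun z => f (φ z)) x := by
  classical
  have key : ∀ F : α → ℝ, ∑ y ∈ (cls r (φ x)).filter P, F y =
      ∑ z ∈ (cls r' x).filter (fun z => P (φ z)), F (φ z) := by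
    intro F
    rw [sum_filter, sum_cls_embed r r' φ hφ hr hcl, ← sum_filter]
  have hc : (((cls r (φ x)).filter P).card : ℝ) =
      (((cls r' x).filter (fun z => P (φ z))).card : ℝ) := by
    have h := key (fun _ => (1 : ℝ))
    simpa only [sum_const, nsmul_eq_mul, mul_one] using h
  unfold cav
  convert congrArg₂ (· / ·) (key f) hc using 2

end Vale.Agent.KTV
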