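import Mathlib

/-!
# From a Poincaré inequality to the mixing time of a lazy symmetric chain
-/

open Finset BigOperators Matrix

namespace KTV

variable {Ω : Type*} [Fintype Ω] [DecidableEq Ω]

omit [DecidableEq Ω] in
/-- A doubly stochastic kernel contracts the square norm. -/
theorem sum_sq_mulVec_le (Q : Matrix Ω Ω ℝ) (hs : ∀ x y, Q x y = Q y x)
    (h0 : ∀ x y, 0 ≤ Q x y) (h1 : ∀ x, ∑ y, Q x y = 1) (f : Ω → ℝ) :
    ∑ x, (∑ y, Q x y * f y) ^ 2 ≤ ∑ x, f x ^ 2 := by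
  have hJ : ∀ x, (∑ y, Q x y * f y) ^ 2 ≤ ∑ y, Q x y * f y ^ 2 := by
    intro x
    have := (convexOn_pow 2 |>.map_sum_le (t := Finset.univ) (w := fun y => Q x y)
      (p := fun y => |f y|) (fun y _ => h0 x y) (h1 x) (fun y _ => by simp))
    simp only [smul_eq_mul, sq_abs] at this
    refine le_trans ?_ this
    rw [← sq_abs (∑ y, Q x y * f y)]
    refine pow_le_pow_left₀ (abs_nonneg _) ?_ 2
    refine (Finset.abs_sum_le_sum_abs _ _).trans (le_of_eq ?_)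
    refine Finset.sum_congr rfl fun y _ => ?_
    rw [abs_mul, abs_of_nonneg (h0 x y)]
  calc ∑ x, (∑ y, Q x y * f y) ^ 2 ≤ ∑ x, ∑ y, Q x y * f y ^ 2 :=
        Finset.sum_le_sum fun x _ => hJ x
    _ = ∑ y, ∑ x, Q x y * f y ^ 2 := Finset.sum_comm
    _ = ∑ y, f y ^ 2 := by
        refine Finset.sum_congr rfl fun y _ => ?_
        rw [← Finset.sum_mul]
        have : ∑ x, Q x y = 1 := by
          rw [← h1 y]; exact Finset.sum_congr rfl fun x _ => hs x y
        rw [this, one_mul]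

omit [DecidableEq Ω] in
/-- The Dirichlet form of a symmetric stochastic kernel. -/
theorem dirichlet_eq (P : Matrix Ω Ω ℝ) (hs : ∀ x y, P x y = P y x)
    (h1 : ∀ x, ∑ y, P x y = 1) (f : Ω → ℝ) :
    (1 / 2 : ℝ) * ∑ x, ∑ y, P x y * (f x - f y) ^ 2
      = ∑ x, f x ^ 2 - ∑ x, f x * ∑ y, P x y * f y := by
  have e1 : ∀ x, ∑ y, P x y * (f x - f y) ^ 2
      = f x ^ 2 - 2 * (f x * ∑ y, P x y * f y) + ∑ y, P x y * f y ^ 2 := by
    intro x
    have : ∀ y, P x y * (f x - f y) ^ 2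
        = P x y * f x ^ 2 - 2 * f x * (P x y * f y) + P x y * f y ^ 2 := by
      intro y; ring
    simp only [this, Finset.sum_add_distrib, Finset.sum_sub_distrib, ← Finset.sum_mul,
      ← Finset.mul_sum, h1]
    ring
  have e2 : ∑ x, ∑ y, P x y * f y ^ 2 = ∑ y, f y ^ 2 := by
    rw [Finset.sum_comm]
    refine Finset.sum_congr rfl fun y _ => ?_
    rw [← Finset.sum_mul]
    have : ∑ x, P x y = 1 := by
      rw [← h1 y]; exact Finset.sum_congr rfl fun x _ => hs x y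
    rw [this, one_mul]
  simp only [e1, Finset.sum_add_distrib, Finset.sum_sub_distrib, e2, ← Finset.mul_sum]
  ring

/-- One step of a lazy symmetric chain with Poincaré constant `γ` contracts the square norm of
mean zero functions by `1 - γ`. -/
theorem lazy_contract (P Q : Matrix Ω Ω ℝ)
    (hPQ : ∀ x y, P x y = (1 / 2) * ((if x = y then 1 else 0) + Q x y))
    (hs : ∀ x y, Q x y = Q y x) (h0 : ∀ x y, 0 ≤ Q x y) (h1 : ∀ x, ∑ y, Q x y = 1)
    (γ : ℝ)
    (hgap : ∀ f : Ω → ℝ, ∑ x, f x = 0 →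
      γ * ∑ x, f x ^ 2 ≤ (1 / 2) * ∑ x, ∑ y, P x y * (f x - f y) ^ 2)
    (f : Ω → ℝ) (hf : ∑ x, f x = 0) :
    ∑ x, (∑ y, P x y * f y) ^ 2 ≤ (1 - γ) * ∑ x, f x ^ 2 := by
  have hPs : ∀ x y, P x y = P y x := by
    intro x y; rw [hPQ, hPQ, hs x y]; simp only [eq_comm]
  have hP1 : ∀ x, ∑ y, P x y = 1 := by
    intro x
    simp only [hPQ, ← Finset.mul_sum, Finset.sum_add_distrib, h1]
    simp
    norm_num
  have hPf : ∀ x, ∑ y, P x y * f y = (1 / 2) * (f x + ∑ y, Q x y * f y) := by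
    intro x
    simp only [hPQ, mul_assoc, ← Finset.mul_sum, add_mul, Finset.sum_add_distrib]
    simp
  have hD := hgap f hf
  rw [dirichlet_eq P hPs hP1] at hD
  have hQ := sum_sq_mulVec_le Q hs h0 h1 f
  have hexp : ∑ x, (∑ y, P x y * f y) ^ 2
      = ∑ x, f x * ∑ y, P x y * f y
        - (1 / 4) * (∑ x, f x ^ 2 - ∑ x, (∑ y, Q x y * f y) ^ 2) := by
    rw [← Finset.sum_sub_distrib, Finset.mul_sum, ← Finset.sum_sub_distrib]
    refine Finset.sum_congr rfl fun x _ => ?_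
    rw [hPf]; ring
  rw [hexp]
  linarith

theorem lazy_contract_pow (P Q : Matrix Ω Ω ℝ)
    (hPQ : ∀ x y, P x y = (1 / 2) * ((if x = y then 1 else 0) + Q x y))
    (hs : ∀ x y, Q x y = Q y x) (h0 : ∀ x y, 0 ≤ Q x y) (h1 : ∀ x, ∑ y, Q x y = 1)
    (γ : ℝ) (hγ1 : γ ≤ 1)
    (hgap : ∀ f : Ω → ℝ, ∑ x, f x = 0 →
      γ * ∑ x, f x ^ 2 ≤ (1 / 2) * ∑ x, ∑ y, P x y * (f x - f y) ^ 2)
    (f : Ω → ℝ) (hf : ∑ x, f x = 0) (t : ℕ) :
    ∑ x, ((P ^ t).mulVec f x) = 0 ∧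
    ∑ x, ((P ^ t).mulVec f x) ^ 2 ≤ (1 - γ) ^ t * ∑ x, f x ^ 2 := by
  have hPs : ∀ x y, P x y = P y x := by
    intro x y; rw [hPQ, hPQ, hs x y]; simp only [eq_comm]
  have hP1 : ∀ x, ∑ y, P x y = 1 := by
    intro x
    simp only [hPQ, ← Finset.mul_sum, Finset.sum_add_distrib, h1]
    simp
    norm_num
  induction t with
  | zero => simp [hf]
  | succ t ih =>
    obtain ⟨ih0, ih1⟩ := ih
    have hstep : ∀ x, (P ^ (t + 1)).mulVec f x = ∑ y, P x y * ((P ^ t).mulVec f y) := by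
      intro x
      rw [pow_succ', ← Matrix.mulVec_mulVec]
      rfl
    constructor
    · simp only [hstep]
      rw [Finset.sum_comm]
      rw [← ih0]
      refine Finset.sum_congr rfl fun y _ => ?_
      rw [← Finset.sum_mul]
      have : ∑ x, P x y = 1 := by
        rw [← hP1 y]; exact Finset.sum_congr rfl fun x _ => hPs x y
      rw [this, one_mul]
    · simp only [hstep]
      refine (lazy_contract P Q hPQ hs h0 h1 γ hgap _ ih0).trans ?_
      rw [pow_succ', mul_assoc]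
      exact mul_le_mul_of_nonneg_left ih1 (by linarith)

/-- Total variation bound after `t` steps. -/
theorem tv_le (P Q : Matrix Ω Ω ℝ)
    (hPQ : ∀ x y, P x y = (1 / 2) * ((if x = y then 1 else 0) + Q x y))
    (hs : ∀ x y, Q x y = Q y x) (h0 : ∀ x y, 0 ≤ Q x y) (h1 : ∀ x, ∑ y, Q x y = 1)
    (γ : ℝ) (hγ1 : γ ≤ 1)
    (hgap : ∀ f : Ω → ℝ, ∑ x, f x = 0 →
      γ * ∑ x, f x ^ 2 ≤ (1 / 2) * ∑ x, ∑ y, P x y * (f x - f y) ^ 2)
    (t : ℕ) (x : Ω) :
    (∑ y, |(P ^ t) x y - 1 / (Fintype.card Ω : ℝ)|) ^ 2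
      ≤ (Fintype.card Ω : ℝ) * (1 - γ) ^ t := by
  have hPs : ∀ x y, P x y = P y x := by
    intro x y; rw [hPQ, hPQ, hs x y]; simp only [eq_comm]
  have hP1 : ∀ x, ∑ y, P x y = 1 := by
    intro x
    simp only [hPQ, ← Finset.mul_sum, Finset.sum_add_distrib, h1]
    simp
    norm_num
  have hcard : (0 : ℝ) < Fintype.card Ω := by
    exact_mod_cast Fintype.card_pos_iff.mpr ⟨x⟩
  set f : Ω → ℝ := fun y => (if y = x then 1 else 0) - 1 / (Fintype.card Ω : ℝ) with hfdef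
  have hf0 : ∑ y, f y = 0 := by
    simp only [hfdef, Finset.sum_sub_distrib, Finset.sum_ite_eq', Finset.mem_univ, if_true,
      Finset.sum_const, Finset.card_univ, nsmul_eq_mul]
    field_simp
    ring
  have hf2 : ∑ y, f y ^ 2 ≤ 1 := by
    have : ∀ y, f y ^ 2 = (if y = x then 1 - 2 / (Fintype.card Ω : ℝ) else 0)
        + (1 / (Fintype.card Ω : ℝ)) ^ 2 := by
      intro y
      simp only [hfdef]
      split_ifs <;> ring
    simp only [this, Finset.sum_add_distrib, Finset.sum_ite_eq', Finset.mem_univ, if_true,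
      Finset.sum_const, Finset.card_univ, nsmul_eq_mul]
    have h3 : (Fintype.card Ω : ℝ) * (1 / (Fintype.card Ω : ℝ)) ^ 2
        = 1 / (Fintype.card Ω : ℝ) := by field_simp
    rw [h3]
    have : 0 ≤ 1 / (Fintype.card Ω : ℝ) := by positivity
    have h4 : 2 / (Fintype.card Ω : ℝ) = 2 * (1 / (Fintype.card Ω : ℝ)) := by ring
    rw [h4]; linarith
  have hPtsymm : (P ^ t).IsSymm := by
    have : P.IsSymm := by
      ext a b; exact hPs b a
    exact this.pow t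
  have hPtone : ∀ z, ∑ y, (P ^ t) z y = 1 := by
    have hone : P.mulVec (fun _ => (1 : ℝ)) = fun _ => 1 := by
      ext z; simp [Matrix.mulVec, dotProduct, hP1]
    have : (P ^ t).mulVec (fun _ => (1 : ℝ)) = fun _ => 1 := by
      induction t with
      | zero => simp
      | succ t ih =>
        rw [pow_succ', ← Matrix.mulVec_mulVec, ih, hone]
        · exact (Matrix.IsSymm.pow (by ext a b; exact hPs b a) t)
    intro z
    have h5 := congrFun this z
    simpa [Matrix.mulVec, dotProduct] using h5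
  have hval : ∀ y, (P ^ t).mulVec f y = (P ^ t) x y - 1 / (Fintype.card Ω : ℝ) := by
    intro y
    simp only [Matrix.mulVec, dotProduct, hfdef, mul_sub, Finset.sum_sub_distrib, mul_ite,
      mul_one, mul_zero, Finset.sum_ite_eq', Finset.mem_univ, if_true]
    rw [← Finset.sum_mul, hPtone, one_mul]
    rw [hPtsymm.apply x y]
  have hmain := (lazy_contract_pow P Q hPQ hs h0 h1 γ hγ1 hgap f hf0 t).2
  simp only [hval] at hmain
  calc (∑ y, |(P ^ t) x y - 1 / (Fintype.card Ω : ℝ)|) ^ 2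
      ≤ (Finset.univ.card : ℝ) * ∑ y, |(P ^ t) x y - 1 / (Fintype.card Ω : ℝ)| ^ 2 :=
        sq_sum_le_card_mul_sum_sq
    _ = (Fintype.card Ω : ℝ) * ∑ y, ((P ^ t) x y - 1 / (Fintype.card Ω : ℝ)) ^ 2 := by
        simp only [sq_abs, Finset.card_univ]
    _ ≤ (Fintype.card Ω : ℝ) * ((1 - γ) ^ t * 1) := by
        refine mul_le_mul_of_nonneg_left (hmain.trans ?_) hcard.le
        exact mul_le_mul_of_nonneg_left hf2 (pow_nonneg (by linarith) t)
    _ = _ := by ring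

/-- If `log (4 |Ω|) ≤ γ t` then the chain has mixed (total variation `≤ 1/4`) at time `t`. -/
theorem tv_le_quarter (P Q : Matrix Ω Ω ℝ)
    (hPQ : ∀ x y, P x y = (1 / 2) * ((if x = y then 1 else 0) + Q x y))
    (hs : ∀ x y, Q x y = Q y x) (h0 : ∀ x y, 0 ≤ Q x y) (h1 : ∀ x, ∑ y, Q x y = 1)
    (γ : ℝ) (hγ1 : γ ≤ 1)
    (hgap : ∀ f : Ω → ℝ, ∑ x, f x = 0 →
      γ * ∑ x, f x ^ 2 ≤ (1 / 2) * ∑ x, ∑ y, P x y * (f x - f y) ^ 2)
    (t : ℕ) (ht : Real.log (4 * Fintype.card Ω) ≤ γ * t) (x : Ω) :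
    (1 / 2 : ℝ) * ∑ y, |(P ^ t) x y - 1 / (Fintype.card Ω : ℝ)| ≤ 1 / 4 := by
  have hcard : (0 : ℝ) < Fintype.card Ω := by
    exact_mod_cast Fintype.card_pos_iff.mpr ⟨x⟩
  have h := tv_le P Q hPQ hs h0 h1 γ hγ1 hgap t x
  have h2 : (1 - γ) ^ t ≤ Real.exp (-(γ * t)) := by
    have : (1 - γ) ≤ Real.exp (-γ) := by
      have := Real.add_one_le_exp (-γ); linarith
    calc (1 - γ) ^ t ≤ (Real.exp (-γ)) ^ t := pow_le_pow_left₀ (by linarith) this t
      _ = Real.exp (-(γ * t)) := by rw [← Real.exp_nat_mul]; ring_nf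
  have h3 : Real.exp (-(γ * t)) ≤ 1 / (4 * Fintype.card Ω) := by
    calc Real.exp (-(γ * t)) ≤ Real.exp (-Real.log (4 * Fintype.card Ω)) :=
          Real.exp_le_exp.mpr (by linarith)
      _ = 1 / (4 * Fintype.card Ω) := by
          rw [Real.exp_neg, Real.exp_log (by positivity), one_div]
  have h4 : (∑ y, |(P ^ t) x y - 1 / (Fintype.card Ω : ℝ)|) ^ 2 ≤ (1 / 2) ^ 2 := by
    calc _ ≤ (Fintype.card Ω : ℝ) * (1 - γ) ^ t := h
      _ ≤ (Fintype.card Ω : ℝ) * (1 / (4 * Fintype.card Ω)) :=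
          mul_le_mul_of_nonneg_left (h2.trans h3) hcard.le
      _ = (1 / 2) ^ 2 := by field_simp; norm_num
  have h5 := abs_le_of_sq_le_sq h4 (by norm_num)
  have h6 := le_abs_self (∑ y, |(P ^ t) x y - 1 / (Fintype.card Ω : ℝ)|)
  linarith

end KTV
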