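import Vale.Agent.KTV.Matching
import Vale.Agent.KTV.Mixing

/-!
# Elementary properties of the switch chain
-/

open Finset BigOperators

namespace KTV

variable {n : ℕ}

/-- The switch is admissible. -/
def Adm (G : SimpleGraph (Fin n)) (F F' : Finset (Sym2 (Fin n))) : Prop :=
  (∀ e ∈ F, e ∈ G.edgeSet) ∧ (∀ e ∈ F', e ∉ G.edgeSet)

theorem move_of_adm {G : SimpleGraph (Fin n)} {F F' : Finset (Sym2 (Fin n))} (h : Adm G F F') :
    move G F F' =
      SimpleGraph.fromEdgeSet ((G.edgeSet \ (F : Set (Sym2 (Fin n)))) ∪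
        (F' : Set (Sym2 (Fin n)))) := by
  unfold move; exact if_pos h

theorem move_of_not_adm {G : SimpleGraph (Fin n)} {F F' : Finset (Sym2 (Fin n))}
    (h : ¬ Adm G F F') : move G F F' = G := by
  unfold move; exact if_neg h

theorem adj_move {G : SimpleGraph (Fin n)} {S : Finset (Fin n)} {F F' : Finset (Sym2 (Fin n))}
    (hF' : IsPerfectMatchingOn S F') (h : Adm G F F') (u v : Fin n) :
    (move G F F').Adj u v ↔ (G.Adj u v ∧ s(u, v) ∉ F) ∨ s(u, v) ∈ F' := by
  rw [move_of_adm h, SimpleGraph.fromEdgeSet_adj]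
  simp only [Set.mem_union, Set.mem_sdiff, SimpleGraph.mem_edgeSet, Finset.mem_coe]
  constructor
  · rintro ⟨h1, _⟩; exact h1
  · intro h1
    refine ⟨h1, ?_⟩
    rcases h1 with h1 | h1
    · exact h1.1.ne
    · have := (hF'.1 _ h1).1
      simpa using this

theorem mem_of_mem_matching {S : Finset (Fin n)} {F : Finset (Sym2 (Fin n))}
    (hF : IsPerfectMatchingOn S F) {u v : Fin n} (h : s(u, v) ∈ F) : u ∈ S ∧ v ∈ S ∧ u ≠ v := by
  have := hF.1 _ h
  refine ⟨this.2 u (by simp), this.2 v (by simp), by simpa using this.1⟩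

/-- The unique partner. -/
theorem exists_partner {S : Finset (Fin n)} {F : Finset (Sym2 (Fin n))}
    (hF : IsPerfectMatchingOn S F) {v : Fin n} (hv : v ∈ S) :
    ∃ w, ∀ x, s(v, x) ∈ F ↔ x = w := by
  obtain ⟨f, ⟨hf, hvf⟩, hu⟩ := hF.2 v hv
  obtain ⟨w, rfl⟩ := Sym2.mem_iff_exists.mp hvf
  refine ⟨w, fun x => ⟨fun hx => ?_, fun hx => by rw [hx]; exact hf⟩⟩
  have := hu _ ⟨hx, by simp⟩
  exact Sym2.congr_right.mp this

theorem ncard_neighborSet_move {G : SimpleGraph (Fin n)} {S : Finset (Fin n)}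
    {F F' : Finset (Sym2 (Fin n))} (hF : IsPerfectMatchingOn S F)
    (hF' : IsPerfectMatchingOn S F') (v : Fin n) :
    ((move G F F').neighborSet v).ncard = (G.neighborSet v).ncard := by
  by_cases h : Adm G F F'
  swap
  · rw [move_of_not_adm h]
  by_cases hv : v ∈ S
  · obtain ⟨w, hw⟩ := exists_partner hF hv
    obtain ⟨w', hw'⟩ := exists_partner hF' hv
    have e : (move G F F').neighborSet v = insert w' (G.neighborSet v \ {w}) := by
      ext x
      simp only [SimpleGraph.mem_neighborSet, adj_move hF' h, hw, hw', Set.mem_insert_iff,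
        Set.mem_sdiff, Set.mem_singleton_iff]
      tauto
    have hwG : w ∈ G.neighborSet v := by
      have : s(v, w) ∈ G.edgeSet := h.1 _ ((hw w).mpr rfl)
      simpa using this
    have hw'G : w' ∉ G.neighborSet v := by
      have : s(v, w') ∉ G.edgeSet := h.2 _ ((hw' w').mpr rfl)
      simpa using this
    rw [e, Set.ncard_insert_of_notMem (fun hh => hw'G hh.1) (Set.toFinite _),
      Set.ncard_sdiff_singleton_of_mem hwG]
    have : 0 < (G.neighborSet v).ncard := by
      rw [Set.ncard_pos (Set.toFinite _)]; exact ⟨w, hwG⟩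
    omega
  · congr 1
    ext x
    simp only [SimpleGraph.mem_neighborSet, adj_move hF' h]
    constructor
    · rintro (h1 | h1)
      · exact h1.1
      · exact absurd (mem_of_mem_matching hF' h1).1 hv
    · intro h1
      left
      exact ⟨h1, fun h2 => hv (mem_of_mem_matching hF h2).1⟩

/-- The move as a self-map of `Ω_d`. -/
noncomputable def moveO {d : Fin n → ℕ} {S : Finset (Fin n)} {F F' : Finset (Sym2 (Fin n))}
    (hF : IsPerfectMatchingOn S F) (hF' : IsPerfectMatchingOn S F') (G : Omega n d) :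
    Omega n d :=
  ⟨move G.1 F F', fun v => by rw [ncard_neighborSet_move hF hF' v]; exact G.2 v⟩

theorem adm_move {G : SimpleGraph (Fin n)} {S : Finset (Fin n)}
    {F F' : Finset (Sym2 (Fin n))}
    (hF' : IsPerfectMatchingOn S F') (h : Adm G F F') : Adm (move G F F') F' F := by
  constructor
  · intro e he
    induction e using Sym2.ind with
    | _ u v => rw [SimpleGraph.mem_edgeSet, adj_move hF' h]; exact Or.inr he
  · intro e he
    induction e using Sym2.ind with
    | _ u v =>
      rw [SimpleGraph.mem_edgeSet, adj_move hF' h]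
      rintro (h1 | h1)
      · exact h1.2 he
      · exact h.2 _ h1 (h.1 _ he)

theorem move_move {G : SimpleGraph (Fin n)} {S : Finset (Fin n)}
    {F F' : Finset (Sym2 (Fin n))} (hF : IsPerfectMatchingOn S F)
    (hF' : IsPerfectMatchingOn S F') (h : Adm G F F') : move (move G F F') F' F = G := by
  ext u v
  rw [adj_move hF (adm_move hF' h), adj_move hF' h]
  have h1 : s(u, v) ∈ F → G.Adj u v := fun h1 => by simpa using h.1 _ h1
  have h2 : s(u, v) ∈ F' → ¬ G.Adj u v := fun h2 => by simpa using h.2 _ h2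
  tauto

theorem move_eq_iff {G H : SimpleGraph (Fin n)} {S : Finset (Fin n)}
    {F F' : Finset (Sym2 (Fin n))} (hF : IsPerfectMatchingOn S F)
    (hF' : IsPerfectMatchingOn S F') (hne : G ≠ H) :
    move G F F' = H ↔ move H F' F = G := by
  constructor
  · intro h
    have ha : Adm G F F' := by
      by_contra hc
      exact hne (by rw [← h, move_of_not_adm hc])
    rw [← h, move_move hF hF' ha]
  · intro h
    have ha : Adm H F' F := by
      by_contra hc
      exact hne (by rw [← h, move_of_not_adm hc])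
    rw [← h, move_move hF' hF ha]

open Classical in
theorem mem_matchingPairs {S : Finset (Fin n)}
    {p : Finset (Sym2 (Fin n)) × Finset (Sym2 (Fin n))} :
    p ∈ matchingPairs S ↔
      IsPerfectMatchingOn S p.1 ∧ IsPerfectMatchingOn S p.2 ∧ p.1 ≠ p.2 := by
  simp [matchingPairs]

/-- The non-lazy part of the switch chain. -/
noncomputable def switchQ (n : ℕ) (d : Fin n → ℕ) : Matrix (Omega n d) (Omega n d) ℝ := by
  classical
  exact fun G H =>
    ∑ S ∈ Finset.powersetCard 4 (Finset.univ : Finset (Fin n)),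
      (1 / (n.choose 4 : ℝ)) * ∑ p ∈ matchingPairs S,
        (1 / ((matchingPairs S).card : ℝ)) * (if move G.1 p.1 p.2 = H.1 then 1 else 0)

theorem switchChain_eq (d : Fin n → ℕ) (G H : Omega n d) :
    switchChain n d G H = (1 / 2) * ((if G = H then 1 else 0) + switchQ n d G H) := by
  unfold switchChain switchQ
  simp only [mul_add]

theorem switchQ_nonneg (d : Fin n → ℕ) (G H : Omega n d) : 0 ≤ switchQ n d G H := by
  unfold switchQ
  refine Finset.sum_nonneg fun S _ => mul_nonneg (by positivity) ?_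
  refine Finset.sum_nonneg fun p _ => mul_nonneg (by positivity) ?_
  split_ifs <;> norm_num

theorem switchQ_symm (d : Fin n → ℕ) (G H : Omega n d) :
    switchQ n d G H = switchQ n d H G := by
  by_cases hGH : G = H
  · rw [hGH]
  unfold switchQ
  refine Finset.sum_congr rfl fun S _ => ?_
  congr 1
  refine Finset.sum_nbij' (fun p => (p.2, p.1)) (fun p => (p.2, p.1)) ?_ ?_ ?_ ?_ ?_
  · intro p hp
    rw [mem_matchingPairs] at hp ⊢
    exact ⟨hp.2.1, hp.1, hp.2.2.symm⟩
  · intro p hp
    rw [mem_matchingPairs] at hp ⊢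
    exact ⟨hp.2.1, hp.1, hp.2.2.symm⟩
  · intro p _; rfl
  · intro p _; rfl
  · intro p hp
    rw [mem_matchingPairs] at hp
    have : move G.1 p.1 p.2 = H.1 ↔ move H.1 p.2 p.1 = G.1 :=
      move_eq_iff hp.1 hp.2.1 (fun h => hGH (Subtype.ext h))
    by_cases h : move G.1 p.1 p.2 = H.1
    · rw [if_pos h, if_pos (this.mp h)]
    · rw [if_neg h, if_neg (fun h' => h (this.mpr h'))]

theorem sum_move_eq (d : Fin n → ℕ) {S : Finset (Fin n)} {F F' : Finset (Sym2 (Fin n))}
    (hF : IsPerfectMatchingOn S F) (hF' : IsPerfectMatchingOn S F') (G : Omega n d)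
    (g : Omega n d → ℝ) [∀ H : Omega n d, Decidable (move G.1 F F' = H.1)] :
    ∑ H : Omega n d, (if move G.1 F F' = H.1 then (1 : ℝ) else 0) * g H
      = g (moveO hF hF' G) := by
  rw [Finset.sum_eq_single (moveO hF hF' G)]
  · have : move G.1 F F' = (moveO hF hF' G).1 := rfl
    rw [if_pos this, one_mul]
  · intro H _ hH
    rw [if_neg, zero_mul]
    intro h
    exact hH (Subtype.ext h.symm)
  · intro h; exact absurd (Finset.mem_univ _) h

theorem sum_switchQ_mul (d : Fin n → ℕ) (G : Omega n d) (g : Omega n d → ℝ) :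
    ∑ H, switchQ n d G H * g H =
      (1 / (n.choose 4 : ℝ)) * ∑ S ∈ Finset.powersetCard 4 (Finset.univ : Finset (Fin n)),
        (1 / 6) * ∑ p ∈ (matchingPairs S).attach,
          g (moveO (mem_matchingPairs.mp p.2).1 (mem_matchingPairs.mp p.2).2.1 G) := by
  classical
  have h6 : ∀ S ∈ Finset.powersetCard 4 (Finset.univ : Finset (Fin n)),
      ((matchingPairs S).card : ℝ) = 6 := by
    intro S hS
    rw [card_matchingPairs (Finset.mem_powersetCard.mp hS).2]; norm_num
  unfold switchQ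
  simp only [Finset.sum_mul]
  rw [Finset.sum_comm, Finset.mul_sum]
  refine Finset.sum_congr rfl fun S hS => ?_
  simp only [mul_assoc, ← Finset.mul_sum]
  congr 1
  simp only [h6 S hS, Finset.sum_mul]
  congr 1
  rw [Finset.sum_comm, ← Finset.sum_attach]
  refine Finset.sum_congr rfl fun p _ => ?_
  exact sum_move_eq d (mem_matchingPairs.mp p.2).1 (mem_matchingPairs.mp p.2).2.1 G g

theorem switchQ_row (hn : 4 ≤ n) (d : Fin n → ℕ) (G : Omega n d) :
    ∑ H, switchQ n d G H = 1 := by
  have h := sum_switchQ_mul d G (fun _ => 1)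
  simp only [mul_one, Finset.sum_const, Finset.card_attach, nsmul_eq_mul] at h
  rw [h]
  have h6 : ∀ S ∈ Finset.powersetCard 4 (Finset.univ : Finset (Fin n)),
      (1 / 6 : ℝ) * ((matchingPairs S).card : ℝ) = 1 := by
    intro S hS
    rw [card_matchingPairs (Finset.mem_powersetCard.mp hS).2]; norm_num
  rw [Finset.sum_congr rfl h6]
  simp only [Finset.sum_const, Finset.card_powersetCard, Finset.card_univ, Fintype.card_fin,
    nsmul_eq_mul, mul_one]
  have : (0 : ℝ) < (n.choose 4 : ℝ) := by exact_mod_cast Nat.choose_pos hn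
  field_simp

/-- The Dirichlet form of the switch chain dominates the energy of every single switch. -/
theorem energy_le (hn : 4 ≤ n) (d : Fin n → ℕ) (f : Omega n d → ℝ) {S : Finset (Fin n)}
    (hS : S.card = 4) {F F' : Finset (Sym2 (Fin n))} (hF : IsPerfectMatchingOn S F)
    (hF' : IsPerfectMatchingOn S F') (hne : F ≠ F') :
    ∑ G, (f G - f (moveO hF hF' G)) ^ 2 ≤
      (n : ℝ) ^ 4 * ((1 / 2) * ∑ G, ∑ H, switchChain n d G H * (f G - f H) ^ 2) := by
  classical
  have hc : (0 : ℝ) < (n.choose 4 : ℝ) := by exact_mod_cast Nat.choose_pos hn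
  have e1 : (1 / 2 : ℝ) * ∑ G, ∑ H, switchChain n d G H * (f G - f H) ^ 2
      = (1 / 4) * ∑ G, ∑ H, switchQ n d G H * (f G - f H) ^ 2 := by
    rw [show (1 / 4 : ℝ) = (1 / 2) * (1 / 2) by norm_num, mul_assoc]
    congr 1
    rw [Finset.mul_sum]
    refine Finset.sum_congr rfl fun G _ => ?_
    rw [Finset.mul_sum]
    refine Finset.sum_congr rfl fun H _ => ?_
    rw [switchChain_eq]
    by_cases h : G = H
    · subst h; simp
    · simp [h]; ring
  rw [e1]
  simp only [sum_switchQ_mul d]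
  have hmem : S ∈ Finset.powersetCard 4 (Finset.univ : Finset (Fin n)) := by
    rw [Finset.mem_powersetCard]; exact ⟨Finset.subset_univ _, hS⟩
  have hp : (F, F') ∈ matchingPairs S := mem_matchingPairs.mpr ⟨hF, hF', hne⟩
  have hlow : ∀ G : Omega n d, (1 / 6 : ℝ) * (f G - f (moveO hF hF' G)) ^ 2 ≤
      ∑ S ∈ Finset.powersetCard 4 (Finset.univ : Finset (Fin n)),
        (1 / 6) * ∑ p ∈ (matchingPairs S).attach,
          (f G - f (moveO (mem_matchingPairs.mp p.2).1 (mem_matchingPairs.mp p.2).2.1 G)) ^ 2 := by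
    intro G
    refine le_trans ?_ (Finset.single_le_sum (f := fun S => (1 / 6 : ℝ) *
      ∑ p ∈ (matchingPairs S).attach,
          (f G - f (moveO (mem_matchingPairs.mp p.2).1 (mem_matchingPairs.mp p.2).2.1 G)) ^ 2)
      (fun S _ => ?_) hmem)
    · refine mul_le_mul_of_nonneg_left ?_ (by norm_num)
      exact Finset.single_le_sum (f := fun p : {p // p ∈ matchingPairs S} =>
          (f G - f (moveO (mem_matchingPairs.mp p.2).1 (mem_matchingPairs.mp p.2).2.1 G)) ^ 2)
        (fun p _ => sq_nonneg _) (Finset.mem_attach _ ⟨(F, F'), hp⟩)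
    · exact mul_nonneg (by norm_num) (Finset.sum_nonneg fun p _ => sq_nonneg _)
  have h24 : 24 * (n.choose 4 : ℝ) ≤ (n : ℝ) ^ 4 := by
    have h1 : Nat.factorial 4 * n.choose 4 = n.descFactorial 4 :=
      (Nat.descFactorial_eq_factorial_mul_choose n 4).symm
    have h2 : n.descFactorial 4 ≤ n ^ 4 := Nat.descFactorial_le_pow n 4
    have h3 : 24 * n.choose 4 ≤ n ^ 4 := by
      have : Nat.factorial 4 = 24 := rfl
      rw [← this, h1]; exact h2
    exact_mod_cast h3
  set R : Omega n d → ℝ := fun G =>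
      ∑ S ∈ Finset.powersetCard 4 (Finset.univ : Finset (Fin n)),
        (1 / 6) * ∑ p ∈ (matchingPairs S).attach,
          (f G - f (moveO (mem_matchingPairs.mp p.2).1 (mem_matchingPairs.mp p.2).2.1 G)) ^ 2
    with hR
  have hRsum : ∑ G, (1 / 6 : ℝ) * (f G - f (moveO hF hF' G)) ^ 2 ≤ ∑ G, R G :=
    Finset.sum_le_sum fun G _ => hlow G
  rw [← Finset.mul_sum] at hRsum
  have hA : 0 ≤ ∑ G, (f G - f (moveO hF hF' G)) ^ 2 := Finset.sum_nonneg fun G _ => sq_nonneg _
  have hfin : (n : ℝ) ^ 4 * ((1 / 4) * ∑ G, (1 / (n.choose 4 : ℝ)) * R G)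
      = ((n : ℝ) ^ 4 / (24 * (n.choose 4 : ℝ))) * (6 * ∑ G, R G) := by
    rw [← Finset.mul_sum]
    field_simp
    ring
  have goal' : ∑ G, (f G - f (moveO hF hF' G)) ^ 2
      ≤ (n : ℝ) ^ 4 * ((1 / 4) * ∑ G, (1 / (n.choose 4 : ℝ)) * R G) := by
    rw [hfin]
    have h1 : 1 ≤ (n : ℝ) ^ 4 / (24 * (n.choose 4 : ℝ)) := by
      rw [le_div_iff₀ (by positivity)]; linarith
    have h2 : ∑ G, (f G - f (moveO hF hF' G)) ^ 2 ≤ 6 * ∑ G, R G := by linarith
    calc ∑ G, (f G - f (moveO hF hF' G)) ^ 2 ≤ 6 * ∑ G, R G := h2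
      _ = 1 * (6 * ∑ G, R G) := by ring
      _ ≤ _ := mul_le_mul_of_nonneg_right h1 (hA.trans h2)
  exact goal'

end KTV
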