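import Vale.Agent.KTV.Switch

/-!
Connectivity: a function invariant under all switches depends only on loops and degrees.

Paper proof.  Induct on the set `S` of processed vertices, i.e. prove by induction on `|V \ S|`:
if `g, h` have the same loops and degrees and `g s(x,y) = h s(x,y)` for all `x ∈ S` and all `y`, then
`f g = f h`.  If `S` is everything then `g = h`.  Otherwise pick `v ∉ S` and induct on the number of
`y` with `g s(v,y) ≠ h s(v,y)`.  If this is `0`, use `S ∪ {v}`.  Otherwise, as the degrees of `v` in `g`
and `h` agree, there are `x, y` with `x` adjacent to `v` in `g` not in `h`, and `y` adjacent to `v` in `h`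
not in `g`; `x, y ∉ S`, and `v, x, y` are distinct (loops agree).  Comparing the sums of
`ad _ y z - ad _ x z` over `z ∉ S`, `z ≠ x, y` (the same for `g` and `h`) one finds `z ∉ S`,
`z ≠ v, x, y`, such that `sw v z x y` applied to `g` or to `h` does not touch `S` and decreases the
number of disagreements at `v`.
-/

open Finset

namespace Vale.Agent.KTV

variable {V : Type*} [Fintype V] [DecidableEq V]

omit [Fintype V] [DecidableEq V] in
theorem ad_eq_one {g : Gr V} {x y : V} : ad g x y = 1 ↔ g s(x, y) = true := by
  unfold ad; split_ifs with h <;> simp [h]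

omit [Fintype V] [DecidableEq V] in
theorem ad_eq_zero {g : Gr V} {x y : V} : ad g x y = 0 ↔ g s(x, y) = false := by
  unfold ad; split_ifs with h <;> simp [h]

omit [Fintype V] [DecidableEq V] in
theorem ad_nonneg (g : Gr V) (x y : V) : 0 ≤ ad g x y := by
  unfold ad; split_ifs <;> norm_num

omit [Fintype V] [DecidableEq V] in
theorem ad_le_one (g : Gr V) (x y : V) : ad g x y ≤ 1 := by
  unfold ad; split_ifs <;> norm_num

/-- If the degrees of `v` agree and the rows differ, then each graph has a private neighbour. -/
theorem exists_private (g h : Gr V) (v : V) (hd : deg g v = deg h v)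
    (hne : ∃ y, g s(v, y) ≠ h s(v, y)) : ∃ x, g s(v, x) = true ∧ h s(v, x) = false := by
  by_contra hc
  push Not at hc
  have hle : ∀ y ∈ (univ : Finset V), ad g v y ≤ ad h v y := by
    intro y _
    by_cases hg : g s(v, y) = true
    · have : h s(v, y) = true := by
        have := hc y hg
        simpa using this
      rw [ad_eq_one.mpr hg, ad_eq_one.mpr this]
    · have : ad g v y = 0 := ad_eq_zero.mpr (by simpa using hg)
      rw [this]; exact ad_nonneg _ _ _
  obtain ⟨y, hy⟩ := hne
  have hlt : ad g v y < ad h v y := by
    by_cases hg : g s(v, y) = true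
    · have : h s(v, y) = true := by
        have := hc y hg
        simpa using this
      exact absurd (hg.trans this.symm) hy
    · have hg' : g s(v, y) = false := by simpa using hg
      have hh : h s(v, y) = true := by
        by_contra hh
        have : h s(v, y) = false := by simpa using hh
        exact hy (hg'.trans this.symm)
      rw [ad_eq_zero.mpr hg', ad_eq_one.mpr hh]; norm_num
  have := sum_lt_sum hle ⟨y, mem_univ y, hlt⟩
  unfold deg at hd
  omega

/-- The balance of `y` against `x` outside `S`. -/
theorem balance (S : Finset V) (g h : Gr V) (hgh : degRel g h)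
    (hS : ∀ a ∈ S, ∀ b, g s(a, b) = h s(a, b)) {x y : V} (hx : x ∉ S) (hy : y ∉ S)
    (hxy : x ≠ y) :
    ∑ z ∈ ((Sᶜ).erase x).erase y, (ad g y z - ad g x z)
      = ∑ z ∈ ((Sᶜ).erase x).erase y, (ad h y z - ad h x z) := by
  have hxS : x ∈ Sᶜ := by simpa using hx
  have hyS : y ∈ (Sᶜ).erase x := by simp [hy, hxy.symm]
  have key : ∀ k : Gr V, deg k y - deg k x = ∑ z ∈ S, (ad k y z - ad k x z)
      + (ad k y y - ad k x x) + ∑ z ∈ ((Sᶜ).erase x).erase y, (ad k y z - ad k x z) := by
    intro k
    unfold deg
    rw [← sum_sub_distrib, ← sum_add_sum_compl S, ← add_sum_erase (Sᶜ) _ hxS,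
      ← add_sum_erase ((Sᶜ).erase x) _ hyS, ad_comm k y x]
    ring
  have h1 := key g
  have h2 := key h
  have hSsum : ∑ z ∈ S, (ad g y z - ad g x z) = ∑ z ∈ S, (ad h y z - ad h x z) := by
    refine sum_congr rfl fun z hz => ?_
    have e1 : ad g y z = ad h y z := by
      rw [ad_comm g, ad_comm h]; unfold ad; rw [hS z hz y]
    have e2 : ad g x z = ad h x z := by
      rw [ad_comm g, ad_comm h]; unfold ad; rw [hS z hz x]
    rw [e1, e2]
  have l1 : ad g y y = ad h y y := by unfold ad; rw [hgh.1 y]
  have l2 : ad g x x = ad h x x := by unfold ad; rw [hgh.1 x]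
  have d1 := hgh.2 y
  have d2 := hgh.2 x
  rw [hSsum, l1, l2] at h1
  rw [d1, d2] at h1
  linarith

/-- One switch at `v`, in the graph `g` with neighbour `x`, non-neighbour `y`, `z` the other way. -/
theorem one_switch (S : Finset V) (g h : Gr V) (hgh : degRel g h)
    (hS : ∀ a ∈ S, ∀ b, g s(a, b) = h s(a, b)) {v x y z : V} (hv : v ∉ S) (hx : x ∉ S)
    (hy : y ∉ S) (hz : z ∉ S) (hG : Good v z x y) (hc : isC v z x y g)
    (ex : g s(v, x) ≠ h s(v, x)) (ey : g s(v, y) ≠ h s(v, y)) :
    degRel (sw v z x y g) h ∧ (∀ a ∈ S, ∀ b, (sw v z x y g) s(a, b) = h s(a, b)) ∧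
      (univ.filter fun b => (sw v z x y g) s(v, b) ≠ h s(v, b)).card
        < (univ.filter fun b => g s(v, b) ≠ h s(v, b)).card := by
  obtain ⟨hvz, hxy, hvx, hvy, hzx, hzy⟩ := id hG
  refine ⟨?_, ?_, ?_⟩
  · exact degRel.trans (degRel.symm (degRel_of_pairRel (pairRel_sw v z x y hG g))) hgh
  · intro a ha b
    rw [sw_other]
    · exact hS a ha b
    · have h1 : a ≠ v := fun e => hv (e ▸ ha)
      have h2 : a ≠ x := fun e => hx (e ▸ ha)
      have h3 : a ≠ y := fun e => hy (e ▸ ha)
      have h4 : a ≠ z := fun e => hz (e ▸ ha)
      simp only [Sym2.eq_iff]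
      tauto
  · have e1 : sw v z x y g s(v, x) = !(g s(v, x)) := sw_in hc (by simp)
    refine card_lt_card ?_
    rw [ssubset_iff_of_subset]
    · refine ⟨x, by simp [ex], ?_⟩
      rw [mem_filter]
      rintro ⟨_, h1⟩
      rw [e1] at h1
      revert ex h1
      cases g s(v, x) <;> cases h s(v, x) <;> simp
    · intro b hb
      rw [mem_filter] at hb ⊢
      refine ⟨mem_univ _, ?_⟩
      by_cases hbx : b = x
      · subst hbx; exact ex
      by_cases hby : b = y
      · subst hby; exact ey
      have : sw v z x y g s(v, b) = g s(v, b) := by
        apply sw_other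
        simp only [Sym2.eq_iff]
        tauto
      rw [← this]; exact hb.2

theorem conn_aux (f : Gr V → ℝ)
    (hf : ∀ i k j l, Good i k j l → ∀ g, f (sw i k j l g) = f g) :
    ∀ (m : ℕ) (S : Finset V), (Sᶜ).card = m → ∀ g h : Gr V, degRel g h →
      (∀ a ∈ S, ∀ b, g s(a, b) = h s(a, b)) → f g = f h := by
  intro m
  induction m with
  | zero =>
    intro S hS g h _ hagree
    have hSu : S = univ := by
      rw [card_eq_zero, compl_eq_empty_iff] at hS; exact hS
    have : g = h := by
      funext e
      induction e using Sym2.ind with
      | _ a b => exact hagree a (by rw [hSu]; exact mem_univ _) b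
    rw [this]
  | succ m ih =>
    intro S hS
    have hne : (Sᶜ).Nonempty := by rw [← card_pos]; omega
    obtain ⟨v, hv⟩ := hne
    rw [mem_compl] at hv
    have inner : ∀ (k : ℕ) (g h : Gr V), degRel g h →
        (∀ a ∈ S, ∀ b, g s(a, b) = h s(a, b)) →
        (univ.filter fun b => g s(v, b) ≠ h s(v, b)).card = k → f g = f h := by
      intro k
      induction k using Nat.strong_induction_on with
      | _ k ihk =>
        intro g h hgh hagree hk
        by_cases h0 : ∀ b, g s(v, b) = h s(v, b)
        · refine ih (insert v S) ?_ g h hgh ?_
          · rw [compl_insert, card_erase_of_mem (by simpa using hv), hS]; rfl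
          · intro a ha b
            rw [mem_insert] at ha
            rcases ha with rfl | ha
            · exact h0 b
            · exact hagree a ha b
        · push Not at h0
          obtain ⟨x, gx, hx⟩ := exists_private g h v (hgh.2 v) h0
          obtain ⟨y, hy, gy⟩ := exists_private h g v (hgh.2 v).symm (by
            obtain ⟨b, hb⟩ := h0
            exact ⟨b, hb.symm⟩)
          have hxS : x ∉ S := by
            intro hh
            have := hagree x hh v
            rw [Sym2.eq_swap, gx, hx] at this
            exact absurd this (by decide)
          have hyS : y ∉ S := by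
            intro hh
            have := hagree y hh v
            rw [Sym2.eq_swap, gy, hy] at this
            exact absurd this (by decide)
          have hvx : v ≠ x := by
            rintro rfl
            have := hgh.1 v
            rw [gx, hx] at this
            exact absurd this (by decide)
          have hvy : v ≠ y := by
            rintro rfl
            have := hgh.1 v
            rw [gy, hy] at this
            exact absurd this (by decide)
          have hxy : x ≠ y := by
            rintro rfl
            rw [gx] at gy
            exact absurd gy (by decide)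
          have ex : g s(v, x) ≠ h s(v, x) := by rw [gx, hx]; decide
          have ey : g s(v, y) ≠ h s(v, y) := by rw [gy, hy]; decide
          have hbal := balance S g h hgh hagree hxS hyS hxy
          have hvW : v ∈ ((Sᶜ).erase x).erase y := by simp [hv, hvx, hvy]
          rcases le_or_gt 0 (∑ z ∈ ((Sᶜ).erase x).erase y, (ad g y z - ad g x z)) with hR | hR
          · -- a switch in `g`
            have : ∃ z ∈ ((Sᶜ).erase x).erase y, 0 < ad g y z - ad g x z := by
              by_contra hcon
              push Not at hcon
              have hlt := sum_lt_sum (f := fun z => ad g y z - ad g x z) (g := fun _ => (0 : ℤ))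
                hcon ⟨v, hvW, by
                  rw [ad_comm g y v, ad_comm g x v, ad_eq_zero.mpr gy, ad_eq_one.mpr gx]
                  norm_num⟩
              simp only [sum_const_zero] at hlt
              omega
            obtain ⟨z, hz, hpos⟩ := this
            have a1 := ad_nonneg g x z
            have a2 := ad_le_one g y z
            have b1 : g s(y, z) = true := ad_eq_one.mp (by omega)
            have b2 : g s(x, z) = false := ad_eq_zero.mp (by omega)
            simp only [mem_erase, mem_compl] at hz
            have hzv : v ≠ z := by
              rintro rfl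
              rw [Sym2.eq_swap, gy] at b1
              exact absurd b1 (by decide)
            have hG : Good v z x y := ⟨hzv, hxy, hvx, hvy, hz.2.1, hz.1⟩
            have hC : isC v z x y g := by
              refine ⟨?_, ?_, ?_⟩
              · rw [gx, Sym2.eq_swap, b1]
              · rw [gy, Sym2.eq_swap, b2]
              · rw [gx, gy]; decide
            obtain ⟨r1, r2, r3⟩ := one_switch S g h hgh hagree hv hxS hyS hz.2.2 hG hC ex ey
            rw [← hf v z x y hG g]
            exact ihk _ (hk ▸ r3) _ _ r1 r2 rfl
          · -- a switch in `h`
            rw [hbal] at hR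
            have : ∃ z ∈ ((Sᶜ).erase x).erase y, ad h y z - ad h x z < 0 := by
              by_contra hcon
              push Not at hcon
              have := sum_nonneg hcon
              omega
            obtain ⟨z, hz, hneg⟩ := this
            have a1 := ad_nonneg h y z
            have a2 := ad_le_one h x z
            have b1 : h s(x, z) = true := ad_eq_one.mp (by omega)
            have b2 : h s(y, z) = false := ad_eq_zero.mp (by omega)
            simp only [mem_erase, mem_compl] at hz
            have hzv : v ≠ z := by
              rintro rfl
              rw [Sym2.eq_swap, hx] at b1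
              exact absurd b1 (by decide)
            have hG : Good v z x y := ⟨hzv, hxy, hvx, hvy, hz.2.1, hz.1⟩
            have hC : isC v z x y h := by
              refine ⟨?_, ?_, ?_⟩
              · rw [hx, Sym2.eq_swap, b2]
              · rw [hy, Sym2.eq_swap, b1]
              · rw [hx, hy]; decide
            obtain ⟨r1, r2, r3⟩ := one_switch S h g (degRel.symm hgh)
              (fun a ha b => (hagree a ha b).symm) hv hxS hyS hz.2.2 hG hC ex.symm ey.symm
            rw [← hf v z x y hG h]
            have hk' : (univ.filter fun b => h s(v, b) ≠ g s(v, b)).card = k := by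
              rw [← hk]; congr 1; ext b; simp [eq_comm]
            refine ihk _ (hk' ▸ r3) g (sw v z x y h) (degRel.symm r1)
              (fun a ha b => (r2 a ha b).symm) ?_
            congr 1; ext b; simp [eq_comm]
    intro g h hgh hagree
    exact inner _ g h hgh hagree rfl

theorem conn (f : Gr V → ℝ)
    (hf : ∀ i k j l, Good i k j l → ∀ g, f (sw i k j l g) = f g) (g h : Gr V)
    (hgh : degRel g h) : f g = f h :=
  conn_aux f hf _ ∅ rfl g h hgh (fun a ha => absurd ha (notMem_empty a))

end Vale.Agent.KTV
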