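import Mathlib

/-!
Shared definitions for the proof that the switch chain on simple graphs with a given
degree vector mixes in polynomial time.

* `cls r x`, `av r f x`, `dv r f x`, `cav r P f x`: class, class average, deviation from the
  class average, average over the part of the class on which `P` holds.
* `Gr V = Sym2 V → Bool`: graphs (loops allowed but never touched by any move).
* `pairRel i k`: two graphs are related when one arises from the other by re-dealing the
  columns of the rows `i`, `k`.
* `isC i k j l g`: the block `{i,k} × {j,l}` of `g` is a perfect matching; `sw i k j l g`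
  complements that block when it is one.
-/

open Finset

namespace Vale.Agent.KTV

section Avg

variable {α : Type*} [Fintype α]

open Classical in
/-- The class of `x` under `r`, as a finset. -/
noncomputable def cls (r : Setoid α) (x : α) : Finset α := univ.filter (fun y => r x y)

/-- The average of `f` over the class of `x`. -/
noncomputable def av (r : Setoid α) (f : α → ℝ) (x : α) : ℝ :=
  (∑ y ∈ cls r x, f y) / ((cls r x).card : ℝ)

/-- The deviation of `f` from its class average. -/
noncomputable def dv (r : Setoid α) (f : α → ℝ) (x : α) : ℝ := f x - av r f x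

open Classical in
/-- The average of `f` over those members of the class of `x` that satisfy `P`. -/
noncomputable def cav (r : Setoid α) (P : α → Prop) (f : α → ℝ) (x : α) : ℝ :=
  (∑ y ∈ (cls r x).filter P, f y) / (((cls r x).filter P).card : ℝ)

end Avg

section Graph

/-- Graphs on `V`, as Boolean functions on unordered pairs. -/
abbrev Gr (V : Type*) := Sym2 V → Bool

variable {V : Type*}

/-- Adjacency as an integer. -/
def ad (g : Gr V) (x y : V) : ℤ := if g s(x, y) = true then 1 else 0

/-- The degree of `x` (a loop counts once). -/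
def deg [Fintype V] (g : Gr V) (x : V) : ℤ := ∑ y, ad g x y

/-- `g` and `h` differ by re-dealing the columns of the rows `i` and `k`: they agree on all
pairs with both or no end in `{i,k}`, all column sums of the two rows agree, and the degree
of `i` agrees. -/
def pairRel [Fintype V] (i k : V) : Setoid (Gr V) where
  r g h := (∀ x y, ((x = i ∨ x = k) ↔ (y = i ∨ y = k)) → g s(x, y) = h s(x, y)) ∧
    (∀ x, x ≠ i → x ≠ k → ad g i x + ad g k x = ad h i x + ad h k x) ∧ deg g i = deg h i
  iseqv :=
    { refl := fun g => ⟨fun _ _ _ => rfl, fun _ _ _ => rfl, rfl⟩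
      symm := fun h => ⟨fun x y hxy => (h.1 x y hxy).symm, fun x h1 h2 => (h.2.1 x h1 h2).symm,
        h.2.2.symm⟩
      trans := fun h h' => ⟨fun x y hxy => (h.1 x y hxy).trans (h'.1 x y hxy),
        fun x h1 h2 => (h.2.1 x h1 h2).trans (h'.2.1 x h1 h2), h.2.2.trans h'.2.2⟩ }

/-- Same loops and same degrees everywhere. -/
def degRel [Fintype V] : Setoid (Gr V) where
  r g h := (∀ x, g s(x, x) = h s(x, x)) ∧ ∀ x, deg g x = deg h x
  iseqv :=
    { refl := fun g => ⟨fun _ => rfl, fun _ => rfl⟩
      symm := fun h => ⟨fun x => (h.1 x).symm, fun x => (h.2 x).symm⟩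
      trans := fun h h' => ⟨fun x => (h.1 x).trans (h'.1 x), fun x => (h.2 x).trans (h'.2 x)⟩ }

/-- The block `{i,k} × {j,l}` of `g` is a perfect matching. -/
def isC (i k j l : V) (g : Gr V) : Prop :=
  g s(i, j) = g s(k, l) ∧ g s(i, l) = g s(k, j) ∧ g s(i, j) ≠ g s(i, l)

instance (i k j l : V) : DecidablePred (isC i k j l) := fun g => by
  unfold isC; infer_instance

/-- The switch on the block `{i,k} × {j,l}`: complement the block if it is a perfect
matching, otherwise do nothing. -/
def sw [DecidableEq V] (i k j l : V) (g : Gr V) : Gr V := fun e =>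
  if isC i k j l g ∧ (e = s(i, j) ∨ e = s(i, l) ∨ e = s(k, j) ∨ e = s(k, l)) then !(g e)
  else g e

/-- Four distinct vertices. -/
def Good (i k j l : V) : Prop := i ≠ k ∧ j ≠ l ∧ i ≠ j ∧ i ≠ l ∧ k ≠ j ∧ k ≠ l

instance [DecidableEq V] (i k j l : V) : Decidable (Good i k j l) := by
  unfold Good; infer_instance

end Graph

section Label

/-- The weight of the label `q`: columns of type `true` count `+1`, the others `-1`. -/
def wt {C : Type*} [Fintype C] (s : C → Bool) (l : C → Fin 3) (q : Fin 3) : ℤ :=
  ∑ x, if l x = q then (if s x = true then 1 else -1) else 0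

/-- Labelings with the same set of `p`-labelled columns and the same weights. -/
def labRel {C : Type*} [Fintype C] (s : C → Bool) (p : Fin 3) : Setoid (C → Fin 3) where
  r l m := (∀ x, l x = p ↔ m x = p) ∧ ∀ q, wt s l q = wt s m q
  iseqv :=
    { refl := fun g => ⟨fun _ => Iff.rfl, fun _ => rfl⟩
      symm := fun h => ⟨fun x => (h.1 x).symm, fun x => (h.2 x).symm⟩
      trans := fun h h' => ⟨fun x => (h.1 x).trans (h'.1 x), fun x => (h.2 x).trans (h'.2 x)⟩ }

/-- `0-1` matrices with three rows that agree in row `p`, in all column sums and in all row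
sums. -/
def matRel (C : Type*) [Fintype C] (p : Fin 3) : Setoid (Fin 3 → C → Bool) where
  r M N := M p = N p ∧
    (∀ x, ∑ q, (if M q x = true then (1 : ℤ) else 0) = ∑ q, (if N q x = true then (1 : ℤ) else 0)) ∧
    (∀ q, ∑ x, (if M q x = true then (1 : ℤ) else 0) = ∑ x, (if N q x = true then (1 : ℤ) else 0))
  iseqv :=
    { refl := fun g => ⟨rfl, fun _ => rfl, fun _ => rfl⟩
      symm := fun h => ⟨h.1.symm, fun x => (h.2.1 x).symm, fun x => (h.2.2 x).symm⟩
      trans := fun h h' => ⟨h.1.trans h'.1, fun x => (h.2.1 x).trans (h'.2.1 x),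
        fun x => (h.2.2 x).trans (h'.2.2 x)⟩ }

end Label

section Cross

/-- Blocks: `B r c` is the entry in row `r` (0 for `i`, 1 for `k`), column `c` (0 for `j`,
1 for `l`). -/
abbrev Blk := Fin 2 → Fin 2 → Bool

/-- A Boolean as an integer. -/
def bi (b : Bool) : ℤ := if b = true then 1 else 0

/-- The block is a perfect matching. -/
def cenB (B : Blk) : Prop := B 0 0 = B 1 1 ∧ B 0 1 = B 1 0 ∧ B 0 0 ≠ B 0 1

instance : DecidablePred cenB := fun B => by unfold cenB; infer_instance

/-- Complement the block if it is a perfect matching. -/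
def swB (B : Blk) : Blk := fun r c => if cenB B then !(B r c) else B r c

variable {U U' K K' : Type*}

/-- First relation of the product model: re-deal `u` and the block, keeping `u'`, the
invariant `c u`, the column sums of the block, and the total `s u +` (row `0` of the block). -/
def relE (c : U → K) (s : U → ℤ) (U' : Type*) : Setoid (U × U' × Blk) where
  r z w := z.2.1 = w.2.1 ∧ c z.1 = c w.1 ∧
    (∀ q, bi (z.2.2 0 q) + bi (z.2.2 1 q) = bi (w.2.2 0 q) + bi (w.2.2 1 q)) ∧
    s z.1 + bi (z.2.2 0 0) + bi (z.2.2 0 1) = s w.1 + bi (w.2.2 0 0) + bi (w.2.2 0 1)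
  iseqv :=
    { refl := fun _ => ⟨rfl, rfl, fun _ => rfl, rfl⟩
      symm := fun h => ⟨h.1.symm, h.2.1.symm, fun q => (h.2.2.1 q).symm, h.2.2.2.symm⟩
      trans := fun h h' => ⟨h.1.trans h'.1, h.2.1.trans h'.2.1,
        fun q => (h.2.2.1 q).trans (h'.2.2.1 q), h.2.2.2.trans h'.2.2.2⟩ }

/-- Second relation of the product model: re-deal `u'` and the block, keeping `u`, the
invariant `c' u'`, the row sums of the block, and the total `s' u' +` (column `0`). -/
def relE' (U : Type*) (c' : U' → K') (s' : U' → ℤ) : Setoid (U × U' × Blk) where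
  r z w := z.1 = w.1 ∧ c' z.2.1 = c' w.2.1 ∧
    (∀ q, bi (z.2.2 q 0) + bi (z.2.2 q 1) = bi (w.2.2 q 0) + bi (w.2.2 q 1)) ∧
    s' z.2.1 + bi (z.2.2 0 0) + bi (z.2.2 1 0) = s' w.2.1 + bi (w.2.2 0 0) + bi (w.2.2 1 0)
  iseqv :=
    { refl := fun _ => ⟨rfl, rfl, fun _ => rfl, rfl⟩
      symm := fun h => ⟨h.1.symm, h.2.1.symm, fun q => (h.2.2.1 q).symm, h.2.2.2.symm⟩
      trans := fun h h' => ⟨h.1.trans h'.1, h.2.1.trans h'.2.1,
        fun q => (h.2.2.1 q).trans (h'.2.2.1 q), h.2.2.2.trans h'.2.2.2⟩ }

end Cross

end Vale.Agent.KTV
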