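import Vale.Agent.KTV.CrossProd

/-!
The cross inequality for graphs.

`cross_graph` from `cross_prod`: by `sum_nonneg_of_cls` it suffices to sum over the graphs that
agree with a fixed `g₀` off the edges from `{i,k}` to `W`, from `{j,l}` to `W` and between `{i,k}` and
`{j,l}`, where `W = {x // x ∉ {i,k,j,l}}`.  With `U = U' = W → Bool × Bool`,
`c u x = bi (u x).1 + bi (u x).2`, `s u = ∑ x, bi (u x).1`, let `φ : U × U' × Blk → Gr V` send
`(u, u', B)` to the graph with `s(i,x) = (u x).1`, `s(k,x) = (u x).2`, `s(j,x) = (u' x).1`,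
`s(l,x) = (u' x).2`, block `B` and `g₀` elsewhere.  It is injective with exactly this range,
`relE c s U' z w ↔ pairRel i k (φ z) (φ w)`, `relE' U c s z w ↔ pairRel j l (φ z) (φ w)`,
`cenB z.2.2 ↔ isC i k j l (φ z)` and `φ (u, u', swB B) = sw i k j l (φ (u, u', B))`; then use
`dv_embed`, `cav_embed`.
-/

open Finset

namespace Vale.Agent.KTV

section Emb

/-- The edge positions that are free in the product model. -/
inductive CPos (W : Type*) where
  | a (x : W) : CPos W
  | b (x : W) : CPos W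
  | a' (x : W) : CPos W
  | b' (x : W) : CPos W
  | c (r q : Fin 2) : CPos W

theorem sw_of_off {V : Type*} [DecidableEq V] {i k j l : V} {g : Gr V} {e : Sym2 V}
    (h : ¬ (e = s(i, j) ∨ e = s(i, l) ∨ e = s(k, j) ∨ e = s(k, l))) :
    sw i k j l g e = g e := by
  unfold sw; rw [if_neg (fun h' => h h'.2)]

/-- The vertices outside the four given ones. -/
def CW (V : Type*) (i k j l : V) := {x : V // x ≠ i ∧ x ≠ k ∧ x ≠ j ∧ x ≠ l}

variable {V : Type*} [DecidableEq V] (i k j l : V)

noncomputable instance [Fintype V] : Fintype (CW V i k j l) := by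
  unfold CW; infer_instance

instance : DecidableEq (CW V i k j l) := by
  unfold CW; infer_instance

/-- The state space of the two row pairs. -/
abbrev CU (V : Type*) (i k j l : V) := CW V i k j l → Bool × Bool

/-- The edge at a position. -/
def cpos : CPos (CW V i k j l) → Sym2 V
  | .a x => s(i, x.1)
  | .b x => s(k, x.1)
  | .a' x => s(j, x.1)
  | .b' x => s(l, x.1)
  | .c r q => s(if r = 0 then i else k, if q = 0 then j else l)

/-- The value at a position. -/
def cval (z : CU V i k j l × CU V i k j l × Blk) : CPos (CW V i k j l) → Bool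
  | .a x => (z.1 x).1
  | .b x => (z.1 x).2
  | .a' x => (z.2.1 x).1
  | .b' x => (z.2.1 x).2
  | .c r q => z.2.2 r q

/-- The graph of a state of the product model. -/
noncomputable def cphi (g₀ : Gr V) (z : CU V i k j l × CU V i k j l × Blk) : Gr V :=
  Function.extend (cpos i k j l) (cval i k j l z) g₀

variable {i k j l}

omit [DecidableEq V] in
theorem cpos_inj (h : Good i k j l) : Function.Injective (cpos i k j l) := by
  obtain ⟨hik, hjl, hij, hil, hkj, hkl⟩ := h
  have g1 := hik.symm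
  have g2 := hjl.symm
  have g3 := hij.symm
  have g4 := hil.symm
  have g5 := hkj.symm
  have g6 := hkl.symm
  have hc : ∀ r q : Fin 2, ∀ x : CW V i k j l, ∀ y : V,
      s(if r = 0 then i else k, if q = 0 then j else l) ≠ s(y, x.1) := by
    intro r q x y h
    have hm : x.1 ∈ s(if r = 0 then i else k, if q = 0 then j else l) := by
      rw [h]; exact Sym2.mem_mk_right _ _
    obtain ⟨x, h1, h2, h3, h4⟩ := x
    rw [Sym2.mem_iff] at hm
    split_ifs at hm <;> tauto
  intro p q hpq
  cases p with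
  | a x =>
    cases q with
    | a y =>
      simp only [cpos, Sym2.eq_iff] at hpq
      rcases hpq with ⟨_, h⟩ | ⟨h, _⟩
      · rw [Subtype.ext h]
      · exact absurd h.symm y.2.1
    | b y =>
      simp only [cpos, Sym2.eq_iff] at hpq
      rcases hpq with ⟨h, _⟩ | ⟨h, _⟩
      · exact absurd h hik
      · exact absurd h.symm y.2.1
    | a' y =>
      simp only [cpos, Sym2.eq_iff] at hpq
      rcases hpq with ⟨h, _⟩ | ⟨h, _⟩
      · exact absurd h hij
      · exact absurd h.symm y.2.1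
    | b' y =>
      simp only [cpos, Sym2.eq_iff] at hpq
      rcases hpq with ⟨h, _⟩ | ⟨h, _⟩
      · exact absurd h hil
      · exact absurd h.symm y.2.1
    | c r q => exact absurd hpq.symm (hc r q x i)
  | b x =>
    cases q with
    | a y =>
      simp only [cpos, Sym2.eq_iff] at hpq
      rcases hpq with ⟨h, _⟩ | ⟨h, _⟩
      · exact absurd h g1
      · exact absurd h.symm y.2.2.1
    | b y =>
      simp only [cpos, Sym2.eq_iff] at hpq
      rcases hpq with ⟨_, h⟩ | ⟨h, _⟩
      · rw [Subtype.ext h]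
      · exact absurd h.symm y.2.2.1
    | a' y =>
      simp only [cpos, Sym2.eq_iff] at hpq
      rcases hpq with ⟨h, _⟩ | ⟨h, _⟩
      · exact absurd h hkj
      · exact absurd h.symm y.2.2.1
    | b' y =>
      simp only [cpos, Sym2.eq_iff] at hpq
      rcases hpq with ⟨h, _⟩ | ⟨h, _⟩
      · exact absurd h hkl
      · exact absurd h.symm y.2.2.1
    | c r q => exact absurd hpq.symm (hc r q x k)
  | a' x =>
    cases q with
    | a y =>
      simp only [cpos, Sym2.eq_iff] at hpq
      rcases hpq with ⟨h, _⟩ | ⟨h, _⟩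
      · exact absurd h g3
      · exact absurd h.symm y.2.2.2.1
    | b y =>
      simp only [cpos, Sym2.eq_iff] at hpq
      rcases hpq with ⟨h, _⟩ | ⟨h, _⟩
      · exact absurd h g5
      · exact absurd h.symm y.2.2.2.1
    | a' y =>
      simp only [cpos, Sym2.eq_iff] at hpq
      rcases hpq with ⟨_, h⟩ | ⟨h, _⟩
      · rw [Subtype.ext h]
      · exact absurd h.symm y.2.2.2.1
    | b' y =>
      simp only [cpos, Sym2.eq_iff] at hpq
      rcases hpq with ⟨h, _⟩ | ⟨h, _⟩
      · exact absurd h hjl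
      · exact absurd h.symm y.2.2.2.1
    | c r q => exact absurd hpq.symm (hc r q x j)
  | b' x =>
    cases q with
    | a y =>
      simp only [cpos, Sym2.eq_iff] at hpq
      rcases hpq with ⟨h, _⟩ | ⟨h, _⟩
      · exact absurd h g4
      · exact absurd h.symm y.2.2.2.2
    | b y =>
      simp only [cpos, Sym2.eq_iff] at hpq
      rcases hpq with ⟨h, _⟩ | ⟨h, _⟩
      · exact absurd h g6
      · exact absurd h.symm y.2.2.2.2
    | a' y =>
      simp only [cpos, Sym2.eq_iff] at hpq
      rcases hpq with ⟨h, _⟩ | ⟨h, _⟩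
      · exact absurd h g2
      · exact absurd h.symm y.2.2.2.2
    | b' y =>
      simp only [cpos, Sym2.eq_iff] at hpq
      rcases hpq with ⟨_, h⟩ | ⟨h, _⟩
      · rw [Subtype.ext h]
      · exact absurd h.symm y.2.2.2.2
    | c r q => exact absurd hpq.symm (hc r q x l)
  | c r t =>
    cases q with
    | a y => exact absurd hpq (hc r t y i)
    | b y => exact absurd hpq (hc r t y k)
    | a' y => exact absurd hpq (hc r t y j)
    | b' y => exact absurd hpq (hc r t y l)
    | c r' t' =>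
      simp only [cpos, Sym2.eq_iff] at hpq
      have hr : r = 0 ∨ r = 1 := by omega
      have ht : t = 0 ∨ t = 1 := by omega
      have hr' : r' = 0 ∨ r' = 1 := by omega
      have ht' : t' = 0 ∨ t' = 1 := by omega
      rcases hr with rfl | rfl <;> rcases ht with rfl | rfl <;> rcases hr' with rfl | rfl <;>
        rcases ht' with rfl | rfl <;> simp_all


omit [DecidableEq V] in
theorem cphi_pos (h : Good i k j l) (g₀ : Gr V) (z : CU V i k j l × CU V i k j l × Blk)
    (p : CPos (CW V i k j l)) : cphi i k j l g₀ z (cpos i k j l p) = cval i k j l z p :=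
  (cpos_inj h).extend_apply _ _ p

omit [DecidableEq V] in
theorem cphi_off (g₀ : Gr V) (z : CU V i k j l × CU V i k j l × Blk) (e : Sym2 V)
    (he : ¬ ∃ p, cpos i k j l p = e) : cphi i k j l g₀ z e = g₀ e :=
  Function.extend_apply' _ _ _ he

/-- Reading a state off a graph. -/
def crd (i k j l : V) (g : Gr V) : CU V i k j l × CU V i k j l × Blk :=
  (fun x => (g s(i, x.1), g s(k, x.1)), fun x => (g s(j, x.1), g s(l, x.1)),
    fun r q => g (cpos i k j l (.c r q)))

omit [DecidableEq V] in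
theorem cphi_crd (h : Good i k j l) (g₀ g : Gr V)
    (hg : ∀ e, (¬ ∃ p, cpos i k j l p = e) → g₀ e = g e) :
    cphi i k j l g₀ (crd i k j l g) = g := by
  funext e
  by_cases he : ∃ p, cpos i k j l p = e
  · obtain ⟨p, rfl⟩ := he
    rw [cphi_pos h]
    cases p <;> rfl
  · rw [cphi_off _ _ _ he, hg e he]

omit [DecidableEq V] in
theorem cphi_inj (h : Good i k j l) (g₀ : Gr V) : Function.Injective (cphi i k j l g₀) := by
  intro z w hzw
  have key : ∀ p, cval i k j l z p = cval i k j l w p := by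
    intro p
    rw [← cphi_pos h g₀ z, ← cphi_pos h g₀ w, hzw]
  refine Prod.ext (funext fun x => Prod.ext (key (.a x)) (key (.b x)))
    (Prod.ext (funext fun x => Prod.ext (key (.a' x)) (key (.b' x))) ?_)
  exact funext fun r => funext fun q => key (.c r q)

/-- Agreement off the free positions. -/
def offRel (i k j l : V) : Setoid (Gr V) where
  r g h := ∀ e, (¬ ∃ p, cpos i k j l p = e) → g e = h e
  iseqv :=
    { refl := fun _ _ _ => rfl
      symm := fun h e he => (h e he).symm
      trans := fun h h' e he => (h e he).trans (h' e he) }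

variable [Fintype V]

theorem sum_cls_off (h : Good i k j l) (g₀ : Gr V) (F : Gr V → ℝ) :
    ∑ g ∈ cls (offRel i k j l) g₀, F g =
      ∑ z : CU V i k j l × CU V i k j l × Blk, F (cphi i k j l g₀ z) := by
  have : cls (offRel i k j l) g₀ = univ.map ⟨cphi i k j l g₀, cphi_inj h g₀⟩ := by
    ext g
    simp only [mem_cls, mem_map, mem_univ, true_and, Function.Embedding.coeFn_mk]
    constructor
    · intro hg
      exact ⟨crd i k j l g, cphi_crd h g₀ g hg⟩
    · rintro ⟨z, rfl⟩ e he
      exact (cphi_off g₀ z e he).symm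
  rw [this, sum_map]
  rfl

theorem deg_eq_CW (h : Good i k j l) (g : Gr V) (y : V) :
    deg g y = (∑ x : CW V i k j l, bi (g s(y, x.1))) + bi (g s(y, i)) + bi (g s(y, k))
      + bi (g s(y, j)) + bi (g s(y, l)) := by
  obtain ⟨hik, hjl, hij, hil, hkj, hkl⟩ := h
  have h1 : ∑ x : CW V i k j l, bi (g s(y, x.1)) =
      ∑ x ∈ univ.filter (fun x => x ≠ i ∧ x ≠ k ∧ x ≠ j ∧ x ≠ l), bi (g s(y, x)) := by
    symm
    exact Finset.sum_subtype _ (by simp) (fun x => bi (g s(y, x)))
  have h2 : univ.filter (fun x : V => ¬ (x ≠ i ∧ x ≠ k ∧ x ≠ j ∧ x ≠ l)) = {i, k, j, l} := by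
    ext x
    simp only [mem_filter, mem_univ, true_and, mem_insert, mem_singleton]
    tauto
  have h3 : deg g y = ∑ x, bi (g s(y, x)) := rfl
  rw [h3, ← Finset.sum_filter_add_sum_filter_not univ
    (fun x => x ≠ i ∧ x ≠ k ∧ x ≠ j ∧ x ≠ l), h1, h2]
  rw [sum_insert (by simp [hik, hij, hil]), sum_insert (by simp [hkj, hkl]),
    sum_insert (by simp [hjl]), sum_singleton]
  ring


/-- The invariant of a row pair: its column sums. -/
def cc (i k j l : V) (u : CU V i k j l) : CW V i k j l → ℤ := fun x => bi (u x).1 + bi (u x).2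

/-- The size of the first row. -/
noncomputable def cs (i k j l : V) (u : CU V i k j l) : ℤ := ∑ x, bi (u x).1

omit [Fintype V] [DecidableEq V] in
/-- Values of `cphi` at the positions. -/
theorem cphi_vals (h : Good i k j l) (g₀ : Gr V) (z : CU V i k j l × CU V i k j l × Blk) :
    (∀ x, cphi i k j l g₀ z s(i, x.1) = (z.1 x).1) ∧
    (∀ x, cphi i k j l g₀ z s(k, x.1) = (z.1 x).2) ∧
    (∀ x, cphi i k j l g₀ z s(j, x.1) = (z.2.1 x).1) ∧
    (∀ x, cphi i k j l g₀ z s(l, x.1) = (z.2.1 x).2) ∧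
    cphi i k j l g₀ z s(i, j) = z.2.2 0 0 ∧ cphi i k j l g₀ z s(i, l) = z.2.2 0 1 ∧
    cphi i k j l g₀ z s(k, j) = z.2.2 1 0 ∧ cphi i k j l g₀ z s(k, l) = z.2.2 1 1 := by
  refine ⟨fun x => cphi_pos h g₀ z (.a x), fun x => cphi_pos h g₀ z (.b x),
    fun x => cphi_pos h g₀ z (.a' x), fun x => cphi_pos h g₀ z (.b' x), ?_, ?_, ?_, ?_⟩
  · exact cphi_pos h g₀ z (.c 0 0)
  · exact cphi_pos h g₀ z (.c 0 1)
  · exact cphi_pos h g₀ z (.c 1 0)
  · exact cphi_pos h g₀ z (.c 1 1)

omit [Fintype V] [DecidableEq V] in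
/-- Pairs inside `{i,k}` are not free. -/
theorem off_ik (h : Good i k j l) {x y : V} (hx : x = i ∨ x = k) (hy : y = i ∨ y = k) :
    ¬ ∃ p, cpos i k j l p = s(x, y) := by
  obtain ⟨hik, hjl, hij, hil, hkj, hkl⟩ := h
  rintro ⟨p, hp⟩
  cases p with
  | a t =>
    have hm : t.1 ∈ s(x, y) := by rw [← hp]; exact Sym2.mem_mk_right _ _
    obtain ⟨t, h1, h2, h3, h4⟩ := t
    rw [Sym2.mem_iff] at hm
    rcases hm with rfl | rfl <;> tauto
  | b t =>
    have hm : t.1 ∈ s(x, y) := by rw [← hp]; exact Sym2.mem_mk_right _ _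
    obtain ⟨t, h1, h2, h3, h4⟩ := t
    rw [Sym2.mem_iff] at hm
    rcases hm with rfl | rfl <;> tauto
  | a' t =>
    have hm : t.1 ∈ s(x, y) := by rw [← hp]; exact Sym2.mem_mk_right _ _
    obtain ⟨t, h1, h2, h3, h4⟩ := t
    rw [Sym2.mem_iff] at hm
    rcases hm with rfl | rfl <;> tauto
  | b' t =>
    have hm : t.1 ∈ s(x, y) := by rw [← hp]; exact Sym2.mem_mk_right _ _
    obtain ⟨t, h1, h2, h3, h4⟩ := t
    rw [Sym2.mem_iff] at hm
    rcases hm with rfl | rfl <;> tauto
  | c r q =>
    have hm : (if q = 0 then j else l) ∈ s(x, y) := by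
      rw [← hp]; exact Sym2.mem_mk_right _ _
    rw [Sym2.mem_iff] at hm
    clear hp
    split_ifs at hm <;> rcases hm with rfl | rfl <;> rcases hx with rfl | rfl <;>
      rcases hy with rfl | rfl <;> simp_all

omit [Fintype V] [DecidableEq V] in
/-- Pairs inside `{j,l}` are not free. -/
theorem off_jl (h : Good i k j l) {x y : V} (hx : x = j ∨ x = l) (hy : y = j ∨ y = l) :
    ¬ ∃ p, cpos i k j l p = s(x, y) := by
  obtain ⟨hik, hjl, hij, hil, hkj, hkl⟩ := h
  rintro ⟨p, hp⟩
  cases p with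
  | a t =>
    have hm : t.1 ∈ s(x, y) := by rw [← hp]; exact Sym2.mem_mk_right _ _
    obtain ⟨t, h1, h2, h3, h4⟩ := t
    rw [Sym2.mem_iff] at hm
    rcases hm with rfl | rfl <;> tauto
  | b t =>
    have hm : t.1 ∈ s(x, y) := by rw [← hp]; exact Sym2.mem_mk_right _ _
    obtain ⟨t, h1, h2, h3, h4⟩ := t
    rw [Sym2.mem_iff] at hm
    rcases hm with rfl | rfl <;> tauto
  | a' t =>
    have hm : t.1 ∈ s(x, y) := by rw [← hp]; exact Sym2.mem_mk_right _ _
    obtain ⟨t, h1, h2, h3, h4⟩ := t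
    rw [Sym2.mem_iff] at hm
    rcases hm with rfl | rfl <;> tauto
  | b' t =>
    have hm : t.1 ∈ s(x, y) := by rw [← hp]; exact Sym2.mem_mk_right _ _
    obtain ⟨t, h1, h2, h3, h4⟩ := t
    rw [Sym2.mem_iff] at hm
    rcases hm with rfl | rfl <;> tauto
  | c r q =>
    have hm : (if r = 0 then i else k) ∈ s(x, y) := by
      rw [← hp]; exact Sym2.mem_mk_left _ _
    rw [Sym2.mem_iff] at hm
    clear hp
    split_ifs at hm <;> rcases hm with rfl | rfl <;> rcases hx with rfl | rfl <;>
      rcases hy with rfl | rfl <;> simp_all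

/-- Degree of `i` in `cphi`. -/
theorem deg_cphi_i (h : Good i k j l) (g₀ : Gr V) (z : CU V i k j l × CU V i k j l × Blk) :
    deg (cphi i k j l g₀ z) i = cs i k j l z.1 + bi (z.2.2 0 0) + bi (z.2.2 0 1)
      + (bi (g₀ s(i, i)) + bi (g₀ s(i, k))) := by
  obtain ⟨v1, v2, v3, v4, v5, v6, v7, v8⟩ := cphi_vals h g₀ z
  rw [deg_eq_CW h, v5, v6, cphi_off g₀ z s(i, i) (off_ik h (by simp) (by simp)),
    cphi_off g₀ z s(i, k) (off_ik h (by simp) (by simp))]
  simp only [v1]
  unfold cs
  ring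

/-- Degree of `j` in `cphi`. -/
theorem deg_cphi_j (h : Good i k j l) (g₀ : Gr V) (z : CU V i k j l × CU V i k j l × Blk) :
    deg (cphi i k j l g₀ z) j = cs i k j l z.2.1 + bi (z.2.2 0 0) + bi (z.2.2 1 0)
      + (bi (g₀ s(j, j)) + bi (g₀ s(j, l))) := by
  obtain ⟨v1, v2, v3, v4, v5, v6, v7, v8⟩ := cphi_vals h g₀ z
  rw [deg_eq_CW h, Sym2.eq_swap (a := j) (b := i), Sym2.eq_swap (a := j) (b := k), v5, v7,
    cphi_off g₀ z s(j, j) (off_jl h (by simp) (by simp)),
    cphi_off g₀ z s(j, l) (off_jl h (by simp) (by simp))]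
  simp only [v3]
  unfold cs
  ring

theorem relE_iff (h : Good i k j l) (g₀ : Gr V) (z w : CU V i k j l × CU V i k j l × Blk) :
    relE (cc i k j l) (cs i k j l) (CU V i k j l) z w ↔
      pairRel i k (cphi i k j l g₀ z) (cphi i k j l g₀ w) := by
  obtain ⟨v1, v2, v3, v4, v5, v6, v7, v8⟩ := cphi_vals h g₀ z
  obtain ⟨w1, w2, w3, w4, w5, w6, w7, w8⟩ := cphi_vals h g₀ w
  have hg := h
  obtain ⟨hik, hjl, hij, hil, hkj, hkl⟩ := h
  constructor
  · rintro ⟨h1, h2, h3, h4⟩
    refine ⟨?_, ?_, ?_⟩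
    · intro x y hxy
      by_cases hp : ∃ p, cpos i k j l p = s(x, y)
      · obtain ⟨p, hp⟩ := hp
        rw [← hp, cphi_pos hg, cphi_pos hg]
        cases p with
        | a t =>
          exfalso
          obtain ⟨t, t1, t2, t3, t4⟩ := t
          simp only [cpos, Sym2.eq_iff] at hp
          rcases hp with ⟨rfl, rfl⟩ | ⟨rfl, rfl⟩ <;> simp_all
        | b t =>
          exfalso
          obtain ⟨t, t1, t2, t3, t4⟩ := t
          simp only [cpos, Sym2.eq_iff] at hp
          rcases hp with ⟨rfl, rfl⟩ | ⟨rfl, rfl⟩ <;> simp_all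
        | a' t => simp only [cval]; rw [h1]
        | b' t => simp only [cval]; rw [h1]
        | c r q =>
          exfalso
          have g1 := hij.symm
          have g2 := hil.symm
          have g3 := hkj.symm
          have g4 := hkl.symm
          simp only [cpos, Sym2.eq_iff] at hp
          clear v1 v2 v3 v4 v5 v6 v7 v8 w1 w2 w3 w4 w5 w6 w7 w8 h1 h2 h3 h4
          split_ifs at hp <;> rcases hp with ⟨rfl, rfl⟩ | ⟨rfl, rfl⟩ <;> simp_all
      · rw [cphi_off _ _ _ hp, cphi_off _ _ _ hp]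
    · intro x hxi hxk
      have e : ∀ (g : Gr V) (a b : V), ad g a b = bi (g s(a, b)) := fun _ _ _ => rfl
      simp only [e]
      by_cases hxj : x = j
      · subst hxj; rw [v5, v7, w5, w7]; exact h3 0
      · by_cases hxl : x = l
        · subst hxl; rw [v6, v8, w6, w8]; exact h3 1
        · have a1 := v1 ⟨x, hxi, hxk, hxj, hxl⟩
          have a2 := v2 ⟨x, hxi, hxk, hxj, hxl⟩
          have a3 := w1 ⟨x, hxi, hxk, hxj, hxl⟩
          have a4 := w2 ⟨x, hxi, hxk, hxj, hxl⟩
          simp only at a1 a2 a3 a4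
          rw [a1, a2, a3, a4]
          exact congrFun h2 ⟨x, hxi, hxk, hxj, hxl⟩
    · rw [deg_cphi_i hg, deg_cphi_i hg, h4]
  · rintro ⟨a, b, c⟩
    have e : ∀ (g : Gr V) (a b : V), ad g a b = bi (g s(a, b)) := fun _ _ _ => rfl
    simp only [e] at b
    refine ⟨?_, ?_, ?_, ?_⟩
    · funext t
      refine Prod.ext ?_ ?_
      · rw [← v3, ← w3]
        exact a _ _ (by simp [t.2.1, t.2.2.1, hij.symm, hkj.symm])
      · rw [← v4, ← w4]
        exact a _ _ (by simp [t.2.1, t.2.2.1, hil.symm, hkl.symm])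
    · funext t
      have := b t.1 t.2.1 t.2.2.1
      rw [v1, v2, w1, w2] at this
      exact this
    · intro q
      have hq : q = 0 ∨ q = 1 := by omega
      rcases hq with rfl | rfl
      · have := b j hij.symm hkj.symm
        rwa [v5, v7, w5, w7] at this
      · have := b l hil.symm hkl.symm
        rwa [v6, v8, w6, w8] at this
    · rw [deg_cphi_i hg, deg_cphi_i hg] at c
      linarith

theorem relE'_iff (h : Good i k j l) (g₀ : Gr V) (z w : CU V i k j l × CU V i k j l × Blk) :
    relE' (CU V i k j l) (cc i k j l) (cs i k j l) z w ↔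
      pairRel j l (cphi i k j l g₀ z) (cphi i k j l g₀ w) := by
  obtain ⟨v1, v2, v3, v4, v5, v6, v7, v8⟩ := cphi_vals h g₀ z
  obtain ⟨w1, w2, w3, w4, w5, w6, w7, w8⟩ := cphi_vals h g₀ w
  have hg := h
  obtain ⟨hik, hjl, hij, hil, hkj, hkl⟩ := h
  constructor
  · rintro ⟨h1, h2, h3, h4⟩
    refine ⟨?_, ?_, ?_⟩
    · intro x y hxy
      by_cases hp : ∃ p, cpos i k j l p = s(x, y)
      · obtain ⟨p, hp⟩ := hp
        rw [← hp, cphi_pos hg, cphi_pos hg]
        cases p with
        | a t => simp only [cval]; rw [h1]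
        | b t => simp only [cval]; rw [h1]
        | a' t =>
          exfalso
          obtain ⟨t, t1, t2, t3, t4⟩ := t
          simp only [cpos, Sym2.eq_iff] at hp
          rcases hp with ⟨rfl, rfl⟩ | ⟨rfl, rfl⟩ <;> simp_all
        | b' t =>
          exfalso
          obtain ⟨t, t1, t2, t3, t4⟩ := t
          simp only [cpos, Sym2.eq_iff] at hp
          rcases hp with ⟨rfl, rfl⟩ | ⟨rfl, rfl⟩ <;> simp_all
        | c r q =>
          exfalso
          have g1 := hij.symm
          have g2 := hil.symm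
          have g3 := hkj.symm
          have g4 := hkl.symm
          simp only [cpos, Sym2.eq_iff] at hp
          clear v1 v2 v3 v4 v5 v6 v7 v8 w1 w2 w3 w4 w5 w6 w7 w8 h1 h2 h3 h4
          split_ifs at hp <;> rcases hp with ⟨rfl, rfl⟩ | ⟨rfl, rfl⟩ <;> simp_all
      · rw [cphi_off _ _ _ hp, cphi_off _ _ _ hp]
    · intro x hxj hxl
      have e : ∀ (g : Gr V) (a b : V), ad g a b = bi (g s(a, b)) := fun _ _ _ => rfl
      simp only [e]
      by_cases hxi : x = i
      · subst hxi
        rw [Sym2.eq_swap (a := j), Sym2.eq_swap (a := l), v5, v6, w5, w6]; exact h3 0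
      · by_cases hxk : x = k
        · subst hxk
          rw [Sym2.eq_swap (a := j), Sym2.eq_swap (a := l), v7, v8, w7, w8]; exact h3 1
        · have a1 := v3 ⟨x, hxi, hxk, hxj, hxl⟩
          have a2 := v4 ⟨x, hxi, hxk, hxj, hxl⟩
          have a3 := w3 ⟨x, hxi, hxk, hxj, hxl⟩
          have a4 := w4 ⟨x, hxi, hxk, hxj, hxl⟩
          simp only at a1 a2 a3 a4
          rw [a1, a2, a3, a4]
          exact congrFun h2 ⟨x, hxi, hxk, hxj, hxl⟩
    · rw [deg_cphi_j hg, deg_cphi_j hg, h4]
  · rintro ⟨a, b, c⟩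
    have e : ∀ (g : Gr V) (a b : V), ad g a b = bi (g s(a, b)) := fun _ _ _ => rfl
    simp only [e] at b
    refine ⟨?_, ?_, ?_, ?_⟩
    · funext t
      refine Prod.ext ?_ ?_
      · rw [← v1, ← w1]
        exact a _ _ (by simp [t.2.2.2.1, t.2.2.2.2, hij, hil])
      · rw [← v2, ← w2]
        exact a _ _ (by simp [t.2.2.2.1, t.2.2.2.2, hkj, hkl])
    · funext t
      have := b t.1 t.2.2.2.1 t.2.2.2.2
      rw [v3, v4, w3, w4] at this
      exact this
    · intro q
      have hq : q = 0 ∨ q = 1 := by omega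
      rcases hq with rfl | rfl
      · have := b i hij hil
        rwa [Sym2.eq_swap (a := j), Sym2.eq_swap (a := l), v5, v6, w5, w6] at this
      · have := b k hkj hkl
        rwa [Sym2.eq_swap (a := j), Sym2.eq_swap (a := l), v7, v8, w7, w8] at this
    · rw [deg_cphi_j hg, deg_cphi_j hg] at c
      linarith


omit [Fintype V] in
theorem pos_of_ik {x y : V} (hx : x = i ∨ x = k) (hy : ¬ (y = i ∨ y = k)) :
    ∃ p, cpos i k j l p = s(x, y) := by
  rw [not_or] at hy
  by_cases hyj : y = j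
  · subst hyj
    rcases hx with rfl | rfl
    · exact ⟨.c 0 0, rfl⟩
    · exact ⟨.c 1 0, rfl⟩
  · by_cases hyl : y = l
    · subst hyl
      rcases hx with rfl | rfl
      · exact ⟨.c 0 1, rfl⟩
      · exact ⟨.c 1 1, rfl⟩
    · rcases hx with rfl | rfl
      · exact ⟨.a ⟨y, hy.1, hy.2, hyj, hyl⟩, rfl⟩
      · exact ⟨.b ⟨y, hy.1, hy.2, hyj, hyl⟩, rfl⟩

omit [Fintype V] in
theorem pos_of_jl {x y : V} (hx : x = j ∨ x = l) (hy : ¬ (y = j ∨ y = l)) :
    ∃ p, cpos i k j l p = s(x, y) := by
  rw [not_or] at hy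
  by_cases hyi : y = i
  · subst hyi
    rcases hx with rfl | rfl
    · exact ⟨.c 0 0, Sym2.eq_swap⟩
    · exact ⟨.c 0 1, Sym2.eq_swap⟩
  · by_cases hyk : y = k
    · subst hyk
      rcases hx with rfl | rfl
      · exact ⟨.c 1 0, Sym2.eq_swap⟩
      · exact ⟨.c 1 1, Sym2.eq_swap⟩
    · rcases hx with rfl | rfl
      · exact ⟨.a' ⟨y, hyi, hyk, hy.1, hy.2⟩, rfl⟩
      · exact ⟨.b' ⟨y, hyi, hyk, hy.1, hy.2⟩, rfl⟩

omit [Fintype V] in
theorem off_iff_ik {x y : V} (he : ¬ ∃ p, cpos i k j l p = s(x, y)) :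
    (x = i ∨ x = k) ↔ (y = i ∨ y = k) := by
  constructor
  · intro hx
    by_contra hy
    exact he (pos_of_ik hx hy)
  · intro hy
    by_contra hx
    rw [Sym2.eq_swap] at he
    exact he (pos_of_ik hy hx)

omit [Fintype V] in
theorem off_iff_jl {x y : V} (he : ¬ ∃ p, cpos i k j l p = s(x, y)) :
    (x = j ∨ x = l) ↔ (y = j ∨ y = l) := by
  constructor
  · intro hx
    by_contra hy
    exact he (pos_of_jl hx hy)
  · intro hy
    by_contra hx
    rw [Sym2.eq_swap] at he
    exact he (pos_of_jl hy hx)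

theorem closed_ik (h : Good i k j l) (g₀ : Gr V) (z : CU V i k j l × CU V i k j l × Blk)
    (g : Gr V) (hg : pairRel i k (cphi i k j l g₀ z) g) : ∃ w, cphi i k j l g₀ w = g := by
  refine ⟨crd i k j l g, cphi_crd h g₀ g ?_⟩
  intro e
  induction e using Sym2.ind with
  | _ x y =>
    intro he
    rw [← cphi_off g₀ z _ he]
    exact hg.1 x y (off_iff_ik he)

theorem closed_jl (h : Good i k j l) (g₀ : Gr V) (z : CU V i k j l × CU V i k j l × Blk)
    (g : Gr V) (hg : pairRel j l (cphi i k j l g₀ z) g) : ∃ w, cphi i k j l g₀ w = g := by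
  refine ⟨crd i k j l g, cphi_crd h g₀ g ?_⟩
  intro e
  induction e using Sym2.ind with
  | _ x y =>
    intro he
    rw [← cphi_off g₀ z _ he]
    exact hg.1 x y (off_iff_jl he)

omit [Fintype V] [DecidableEq V] in
theorem isC_cphi (h : Good i k j l) (g₀ : Gr V) (z : CU V i k j l × CU V i k j l × Blk) :
    isC i k j l (cphi i k j l g₀ z) ↔ cenB z.2.2 := by
  obtain ⟨v1, v2, v3, v4, v5, v6, v7, v8⟩ := cphi_vals h g₀ z
  unfold isC cenB
  rw [v5, v6, v7, v8]

omit [Fintype V] in
theorem sw_cphi (h : Good i k j l) (g₀ : Gr V) (z : CU V i k j l × CU V i k j l × Blk) :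
    sw i k j l (cphi i k j l g₀ z) = cphi i k j l g₀ (z.1, z.2.1, swB z.2.2) := by
  funext e
  have hW : ∀ (t : CW V i k j l) (x : V),
      ¬ (s(x, t.1) = s(i, j) ∨ s(x, t.1) = s(i, l) ∨ s(x, t.1) = s(k, j) ∨
        s(x, t.1) = s(k, l)) := by
    intro t x ht
    have hm : ∀ a b : V, s(x, t.1) = s(a, b) → t.1 = a ∨ t.1 = b := by
      intro a b hab
      have : t.1 ∈ s(a, b) := by rw [← hab]; exact Sym2.mem_mk_right _ _
      rwa [Sym2.mem_iff] at this
    obtain ⟨t1, t2, t3, t4⟩ := t.2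
    rcases ht with ht | ht | ht | ht <;> rcases hm _ _ ht with h' | h' <;> tauto
  by_cases he : ∃ p, cpos i k j l p = e
  · obtain ⟨p, rfl⟩ := he
    rw [cphi_pos h]
    cases p with
    | a t =>
      rw [sw_of_off (by exact hW t i), cphi_pos h]; rfl
    | b t =>
      rw [sw_of_off (by exact hW t k), cphi_pos h]; rfl
    | a' t =>
      rw [sw_of_off (by exact hW t j), cphi_pos h]; rfl
    | b' t =>
      rw [sw_of_off (by exact hW t l), cphi_pos h]; rfl
    | c r q =>
      have hr : r = 0 ∨ r = 1 := by omega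
      have hq : q = 0 ∨ q = 1 := by omega
      have hmem : cpos i k j l (.c r q) = s(i, j) ∨ cpos i k j l (.c r q) = s(i, l) ∨
          cpos i k j l (.c r q) = s(k, j) ∨ cpos i k j l (.c r q) = s(k, l) := by
        rcases hr with rfl | rfl <;> rcases hq with rfl | rfl <;> simp [cpos]
      by_cases hC : isC i k j l (cphi i k j l g₀ z)
      · have hB := (isC_cphi h g₀ z).1 hC
        unfold sw
        rw [if_pos ⟨hC, hmem⟩, cphi_pos h]
        simp only [cval, swB, if_pos hB]
      · have hB : ¬ cenB z.2.2 := fun hB => hC ((isC_cphi h g₀ z).2 hB)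
        unfold sw
        rw [if_neg (fun h' => hC h'.1), cphi_pos h]
        simp only [cval, swB, if_neg hB]
  · rw [cphi_off g₀ _ e he, sw_of_off, cphi_off g₀ _ e he]
    rintro (h1 | h1 | h1 | h1)
    · exact he ⟨.c 0 0, h1.symm⟩
    · exact he ⟨.c 0 1, h1.symm⟩
    · exact he ⟨.c 1 0, h1.symm⟩
    · exact he ⟨.c 1 1, h1.symm⟩

end Emb

variable {V : Type*} [Fintype V] [DecidableEq V]

theorem cross_graph (i k j l : V) (h : Good i k j l) (f : Gr V → ℝ) :
    ∑ g, ((f g - f (sw i k j l g)) / 2) ^ 2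
      - (1 / 2) * ∑ g with isC i k j l g,
          cav (pairRel i k) (isC i k j l) (dv (pairRel i k) f) g ^ 2
      - (1 / 2) * ∑ g with isC i k j l g,
          cav (pairRel j l) (isC i k j l) (dv (pairRel j l) f) g ^ 2
      ≤ ∑ g, dv (pairRel i k) f g * dv (pairRel j l) f g := by
  rw [sum_filter, sum_filter]
  have key : 0 ≤ ∑ g, (dv (pairRel i k) f g * dv (pairRel j l) f g
      - ((f g - f (sw i k j l g)) / 2) ^ 2
      + (1 / 2) * (if isC i k j l g then
          cav (pairRel i k) (isC i k j l) (dv (pairRel i k) f) g ^ 2 else 0)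
      + (1 / 2) * (if isC i k j l g then
          cav (pairRel j l) (isC i k j l) (dv (pairRel j l) f) g ^ 2 else 0)) := by
    refine sum_nonneg_of_cls (offRel i k j l) _ fun g₀ => ?_
    rw [sum_cls_off h g₀]
    have hd1 : ∀ z, dv (pairRel i k) f (cphi i k j l g₀ z) =
        dv (relE (cc i k j l) (cs i k j l) (CU V i k j l)) (fun z => f (cphi i k j l g₀ z)) z :=
      fun z => dv_embed _ _ (cphi i k j l g₀) (cphi_inj h g₀) (relE_iff h g₀)
        (closed_ik h g₀) f z
    have hd2 : ∀ z, dv (pairRel j l) f (cphi i k j l g₀ z) =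
        dv (relE' (CU V i k j l) (cc i k j l) (cs i k j l)) (fun z => f (cphi i k j l g₀ z)) z :=
      fun z => dv_embed _ _ (cphi i k j l g₀) (cphi_inj h g₀) (relE'_iff h g₀)
        (closed_jl h g₀) f z
    have hP : (fun z => isC i k j l (cphi i k j l g₀ z)) = fun w => cenB w.2.2 :=
      funext fun z => propext (isC_cphi h g₀ z)
    have hc1 : ∀ z, cav (pairRel i k) (isC i k j l) (dv (pairRel i k) f)
        (cphi i k j l g₀ z) = cav (relE (cc i k j l) (cs i k j l) (CU V i k j l))
          (fun w => cenB w.2.2) (dv (relE (cc i k j l) (cs i k j l) (CU V i k j l))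
            (fun z => f (cphi i k j l g₀ z))) z := by
      intro z
      rw [cav_embed _ _ (cphi i k j l g₀) (cphi_inj h g₀) (relE_iff h g₀)
        (closed_ik h g₀) (isC i k j l) _ z, hP]
      simp only [hd1]
    have hc2 : ∀ z, cav (pairRel j l) (isC i k j l) (dv (pairRel j l) f)
        (cphi i k j l g₀ z) = cav (relE' (CU V i k j l) (cc i k j l) (cs i k j l))
          (fun w => cenB w.2.2) (dv (relE' (CU V i k j l) (cc i k j l) (cs i k j l))
            (fun z => f (cphi i k j l g₀ z))) z := by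
      intro z
      rw [cav_embed _ _ (cphi i k j l g₀) (cphi_inj h g₀) (relE'_iff h g₀)
        (closed_jl h g₀) (isC i k j l) _ z, hP]
      simp only [hd2]
    have hprod := cross_prod (cc i k j l) (cs i k j l) (cc i k j l) (cs i k j l)
      (fun z => f (cphi i k j l g₀ z))
    rw [sum_filter, sum_filter] at hprod
    simp only [hc1, hc2, hd1, hd2, sw_cphi h g₀, isC_cphi h g₀]
    simp only [sum_add_distrib, sum_sub_distrib, ← mul_sum]
    linarith
  simp only [sum_add_distrib, sum_sub_distrib, ← mul_sum] at key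
  linarith

end Vale.Agent.KTV
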