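import Vale.Agent.KTV.CrossProdAux

/-!
The cross inequality in the product model.

States are `z = (u, u', B)` with a `2 × 2` Boolean block `B`.  `E = av (relE c s U')` re-deals
`(u, B)` for fixed `u'`, `E' = av (relE' U c' s')` re-deals `(u', B)` for fixed `u`.
Write `D = 1 - E = dv (relE ..)`, `D' = 1 - E'`.  Let `I`, `J` be the two perfect matching
blocks (`cenB`).

Paper proof (operator form).  Let `F` be the average over
`{(w, u', B) : c w = c u, s w = s u}` and `F'` the average over
`{(u, w', B) : c' w' = c' u', s' w' = s' u'}` (re-deal with the block fixed).  `F` refines `E`, so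
`E F = F E = E`; `F'` refines `E'`, so `E' F' = F' E' = E'`.  `F` commutes with `F'` and `E'`, and `F'`
commutes with `E` (they act on different coordinates; Fubini).  Let `τ` be `swB` on the block and
`A f = (f - f ∘ τ) / 2`; `A` commutes with `F` and `F'`, `A E = 0` and `A E' = 0` because `τ z` is related
to `z` by both relations.  Then with `φ = F' F f`,
  `⟨D f, D' f⟩ = ‖D' (1-F) f‖² + ‖D (1-F') F f‖² + ⟨D φ, D' φ⟩`,
  `‖A f‖² = ‖A D' (1-F) f‖² + ‖A D (1-F') F f‖² + ‖A φ‖²`, and `‖A g‖ ≤ ‖g‖`.
So it remains to treat `φ`, which is invariant under `F` and `F'`.  Split by the block: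
* block sum `0` or `4`: `E φ = φ`, nothing to do;
* block sum `1` or `3`: writing the block as the position `(ρ, γ)` of its exceptional entry, `E` acts on
  `(u, ρ)` and `E'` on `(u', γ)`, so `E`, `E'` commute there and `⟨D φ, D' φ⟩ ≥ 0`;
* block sum `2`, not a perfect matching: if the columns are constant (`(1,0;1,0)` or `(0,1;0,1)`) then
  `E` fixes the block, so `D φ = 0`; if the rows are constant then `D' φ = 0`;
* perfect matchings: `E φ`, `E' φ` are `τ`-invariant, so the sum over the centre of
  `(φ - Eφ)(φ - E'φ)` is `‖A φ‖² + ∑_centre (φ⁺ - Eφ)(φ⁺ - E'φ)`, with `φ⁺ = (φ + φ∘τ)/2`, which is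
  `≥ ‖Aφ‖² - ½ ‖φ⁺ - Eφ‖²_centre - ½ ‖φ⁺ - E'φ‖²_centre`.
Finally on the centre `φ⁺ - Eφ = (F F' D f)⁺ = F' ((F D f)⁺)` and `(F D f)⁺` is exactly
`cav (relE ..) cenB (D f)` (the part of the `relE`-class of `z` in the centre is the `F`-class of `z`
together with the `F`-class of `τ z`, of equal size), and `F'` is a contraction of the centre.
Same for `E'`.

Alternative (coordinate form): for fixed invariants a fibre with block sum 2 is a cross with
centre `X₁ × Y₁ × {I,J}` and arms `X' × Y₁` and `X₁ × Y'`, and the inequality is an elementary one about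
functions on these four products.  Use whichever is easier; blocks sums can be separated by
`sum_nonneg_of_cls`-type arguments or by writing `f` as a sum of its restrictions.
-/

open Finset

namespace Vale.Agent.KTV

open CP

theorem cross_prod {U U' K K' : Type*} [Fintype U] [Fintype U'] (c : U → K) (s : U → ℤ)
    (c' : U' → K') (s' : U' → ℤ) (f : U × U' × Blk → ℝ) :
    ∑ z : U × U' × Blk, ((f z - f (z.1, z.2.1, swB z.2.2)) / 2) ^ 2
      - (1 / 2) * ∑ z : U × U' × Blk with cenB z.2.2,
          cav (relE c s U') (fun w => cenB w.2.2) (dv (relE c s U') f) z ^ 2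
      - (1 / 2) * ∑ z : U × U' × Blk with cenB z.2.2,
          cav (relE' U c' s') (fun w => cenB w.2.2) (dv (relE' U c' s') f) z ^ 2
      ≤ ∑ z : U × U' × Blk, dv (relE c s U') f z * dv (relE' U c' s') f z := by
  have hinv : ∀ x y, rF c s U' x y →
      av (rF' U c' s') (av (rF c s U') f) x = av (rF' U c' s') (av (rF c s U') f) y := by
    intro x y h
    rw [← comm_F_F' c s c' s' f]
    exact av_congr _ h
  have hinv' : ∀ x y, rF' U c' s' x y →
      av (rF' U c' s') (av (rF c s U') f) x = av (rF' U c' s') (av (rF c s U') f) y :=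
    fun x y h => av_congr _ h
  have h1 := phi_ineq c s c' s' (av (rF' U c' s') (av (rF c s U') f)) hinv hinv'
  have h2 := split_inner c s c' s' f
  have h3 := split_as c s c' s' f
  have hcF : ∀ x y, rF c s U' x y → (cenB x.2.2 ↔ cenB y.2.2) := by
    intro x y h
    rw [h.1]
  have hcF' : ∀ x y, rF' U c' s' x y → (cenB x.2.2 ↔ cenB y.2.2) := by
    intro x y h
    rw [h.2.1]
  have e1 : cav (relE c s U') (fun w => cenB w.2.2)
      (dv (relE c s U') (av (rF' U c' s') (av (rF c s U') f))) =
      av (rF' U c' s') (cav (relE c s U') (fun w => cenB w.2.2) (dv (relE c s U') f)) := by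
    rw [dv_av_of_comm _ _ (comm_E_F' c s c' s'), comm_C_F',
      dv_av_of_le _ _ (rF_le c s)]
    congr 1
    funext x
    exact cav_av_of_le _ _ _ (rF_le c s) hcF _ x
  have e2 : cav (relE' U c' s') (fun w => cenB w.2.2)
      (dv (relE' U c' s') (av (rF' U c' s') (av (rF c s U') f))) =
      av (rF c s U') (cav (relE' U c' s') (fun w => cenB w.2.2) (dv (relE' U c' s') f)) := by
    rw [← comm_F_F' c s c' s' f, dv_av_of_comm _ _ (comm_E'_F c s c' s'), comm_C'_F,
      dv_av_of_le _ _ (rF'_le c' s')]
    congr 1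
    funext x
    exact cav_av_of_le _ _ _ (rF'_le c' s') hcF' _ x
  have l1 : ∑ z : U × U' × Blk with cenB z.2.2, cav (relE c s U') (fun w => cenB w.2.2)
      (dv (relE c s U') (av (rF' U c' s') (av (rF c s U') f))) z ^ 2 ≤
      ∑ z : U × U' × Blk with cenB z.2.2,
        cav (relE c s U') (fun w => cenB w.2.2) (dv (relE c s U') f) z ^ 2 := by
    rw [e1]
    exact sum_sq_av_le _ _ hcF' _
  have l2 : ∑ z : U × U' × Blk with cenB z.2.2, cav (relE' U c' s') (fun w => cenB w.2.2)
      (dv (relE' U c' s') (av (rF' U c' s') (av (rF c s U') f))) z ^ 2 ≤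
      ∑ z : U × U' × Blk with cenB z.2.2,
        cav (relE' U c' s') (fun w => cenB w.2.2) (dv (relE' U c' s') f) z ^ 2 := by
    rw [e2]
    exact sum_sq_av_le _ _ hcF _
  have h4 : ∑ z : U × U' × Blk, ((f z - f (z.1, z.2.1, swB z.2.2)) / 2) ^ 2 =
      ∑ z, as f z ^ 2 := rfl
  rw [h4]
  linarith

end Vale.Agent.KTV
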