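import Vale.Agent.KTV.Avg

/-!
Auxiliary lemmas for `CrossProd.lean` (product averages, the block, odd blocks, the centre).
-/

open Finset

namespace Vale.Agent.KTV

namespace CP

section General

variable {α β : Type*} [Fintype α] [Fintype β]

theorem sum_filter_av (t : Setoid α) (Q : α → Prop) [DecidablePred Q]
    (hQ : ∀ x y, t x y → (Q x ↔ Q y)) (g : α → ℝ) :
    ∑ y with Q y, av t g y = ∑ y with Q y, g y := by
  have h := sum_mul_av t (fun y => if Q y then (1 : ℝ) else 0) g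
  have h2 : ∀ x, av t (fun y => if Q y then (1 : ℝ) else 0) x = if Q x then 1 else 0 :=
    fun x => av_eq_of_inv t _ x (fun y hy => by simp only [hQ x y hy])
  simp only [h2] at h
  rw [sum_filter, sum_filter]
  simpa only [ite_mul, one_mul, zero_mul] using h

theorem av_av_of_le (r t : Setoid α) (h : ∀ x y, t x y → r x y) (g : α → ℝ) :
    av r (av t g) = av r g := by
  classical
  funext x
  unfold av
  congr 1
  have := sum_filter_av t (fun y => r x y)
    (fun a b hab => ⟨fun h1 => r.trans h1 (h a b hab), fun h1 => r.trans h1 (r.symm (h a b hab))⟩) g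
  exact this

theorem av_av_of_le' (r t : Setoid α) (h : ∀ x y, t x y → r x y) (g : α → ℝ) :
    av t (av r g) = av r g := by
  funext x
  exact av_eq_of_inv t _ x (fun y hy => (av_congr g (h x y hy)).symm)

theorem cav_av_of_le (r t : Setoid α) (P : α → Prop) (h : ∀ x y, t x y → r x y)
    (hP : ∀ x y, t x y → (P x ↔ P y)) (g : α → ℝ) (x : α) :
    cav r P (av t g) x = cav r P g x := by
  classical
  unfold cav
  congr 1
  have := sum_filter_av t (fun y => r x y ∧ P y)
    (fun a b hab => and_congr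
      ⟨fun h1 => r.trans h1 (h a b hab), fun h1 => r.trans h1 (r.symm (h a b hab))⟩
      (hP a b hab)) g
  simp only [filter_and] at this
  convert this using 2 <;>
  · ext y
    simp [cls]

theorem av_comm (r : Setoid α) (t : Setoid β) (g : α → β → ℝ) (x : α) (y : β) :
    av r (fun a => av t (fun b => g a b) y) x = av t (fun b => av r (fun a => g a b) x) y := by
  unfold av
  rw [← sum_div, ← sum_div, sum_comm, div_div, div_div, mul_comm ((cls t y).card : ℝ)]

theorem cav_av_comm (r : Setoid α) (P : α → Prop) (t : Setoid β) (g : α → β → ℝ) (x : α) (y : β) :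
    cav r P (fun a => av t (fun b => g a b) y) x =
      av t (fun b => cav r P (fun a => g a b) x) y := by
  classical
  unfold av cav
  rw [← sum_div, ← sum_div, sum_comm, div_div, div_div, mul_comm ((cls t y).card : ℝ)]

/-- `⟨(1 - R) g, (1 - T) g⟩ ≥ 0` when `R`, `T` act on different coordinates. -/
theorem prod_nonneg (r : Setoid α) (t : Setoid β) (g : α → β → ℝ) :
    0 ≤ ∑ a, ∑ b, dv r (fun a' => g a' b) a * dv t (fun b' => g a b') b := by
  have hcomm : ∀ a b, dv t (fun b' => dv r (fun a' => g a' b') a) b =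
      dv r (fun a' => dv t (fun b' => g a' b') b) a := by
    intro a b
    unfold dv
    rw [av_sub, av_sub, av_comm r t g a b]
    ring
  have h1 : ∀ a, ∑ b, dv r (fun a' => g a' b) a * dv t (fun b' => g a b') b =
      ∑ b, dv r (fun a' => dv t (fun b' => g a' b') b) a * dv t (fun b' => g a b') b := by
    intro a
    rw [sum_mul_dv t (fun b => dv r (fun a' => g a' b) a) (fun b' => g a b')]
    exact sum_congr rfl fun b _ => by rw [hcomm]
  rw [sum_congr rfl fun a _ => h1 a, sum_comm]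
  refine sum_nonneg fun b _ => ?_
  have h2 := sum_sq_dv r (fun a' => dv t (fun b' => g a' b') b)
  have h3 : ∑ a, dv r (fun a' => dv t (fun b' => g a' b') b) a * dv t (fun b' => g a b') b =
      ∑ a, dv r (fun a' => dv t (fun b' => g a' b') b) a ^ 2 := by
    rw [h2]
    exact sum_congr rfl fun a _ => mul_comm _ _
  rw [h3]
  exact sum_nonneg fun a _ => sq_nonneg _

/-- Contraction of the average on an invariant set. -/
theorem sum_sq_av_le (t : Setoid α) (Q : α → Prop) [DecidablePred Q]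
    (hQ : ∀ x y, t x y → (Q x ↔ Q y)) (g : α → ℝ) :
    ∑ x with Q x, av t g x ^ 2 ≤ ∑ x with Q x, g x ^ 2 := by
  rw [← sum_filter_av t Q hQ (fun x => g x ^ 2)]
  refine sum_le_sum fun x _ => ?_
  have hpos : (0 : ℝ) < ((cls t x).card : ℝ) := by exact_mod_cast cls_card_pos t x
  unfold av
  rw [div_pow, div_le_div_iff₀ (by positivity) hpos]
  have := sq_sum_le_card_mul_sum_sq (s := cls t x) (f := g)
  nlinarith

end General


section Block

/-- The block with entry `b` at `(ρ, γ)` and `!b` elsewhere. -/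
def sb (b : Bool) (ρ γ : Fin 2) : Blk := fun r c => if r = ρ ∧ c = γ then b else !b

/-- Column sums agree. -/
def colsEq (B B' : Blk) : Prop := ∀ q, bi (B 0 q) + bi (B 1 q) = bi (B' 0 q) + bi (B' 1 q)

/-- Row sums agree. -/
def rowsEq (B B' : Blk) : Prop := ∀ q, bi (B q 0) + bi (B q 1) = bi (B' q 0) + bi (B' q 1)

instance (B B' : Blk) : Decidable (colsEq B B') := by unfold colsEq; infer_instance
instance (B B' : Blk) : Decidable (rowsEq B B') := by unfold rowsEq; infer_instance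

/-- The block sum is odd. -/
def oddB (B : Blk) : Prop := ∃ b ρ γ, B = sb b ρ γ

instance : DecidablePred oddB := fun B => by unfold oddB; infer_instance

theorem swB_swB : ∀ B : Blk, swB (swB B) = B := by decide
theorem cenB_swB : ∀ B : Blk, cenB (swB B) ↔ cenB B := by decide
theorem swB_ne : ∀ B : Blk, cenB B → B ≠ swB B := by decide
theorem swB_of_not : ∀ B : Blk, ¬ cenB B → swB B = B := by decide
theorem cen_cases : ∀ B B' : Blk, cenB B → (cenB B' ↔ B' = B ∨ B' = swB B) := by decide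
theorem colsEq_swB : ∀ B : Blk, colsEq B (swB B) := by decide
theorem rowsEq_swB : ∀ B : Blk, rowsEq B (swB B) := by decide
theorem row0_swB : ∀ B : Blk, bi (B 0 0) + bi (B 0 1) = bi (swB B 0 0) + bi (swB B 0 1) := by decide
theorem col0_swB : ∀ B : Blk, bi (B 0 0) + bi (B 1 0) = bi (swB B 0 0) + bi (swB B 1 0) := by decide
theorem rest_cases : ∀ B : Blk, ¬ oddB B → ¬ cenB B →
    ((∀ B', colsEq B B' → B' = B) ∨ (∀ B', rowsEq B B' → B' = B)) := by decide
theorem sb_cols : ∀ (b : Bool) (ρ γ : Fin 2) (B : Blk), colsEq (sb b ρ γ) B → ∃ ρ', B = sb b ρ' γ := by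
  decide
theorem sb_rows : ∀ (b : Bool) (ρ γ : Fin 2) (B : Blk), rowsEq (sb b ρ γ) B → ∃ γ', B = sb b ρ γ' := by
  decide
theorem sb_colsEq : ∀ (b : Bool) (ρ ρ' γ : Fin 2), colsEq (sb b ρ γ) (sb b ρ' γ) := by decide
theorem sb_rowsEq : ∀ (b : Bool) (ρ γ γ' : Fin 2), rowsEq (sb b ρ γ) (sb b ρ γ') := by decide
theorem sb_inj : ∀ (b b' : Bool) (ρ ρ' γ γ' : Fin 2), sb b ρ γ = sb b' ρ' γ' →
    b = b' ∧ ρ = ρ' ∧ γ = γ' := by decide
theorem odd_not_cen : ∀ B : Blk, oddB B → ¬ cenB B := by decide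
theorem sb_row0 : ∀ (b : Bool) (ρ γ : Fin 2), bi (sb b ρ γ 0 0) + bi (sb b ρ γ 0 1) =
    bi (sb b ρ 0 0 0) + bi (sb b ρ 0 0 1) := by decide
theorem sb_col0 : ∀ (b : Bool) (ρ γ : Fin 2), bi (sb b ρ γ 0 0) + bi (sb b ρ γ 1 0) =
    bi (sb b 0 γ 0 0) + bi (sb b 0 γ 1 0) := by decide

end Block


section Model

variable {U U' K K' : Type*} [Fintype U] [Fintype U'] (c : U → K) (s : U → ℤ)
    (c' : U' → K') (s' : U' → ℤ)

/-- Re-deal one coordinate with the block fixed. -/
def rA {W L : Type*} (c : W → L) (s : W → ℤ) : Setoid W where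
  r a b := c a = c b ∧ s a = s b
  iseqv :=
    { refl := fun _ => ⟨rfl, rfl⟩
      symm := fun h => ⟨h.1.symm, h.2.symm⟩
      trans := fun h h' => ⟨h.1.trans h'.1, h.2.trans h'.2⟩ }

/-- The relation `relE` without the coordinate `u'`. -/
def r1 (c : U → K) (s : U → ℤ) : Setoid (U × Blk) where
  r p q := c p.1 = c q.1 ∧ colsEq p.2 q.2 ∧
    s p.1 + bi (p.2 0 0) + bi (p.2 0 1) = s q.1 + bi (q.2 0 0) + bi (q.2 0 1)
  iseqv :=
    { refl := fun _ => ⟨rfl, fun _ => rfl, rfl⟩
      symm := fun h => ⟨h.1.symm, fun q => (h.2.1 q).symm, h.2.2.symm⟩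
      trans := fun h h' => ⟨h.1.trans h'.1, fun q => (h.2.1 q).trans (h'.2.1 q),
        h.2.2.trans h'.2.2⟩ }

/-- The relation `relE'` without the coordinate `u`. -/
def r1' (c' : U' → K') (s' : U' → ℤ) : Setoid (U' × Blk) where
  r p q := c' p.1 = c' q.1 ∧ rowsEq p.2 q.2 ∧
    s' p.1 + bi (p.2 0 0) + bi (p.2 1 0) = s' q.1 + bi (q.2 0 0) + bi (q.2 1 0)
  iseqv :=
    { refl := fun _ => ⟨rfl, fun _ => rfl, rfl⟩
      symm := fun h => ⟨h.1.symm, fun q => (h.2.1 q).symm, h.2.2.symm⟩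
      trans := fun h h' => ⟨h.1.trans h'.1, fun q => (h.2.1 q).trans (h'.2.1 q),
        h.2.2.trans h'.2.2⟩ }

/-- Re-deal `u` with everything else fixed. -/
def rF (c : U → K) (s : U → ℤ) (U' : Type*) : Setoid (U × U' × Blk) where
  r z w := z.2 = w.2 ∧ c z.1 = c w.1 ∧ s z.1 = s w.1
  iseqv :=
    { refl := fun _ => ⟨rfl, rfl, rfl⟩
      symm := fun h => ⟨h.1.symm, h.2.1.symm, h.2.2.symm⟩
      trans := fun h h' => ⟨h.1.trans h'.1, h.2.1.trans h'.2.1, h.2.2.trans h'.2.2⟩ }

/-- Re-deal `u'` with everything else fixed. -/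
def rF' (U : Type*) (c' : U' → K') (s' : U' → ℤ) : Setoid (U × U' × Blk) where
  r z w := z.1 = w.1 ∧ z.2.2 = w.2.2 ∧ c' z.2.1 = c' w.2.1 ∧ s' z.2.1 = s' w.2.1
  iseqv :=
    { refl := fun _ => ⟨rfl, rfl, rfl, rfl⟩
      symm := fun h => ⟨h.1.symm, h.2.1.symm, h.2.2.1.symm, h.2.2.2.symm⟩
      trans := fun h h' => ⟨h.1.trans h'.1, h.2.1.trans h'.2.1, h.2.2.1.trans h'.2.2.1,
        h.2.2.2.trans h'.2.2.2⟩ }

theorem av_rF (g : U × U' × Blk → ℝ) (u : U) (u' : U') (B : Blk) :
    av (rF c s U') g (u, u', B) = av (rA c s) (fun w => g (w, u', B)) u := by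
  refine av_embed (rF c s U') (rA c s) (fun w => (w, u', B)) (fun a b h => ?_) (fun x y => ?_)
    (fun x y h => ?_) g u
  · exact congrArg Prod.fst h
  · exact ⟨fun h => ⟨rfl, h.1, h.2⟩, fun h => ⟨h.2.1, h.2.2⟩⟩
  · exact ⟨y.1, Prod.ext rfl h.1⟩

theorem av_rF' (g : U × U' × Blk → ℝ) (u : U) (u' : U') (B : Blk) :
    av (rF' U c' s') g (u, u', B) = av (rA c' s') (fun w => g (u, w, B)) u' := by
  refine av_embed (rF' U c' s') (rA c' s') (fun w => (u, w, B)) (fun a b h => ?_) (fun x y => ?_)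
    (fun x y h => ?_) g u'
  · exact congrArg (fun z => z.2.1) h
  · exact ⟨fun h => ⟨rfl, rfl, h.1, h.2⟩, fun h => ⟨h.2.2.1, h.2.2.2⟩⟩
  · exact ⟨y.2.1, Prod.ext h.1 (Prod.ext rfl h.2.1)⟩

omit [Fintype U] [Fintype U'] in
theorem relE_iff (u' : U') (p q : U × Blk) :
    (r1 c s) p q ↔ (relE c s U') (p.1, u', p.2) (q.1, u', q.2) :=
  ⟨fun h => ⟨rfl, h.1, h.2.1, h.2.2⟩, fun h => ⟨h.2.1, h.2.2.1, h.2.2.2⟩⟩

omit [Fintype U] [Fintype U'] in
theorem relE'_iff (u : U) (p q : U' × Blk) :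
    (r1' c' s') p q ↔ (relE' U c' s') (u, p.1, p.2) (u, q.1, q.2) :=
  ⟨fun h => ⟨rfl, h.1, h.2.1, h.2.2⟩, fun h => ⟨h.2.1, h.2.2.1, h.2.2.2⟩⟩

omit [Fintype U] [Fintype U'] in
theorem inj1 (u' : U') : Function.Injective (fun p : U × Blk => ((p.1, u', p.2) : U × U' × Blk)) :=
  fun _ _ h => Prod.ext (congrArg (fun z : U × U' × Blk => z.1) h)
    (congrArg (fun z : U × U' × Blk => z.2.2) h)

omit [Fintype U] [Fintype U'] in
theorem inj1' (u : U) : Function.Injective (fun p : U' × Blk => ((u, p.1, p.2) : U × U' × Blk)) :=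
  fun _ _ h => Prod.ext (congrArg (fun z : U × U' × Blk => z.2.1) h)
    (congrArg (fun z : U × U' × Blk => z.2.2) h)

theorem av_relE (g : U × U' × Blk → ℝ) (u : U) (u' : U') (B : Blk) :
    av (relE c s U') g (u, u', B) = av (r1 c s) (fun p => g (p.1, u', p.2)) (u, B) :=
  av_embed (relE c s U') (r1 c s) (fun p => (p.1, u', p.2)) (inj1 u') (relE_iff c s u')
    (fun _ y h => ⟨(y.1, y.2.2), Prod.ext rfl (Prod.ext h.1 rfl)⟩) g (u, B)

theorem av_relE' (g : U × U' × Blk → ℝ) (u : U) (u' : U') (B : Blk) :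
    av (relE' U c' s') g (u, u', B) = av (r1' c' s') (fun p => g (u, p.1, p.2)) (u', B) :=
  av_embed (relE' U c' s') (r1' c' s') (fun p => (u, p.1, p.2)) (inj1' u) (relE'_iff c' s' u)
    (fun _ y h => ⟨(y.2.1, y.2.2), Prod.ext h.1 rfl⟩) g (u', B)

theorem cav_relE (g : U × U' × Blk → ℝ) (u : U) (u' : U') (B : Blk) :
    cav (relE c s U') (fun w => cenB w.2.2) g (u, u', B) =
      cav (r1 c s) (fun p => cenB p.2) (fun p => g (p.1, u', p.2)) (u, B) :=
  cav_embed (relE c s U') (r1 c s) (fun p => (p.1, u', p.2)) (inj1 u') (relE_iff c s u')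
    (fun _ y h => ⟨(y.1, y.2.2), Prod.ext rfl (Prod.ext h.1 rfl)⟩) (fun w => cenB w.2.2) g (u, B)

theorem cav_relE' (g : U × U' × Blk → ℝ) (u : U) (u' : U') (B : Blk) :
    cav (relE' U c' s') (fun w => cenB w.2.2) g (u, u', B) =
      cav (r1' c' s') (fun p => cenB p.2) (fun p => g (u, p.1, p.2)) (u', B) :=
  cav_embed (relE' U c' s') (r1' c' s') (fun p => (u, p.1, p.2)) (inj1' u) (relE'_iff c' s' u)
    (fun _ y h => ⟨(y.2.1, y.2.2), Prod.ext h.1 rfl⟩) (fun w => cenB w.2.2) g (u', B)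

/-! refinements -/

omit [Fintype U] [Fintype U'] in
theorem rF_le (x y : U × U' × Blk) (h : rF c s U' x y) : relE c s U' x y := by
  obtain ⟨h1, h2, h3⟩ := h
  refine ⟨congrArg Prod.fst h1, h2, fun q => ?_, ?_⟩
  · rw [h1]
  · rw [h1, h3]

omit [Fintype U] [Fintype U'] in
theorem rF'_le (x y : U × U' × Blk) (h : rF' U c' s' x y) : relE' U c' s' x y := by
  obtain ⟨h1, h2, h3, h4⟩ := h
  refine ⟨h1, h3, fun q => ?_, ?_⟩
  · rw [h2]
  · rw [h2, h4]

/-! commutations -/

theorem comm_F_F' (g : U × U' × Blk → ℝ) :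
    av (rF c s U') (av (rF' U c' s') g) = av (rF' U c' s') (av (rF c s U') g) := by
  funext ⟨u, u', B⟩
  rw [av_rF, av_rF']
  simp only [av_rF, av_rF']
  exact av_comm (rA c s) (rA c' s') (fun a b => g (a, b, B)) u u'

theorem comm_E_F' (g : U × U' × Blk → ℝ) :
    av (relE c s U') (av (rF' U c' s') g) = av (rF' U c' s') (av (relE c s U') g) := by
  funext ⟨u, u', B⟩
  rw [av_relE, av_rF']
  simp only [av_relE, av_rF']
  exact av_comm (r1 c s) (rA c' s') (fun a b => g (a.1, b, a.2)) (u, B) u'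

theorem comm_E'_F (g : U × U' × Blk → ℝ) :
    av (relE' U c' s') (av (rF c s U') g) = av (rF c s U') (av (relE' U c' s') g) := by
  funext ⟨u, u', B⟩
  rw [av_relE', av_rF]
  simp only [av_relE', av_rF]
  exact av_comm (r1' c' s') (rA c s) (fun a b => g (b, a.1, a.2)) (u', B) u

theorem comm_C_F' (g : U × U' × Blk → ℝ) :
    cav (relE c s U') (fun w => cenB w.2.2) (av (rF' U c' s') g) =
      av (rF' U c' s') (cav (relE c s U') (fun w => cenB w.2.2) g) := by
  funext ⟨u, u', B⟩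
  rw [cav_relE, av_rF']
  simp only [cav_relE, av_rF']
  exact cav_av_comm (r1 c s) (fun p => cenB p.2) (rA c' s') (fun a b => g (a.1, b, a.2)) (u, B) u'

theorem comm_C'_F (g : U × U' × Blk → ℝ) :
    cav (relE' U c' s') (fun w => cenB w.2.2) (av (rF c s U') g) =
      av (rF c s U') (cav (relE' U c' s') (fun w => cenB w.2.2) g) := by
  funext ⟨u, u', B⟩
  rw [cav_relE', av_rF]
  simp only [cav_relE', av_rF]
  exact cav_av_comm (r1' c' s') (fun p => cenB p.2) (rA c s) (fun a b => g (b, a.1, a.2)) (u', B) u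




/-! the block involution -/

/-- Complement the block when it is a perfect matching. -/
def tw (z : U × U' × Blk) : U × U' × Blk := (z.1, z.2.1, swB z.2.2)

omit [Fintype U] [Fintype U'] in
theorem tw_tw (z : U × U' × Blk) : tw (tw z) = z := by
  obtain ⟨u, u', B⟩ := z
  simp [tw, swB_swB]

/-- `tw` as an equivalence. -/
def twE : (U × U' × Blk) ≃ (U × U' × Blk) where
  toFun := tw
  invFun := tw
  left_inv := tw_tw
  right_inv := tw_tw

theorem sum_tw (g : U × U' × Blk → ℝ) : ∑ z, g (tw z) = ∑ z, g z :=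
  Equiv.sum_comp twE g

theorem sum_tw_cen (g : U × U' × Blk → ℝ) :
    ∑ z with cenB z.2.2, g (tw z) = ∑ z with cenB z.2.2, g z := by
  rw [sum_filter, sum_filter, ← sum_tw (fun z => if cenB z.2.2 then g z else 0)]
  refine sum_congr rfl fun z _ => ?_
  have : cenB (tw z).2.2 ↔ cenB z.2.2 := cenB_swB z.2.2
  by_cases h : cenB z.2.2
  · rw [if_pos h, if_pos (this.2 h)]
  · rw [if_neg h, if_neg (fun h' => h (this.1 h'))]

omit [Fintype U] [Fintype U'] in
theorem relE_tw (z : U × U' × Blk) : relE c s U' z (tw z) := by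
  refine ⟨rfl, rfl, colsEq_swB z.2.2, ?_⟩
  have := row0_swB z.2.2
  simp only [tw]
  linarith

omit [Fintype U] [Fintype U'] in
theorem relE'_tw (z : U × U' × Blk) : relE' U c' s' z (tw z) := by
  refine ⟨rfl, rfl, rowsEq_swB z.2.2, ?_⟩
  have := col0_swB z.2.2
  simp only [tw]
  linarith

/-- The antisymmetric part. -/
noncomputable def as (g : U × U' × Blk → ℝ) (z : U × U' × Blk) : ℝ := (g z - g (tw z)) / 2

theorem as_le (g : U × U' × Blk → ℝ) : ∑ z, as g z ^ 2 ≤ ∑ z, g z ^ 2 := by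
  have h : ∑ z, (g z ^ 2 / 2 + g (tw z) ^ 2 / 2) = ∑ z, g z ^ 2 := by
    rw [sum_add_distrib, ← sum_div, ← sum_div, sum_tw (fun z => g z ^ 2)]
    ring
  rw [← h]
  refine sum_le_sum fun z _ => ?_
  unfold as
  nlinarith [sq_nonneg (g z + g (tw z))]

theorem as_dv_E (g : U × U' × Blk → ℝ) : as (dv (relE c s U') g) = as g := by
  funext z
  unfold as dv
  rw [av_congr g (relE_tw c s z)]
  ring

theorem as_dv_E' (g : U × U' × Blk → ℝ) : as (dv (relE' U c' s') g) = as g := by
  funext z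
  unfold as dv
  rw [av_congr g (relE'_tw c' s' z)]
  ring

theorem as_av_F (g : U × U' × Blk → ℝ) : as (av (rF c s U') g) = av (rF c s U') (as g) := by
  funext ⟨u, u', B⟩
  have h : as (av (rF c s U') g) (u, u', B) =
      (av (rF c s U') g (u, u', B) - av (rF c s U') g (u, u', swB B)) / 2 := rfl
  rw [h, av_rF, av_rF, av_rF, ← av_sub]
  unfold av
  rw [div_right_comm, sum_div]
  rfl

theorem as_av_F' (g : U × U' × Blk → ℝ) : as (av (rF' U c' s') g) = av (rF' U c' s') (as g) := by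
  funext ⟨u, u', B⟩
  have h : as (av (rF' U c' s') g) (u, u', B) =
      (av (rF' U c' s') g (u, u', B) - av (rF' U c' s') g (u, u', swB B)) / 2 := rfl
  rw [h, av_rF', av_rF', av_rF', ← av_sub]
  unfold av
  rw [div_right_comm, sum_div]
  rfl

omit [Fintype U] [Fintype U'] in
theorem as_sub (g h : U × U' × Blk → ℝ) : as (fun z => g z - h z) = fun z => as g z - as h z := by
  funext z
  unfold as
  ring

theorem as_dv_F (g : U × U' × Blk → ℝ) : as (dv (rF c s U') g) = dv (rF c s U') (as g) := by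
  have : dv (rF c s U') g = fun z => g z - av (rF c s U') g z := rfl
  rw [this, as_sub, as_av_F]
  rfl

theorem as_dv_F' (g : U × U' × Blk → ℝ) : as (dv (rF' U c' s') g) = dv (rF' U c' s') (as g) := by
  have : dv (rF' U c' s') g = fun z => g z - av (rF' U c' s') g z := rfl
  rw [this, as_sub, as_av_F']
  rfl

/-! deviations of averages -/

theorem dv_av_of_comm {α : Type*} [Fintype α] (r t : Setoid α)
    (h : ∀ g, av r (av t g) = av t (av r g)) (g : α → ℝ) :
    dv r (av t g) = av t (dv r g) := by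
  funext x
  have h1 : av t (dv r g) x = av t g x - av t (av r g) x := av_sub t g (av r g) x
  rw [h1, ← h]
  rfl

theorem dv_dv_of_comm {α : Type*} [Fintype α] (r t : Setoid α)
    (h : ∀ g, av r (av t g) = av t (av r g)) (g : α → ℝ) :
    dv r (dv t g) = dv t (dv r g) := by
  funext x
  have h1 : av t (dv r g) x = av t g x - av t (av r g) x := av_sub t g (av r g) x
  have h2 : av r (dv t g) x = av r g x - av r (av t g) x := av_sub r g (av t g) x
  have h3 : dv r (dv t g) x = (g x - av t g x) - av r (dv t g) x := rfl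
  have h4 : dv t (dv r g) x = (g x - av r g x) - av t (dv r g) x := rfl
  rw [h3, h4, h1, h2, h]
  ring




theorem dv_dv_of_le {α : Type*} [Fintype α] (r t : Setoid α) (h : ∀ x y, t x y → r x y)
    (g : α → ℝ) : dv r (dv t g) = dv t g := by
  funext x
  have h1 : av r (dv t g) x = av r g x - av r (av t g) x := av_sub r g (av t g) x
  have h2 : dv r (dv t g) x = dv t g x - av r (dv t g) x := rfl
  rw [h2, h1, av_av_of_le r t h, sub_self, sub_zero]

theorem dv_av_of_le {α : Type*} [Fintype α] (r t : Setoid α) (h : ∀ x y, t x y → r x y)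
    (g : α → ℝ) : dv r (av t g) = av t (dv r g) := by
  refine dv_av_of_comm r t (fun g => ?_) g
  rw [av_av_of_le r t h, av_av_of_le' r t h]

theorem sum_dv_mul_av {α : Type*} [Fintype α] (r : Setoid α) (f g : α → ℝ) :
    ∑ x, dv r f x * av r g x = 0 := by
  rw [← sum_av_mul_dv r g f]
  exact sum_congr rfl fun x _ => mul_comm _ _

theorem split_inner (f : U × U' × Blk → ℝ) :
    ∑ z, dv (relE c s U') f z * dv (relE' U c' s') f z =
      ∑ z, dv (relE' U c' s') (dv (rF c s U') f) z ^ 2 +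
      ∑ z, dv (relE c s U') (dv (rF' U c' s') (av (rF c s U') f)) z ^ 2 +
      ∑ z, dv (relE c s U') (av (rF' U c' s') (av (rF c s U') f)) z *
        dv (relE' U c' s') (av (rF' U c' s') (av (rF c s U') f)) z := by
  set r := relE c s U'
  set r' := relE' U c' s'
  set t := rF c s U'
  set t' := rF' U c' s'
  have hle : ∀ x y, t x y → r x y := rF_le c s
  have hle' : ∀ x y, t' x y → r' x y := rF'_le c' s'
  have htt' : ∀ g, av t (av t' g) = av t' (av t g) := comm_F_F' c s c' s'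
  have ht't : ∀ g, av t' (av t g) = av t (av t' g) := fun g => (htt' g).symm
  have hrt' : ∀ g, av r (av t' g) = av t' (av r g) := comm_E_F' c s c' s'
  have hr't : ∀ g, av r' (av t g) = av t (av r' g) := comm_E'_F c s c' s'
  set g1 := av t f with hg1
  have hf : f = fun y => (dv t f y + dv t' g1 y) + av t' g1 y := by
    funext y
    unfold dv
    rw [hg1]
    ring
  have hD : ∀ (ρ : Setoid (U × U' × Blk)) z, dv ρ f z =
      (dv ρ (dv t f) z + dv ρ (dv t' g1) z) + dv ρ (av t' g1) z := by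
    intro ρ z
    conv_lhs => rw [hf]
    rw [dv_add ρ (fun y => dv t f y + dv t' g1 y) (av t' g1), dv_add ρ (dv t f) (dv t' g1)]
  -- representations
  have x1 : dv r (dv t f) = dv t f := dv_dv_of_le r t hle f
  have y1 : dv r' (dv t f) = dv t (dv r' f) := dv_dv_of_comm r' t hr't f
  have x2 : dv r (dv t' g1) = dv t' (dv r g1) := dv_dv_of_comm r t' hrt' g1
  have b2 : dv t' g1 = av t (dv t' f) := dv_av_of_comm t' t ht't f
  have x2' : dv r (dv t' g1) = av t (dv r (dv t' f)) := by rw [b2, dv_av_of_le r t hle]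
  have y2 : dv r' (dv t' g1) = dv t' g1 := dv_dv_of_le r' t' hle' g1
  have p3 : av t' g1 = av t (av t' f) := ht't f
  have x3 : dv r (av t' g1) = av t' (dv r g1) := dv_av_of_comm r t' hrt' g1
  have x3' : dv r (av t' g1) = av t (dv r (av t' f)) := by rw [p3, dv_av_of_le r t hle]
  have y3 : dv r' (av t' g1) = av t' (dv r' g1) := dv_av_of_le r' t' hle' g1
  have y3' : dv r' (av t' g1) = av t (dv r' (av t' f)) := by
    rw [p3, dv_av_of_comm r' t hr't]
  have e : ∑ z, dv r f z * dv r' f z =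
      ∑ z, dv r (dv t f) z * dv r' (dv t f) z + ∑ z, dv r (dv t f) z * dv r' (dv t' g1) z +
      ∑ z, dv r (dv t f) z * dv r' (av t' g1) z + ∑ z, dv r (dv t' g1) z * dv r' (dv t f) z +
      ∑ z, dv r (dv t' g1) z * dv r' (dv t' g1) z + ∑ z, dv r (dv t' g1) z * dv r' (av t' g1) z +
      ∑ z, dv r (av t' g1) z * dv r' (dv t f) z + ∑ z, dv r (av t' g1) z * dv r' (dv t' g1) z +
      ∑ z, dv r (av t' g1) z * dv r' (av t' g1) z := by
    simp only [← sum_add_distrib]
    refine sum_congr rfl fun z _ => ?_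
    rw [hD r z, hD r' z]
    ring
  have s11 : ∑ z, dv r (dv t f) z * dv r' (dv t f) z = ∑ z, dv r' (dv t f) z ^ 2 := by
    rw [sum_sq_dv, x1]
  have s12 : ∑ z, dv r (dv t f) z * dv r' (dv t' g1) z = 0 := by
    rw [x1, y2, b2]; exact sum_dv_mul_av t _ _
  have s13 : ∑ z, dv r (dv t f) z * dv r' (av t' g1) z = 0 := by
    rw [x1, y3']; exact sum_dv_mul_av t _ _
  have s21 : ∑ z, dv r (dv t' g1) z * dv r' (dv t f) z = 0 := by
    rw [x2', y1]; exact sum_av_mul_dv t _ _
  have s22 : ∑ z, dv r (dv t' g1) z * dv r' (dv t' g1) z = ∑ z, dv r (dv t' g1) z ^ 2 := by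
    rw [sum_sq_dv, y2]
    exact sum_congr rfl fun z _ => mul_comm _ _
  have s23 : ∑ z, dv r (dv t' g1) z * dv r' (av t' g1) z = 0 := by
    rw [x2, y3]; exact sum_dv_mul_av t' _ _
  have s31 : ∑ z, dv r (av t' g1) z * dv r' (dv t f) z = 0 := by
    rw [x3', y1]; exact sum_av_mul_dv t _ _
  have s32 : ∑ z, dv r (av t' g1) z * dv r' (dv t' g1) z = 0 := by
    rw [x3, y2]; exact sum_av_mul_dv t' _ _
  rw [e, s11, s12, s13, s21, s22, s23, s31, s32]
  ring

theorem split_as (f : U × U' × Blk → ℝ) :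
    ∑ z, as f z ^ 2 ≤
      ∑ z, dv (relE' U c' s') (dv (rF c s U') f) z ^ 2 +
      ∑ z, dv (relE c s U') (dv (rF' U c' s') (av (rF c s U') f)) z ^ 2 +
      ∑ z, as (av (rF' U c' s') (av (rF c s U') f)) z ^ 2 := by
  set r := relE c s U'
  set r' := relE' U c' s'
  set t := rF c s U'
  set t' := rF' U c' s'
  have htt' : ∀ g, av t (av t' g) = av t' (av t g) := comm_F_F' c s c' s'
  have ht't : ∀ g, av t' (av t g) = av t (av t' g) := fun g => (htt' g).symm
  set g1 := av t f with hg1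
  have hf : ∀ z, as f z = (as (dv t f) z + as (dv t' g1) z) + as (av t' g1) z := by
    intro z
    unfold as dv
    rw [hg1]
    ring
  have a1 : as (dv t f) = dv t (as f) := as_dv_F c s f
  have b1 : as (dv t' g1) = dv t' (as g1) := as_dv_F' c' s' g1
  have b2 : as (dv t' g1) = av t (as (dv t' f)) := by
    have : dv t' g1 = av t (dv t' f) := dv_av_of_comm t' t ht't f
    rw [this]
    exact as_av_F c s _
  have c1 : as (av t' g1) = av t' (as g1) := as_av_F' c' s' g1
  have c2 : as (av t' g1) = av t (as (av t' f)) := by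
    have : av t' g1 = av t (av t' f) := ht't f
    rw [this]
    exact as_av_F c s _
  have e : ∑ z, as f z ^ 2 = ∑ z, as (dv t f) z ^ 2 + ∑ z, as (dv t' g1) z ^ 2 +
      ∑ z, as (av t' g1) z ^ 2 + 2 * ∑ z, as (dv t f) z * as (dv t' g1) z +
      2 * ∑ z, as (dv t f) z * as (av t' g1) z + 2 * ∑ z, as (dv t' g1) z * as (av t' g1) z := by
    simp only [mul_sum, ← sum_add_distrib]
    refine sum_congr rfl fun z _ => ?_
    rw [hf z]
    ring
  have s12 : ∑ z, as (dv t f) z * as (dv t' g1) z = 0 := by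
    rw [a1, b2]; exact sum_dv_mul_av t _ _
  have s13 : ∑ z, as (dv t f) z * as (av t' g1) z = 0 := by
    rw [a1, c2]; exact sum_dv_mul_av t _ _
  have s23 : ∑ z, as (dv t' g1) z * as (av t' g1) z = 0 := by
    rw [b1, c1]; exact sum_dv_mul_av t' _ _
  have l1 : ∑ z, as (dv t f) z ^ 2 ≤ ∑ z, dv r' (dv t f) z ^ 2 := by
    have : as (dv t f) = as (dv r' (dv t f)) := (as_dv_E' c' s' _).symm
    rw [this]
    exact as_le _
  have l2 : ∑ z, as (dv t' g1) z ^ 2 ≤ ∑ z, dv r (dv t' g1) z ^ 2 := by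
    have : as (dv t' g1) = as (dv r (dv t' g1)) := (as_dv_E c s _).symm
    rw [this]
    exact as_le _
  rw [e, s12, s13, s23]
  linarith




/-! odd blocks -/

/-- The relation of `E` on odd blocks with exceptional value `b`. -/
def rO (c : U → K) (s : U → ℤ) (b : Bool) : Setoid (U × Fin 2) where
  r p q := c p.1 = c q.1 ∧ s p.1 + (bi (sb b p.2 0 0 0) + bi (sb b p.2 0 0 1)) =
    s q.1 + (bi (sb b q.2 0 0 0) + bi (sb b q.2 0 0 1))
  iseqv :=
    { refl := fun _ => ⟨rfl, rfl⟩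
      symm := fun h => ⟨h.1.symm, h.2.symm⟩
      trans := fun h h' => ⟨h.1.trans h'.1, h.2.trans h'.2⟩ }

/-- The relation of `E'` on odd blocks with exceptional value `b`. -/
def rO' (c' : U' → K') (s' : U' → ℤ) (b : Bool) : Setoid (U' × Fin 2) where
  r p q := c' p.1 = c' q.1 ∧ s' p.1 + (bi (sb b 0 p.2 0 0) + bi (sb b 0 p.2 1 0)) =
    s' q.1 + (bi (sb b 0 q.2 0 0) + bi (sb b 0 q.2 1 0))
  iseqv :=
    { refl := fun _ => ⟨rfl, rfl⟩
      symm := fun h => ⟨h.1.symm, h.2.symm⟩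
      trans := fun h h' => ⟨h.1.trans h'.1, h.2.trans h'.2⟩ }

/-- States with an odd block. -/
def io (b : Bool) (p : U × Fin 2) (q : U' × Fin 2) : U × U' × Blk := (p.1, q.1, sb b p.2 q.2)

theorem dv_relE_io (g : U × U' × Blk → ℝ) (b : Bool) (p : U × Fin 2) (q : U' × Fin 2) :
    dv (relE c s U') g (io b p q) = dv (rO c s b) (fun p => g (io b p q)) p := by
  refine dv_embed (relE c s U') (rO c s b) (fun p => io b p q) (fun x y h => ?_) (fun x y => ?_)
    (fun x y h => ?_) g p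
  · have h1 : x.1 = y.1 := congrArg (fun z : U × U' × Blk => z.1) h
    have h2 : sb b x.2 q.2 = sb b y.2 q.2 := congrArg (fun z : U × U' × Blk => z.2.2) h
    exact Prod.ext h1 (sb_inj _ _ _ _ _ _ h2).2.1
  · constructor
    · rintro ⟨h1, h2⟩
      refine ⟨rfl, h1, sb_colsEq b x.2 y.2 q.2, ?_⟩
      simp only [io]
      rw [add_assoc, add_assoc, sb_row0 b x.2 q.2, sb_row0 b y.2 q.2]
      exact h2
    · rintro ⟨-, h1, -, h2⟩
      refine ⟨h1, ?_⟩
      simp only [io] at h2
      rw [add_assoc, add_assoc, sb_row0 b x.2 q.2, sb_row0 b y.2 q.2] at h2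
      exact h2
  · obtain ⟨h1, -, h2, -⟩ := h
    obtain ⟨ρ', hρ⟩ := sb_cols b x.2 q.2 y.2.2 h2
    refine ⟨(y.1, ρ'), ?_⟩
    exact Prod.ext rfl (Prod.ext h1 hρ.symm)

theorem dv_relE'_io (g : U × U' × Blk → ℝ) (b : Bool) (p : U × Fin 2) (q : U' × Fin 2) :
    dv (relE' U c' s') g (io b p q) = dv (rO' c' s' b) (fun q => g (io b p q)) q := by
  refine dv_embed (relE' U c' s') (rO' c' s' b) (fun q => io b p q) (fun x y h => ?_)
    (fun x y => ?_) (fun x y h => ?_) g q
  · have h1 : x.1 = y.1 := congrArg (fun z : U × U' × Blk => z.2.1) h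
    have h2 : sb b p.2 x.2 = sb b p.2 y.2 := congrArg (fun z : U × U' × Blk => z.2.2) h
    exact Prod.ext h1 (sb_inj _ _ _ _ _ _ h2).2.2
  · constructor
    · rintro ⟨h1, h2⟩
      refine ⟨rfl, h1, sb_rowsEq b p.2 x.2 y.2, ?_⟩
      simp only [io]
      rw [add_assoc, add_assoc, sb_col0 b p.2 x.2, sb_col0 b p.2 y.2]
      exact h2
    · rintro ⟨-, h1, -, h2⟩
      refine ⟨h1, ?_⟩
      simp only [io] at h2
      rw [add_assoc, add_assoc, sb_col0 b p.2 x.2, sb_col0 b p.2 y.2] at h2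
      exact h2
  · obtain ⟨h1, -, h2, -⟩ := h
    obtain ⟨γ', hγ⟩ := sb_rows b p.2 x.2 y.2.2 h2
    refine ⟨(y.2.1, γ'), ?_⟩
    exact Prod.ext h1 (Prod.ext rfl hγ.symm)

theorem odd_eq_image : (univ.filter oddB : Finset Blk) =
    (univ : Finset (Bool × Fin 2 × Fin 2)).image (fun p => sb p.1 p.2.1 p.2.2) := by
  ext B
  simp only [mem_filter, mem_univ, true_and, mem_image, Prod.exists, oddB]
  constructor
  · rintro ⟨b, ρ, γ, h⟩
    exact ⟨b, ρ, γ, h.symm⟩
  · rintro ⟨b, ρ, γ, h⟩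
    exact ⟨b, ρ, γ, h.symm⟩

theorem sum_odd (h : Blk → ℝ) :
    ∑ B with oddB B, h B = ∑ b : Bool, ∑ ρ : Fin 2, ∑ γ : Fin 2, h (sb b ρ γ) := by
  rw [odd_eq_image, sum_image]
  · rw [Fintype.sum_prod_type]
    exact sum_congr rfl fun b _ => Fintype.sum_prod_type _
  · intro x _ y _ hxy
    obtain ⟨h1, h2, h3⟩ := sb_inj _ _ _ _ _ _ hxy
    exact Prod.ext h1 (Prod.ext h2 h3)

theorem sum_odd_states (G : U × U' × Blk → ℝ) :
    ∑ z with oddB z.2.2, G z =
      ∑ b : Bool, ∑ p : U × Fin 2, ∑ q : U' × Fin 2, G (io b p q) := by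
  have h1 : ∑ z with oddB z.2.2, G z = ∑ u, ∑ u', ∑ B with oddB B, G (u, u', B) := by
    rw [sum_filter, Fintype.sum_prod_type]
    refine sum_congr rfl fun u _ => ?_
    rw [Fintype.sum_prod_type]
    refine sum_congr rfl fun u' _ => ?_
    rw [sum_filter]
  have h2 : ∀ b : Bool, ∑ p : U × Fin 2, ∑ q : U' × Fin 2, G (io b p q) =
      ∑ u, ∑ u', ∑ ρ : Fin 2, ∑ γ : Fin 2, G (u, u', sb b ρ γ) := by
    intro b
    rw [Fintype.sum_prod_type]
    refine sum_congr rfl fun u _ => ?_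
    rw [sum_comm, Fintype.sum_prod_type]
    refine sum_congr rfl fun u' _ => ?_
    rw [sum_comm]
    rfl
  have h3 : ∑ b : Bool, ∑ u : U, ∑ u' : U', ∑ ρ : Fin 2, ∑ γ : Fin 2, G (u, u', sb b ρ γ) =
      ∑ u : U, ∑ u' : U', ∑ b : Bool, ∑ ρ : Fin 2, ∑ γ : Fin 2, G (u, u', sb b ρ γ) := by
    rw [sum_comm]
    refine sum_congr rfl fun u _ => ?_
    rw [sum_comm]
  simp only [h2]
  rw [h1, h3]
  refine sum_congr rfl fun u _ => ?_
  refine sum_congr rfl fun u' _ => ?_
  exact sum_odd (fun B => G (u, u', B))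

theorem odd_nonneg (g : U × U' × Blk → ℝ) :
    0 ≤ ∑ z with oddB z.2.2, dv (relE c s U') g z * dv (relE' U c' s') g z := by
  rw [sum_odd_states]
  refine sum_nonneg fun b _ => ?_
  simp only [dv_relE_io, dv_relE'_io]
  exact prod_nonneg (rO c s b) (rO' c' s' b) (fun p q => g (io b p q))




/-! the centre -/

theorem cav_cen (g : U × U' × Blk → ℝ) (hg : ∀ x y, rF c s U' x y → g x = g y)
    (z : U × U' × Blk) (hz : cenB z.2.2) :
    cav (relE c s U') (fun w => cenB w.2.2) g z = (g z + g (tw z)) / 2 := by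
  classical
  obtain ⟨u, u', B⟩ := z
  replace hz : cenB B := hz
  rw [cav_relE]
  have hS : (cls (r1 c s) (u, B)).filter (fun p => cenB p.2) =
      (cls (rA c s) u) ×ˢ ({B, swB B} : Finset Blk) := by
    ext ⟨w, B'⟩
    simp only [mem_filter, mem_cls, mem_product, mem_insert, mem_singleton]
    constructor
    · rintro ⟨⟨h1, -, h3⟩, h4⟩
      have h5 := (cen_cases B B' hz).1 h4
      refine ⟨⟨h1, ?_⟩, h5⟩
      have h6 := row0_swB B
      simp only at h3
      rcases h5 with h5 | h5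
      · rw [h5] at h3; linarith
      · rw [h5] at h3; linarith
    · rintro ⟨⟨h1, h2⟩, h5⟩
      refine ⟨⟨h1, ?_, ?_⟩, (cen_cases B B' hz).2 h5⟩
      · rcases h5 with h5 | h5
        · rw [h5]; exact fun _ => rfl
        · rw [h5]; exact colsEq_swB B
      · have h6 := row0_swB B
        simp only
        rcases h5 with h5 | h5
        · rw [h5, h2]
        · rw [h5]; linarith
  have hne : B ≠ swB B := swB_ne B hz
  have hcard : (((cls (rA c s) u) ×ˢ ({B, swB B} : Finset Blk)).card : ℝ) =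
      ((cls (rA c s) u).card : ℝ) * 2 := by
    rw [card_product, card_pair hne]
    push_cast
    ring
  have hsum : ∑ p ∈ (cls (rA c s) u) ×ˢ ({B, swB B} : Finset Blk), g (p.1, u', p.2) =
      ((cls (rA c s) u).card : ℝ) * (g (u, u', B) + g (u, u', swB B)) := by
    rw [sum_product]
    rw [sum_congr rfl (g := fun _ => g (u, u', B) + g (u, u', swB B)), sum_const, nsmul_eq_mul]
    intro w hw
    rw [mem_cls] at hw
    rw [sum_pair hne]
    have e1 : g (u, u', B) = g (w, u', B) := hg _ _ ⟨rfl, hw.1, hw.2⟩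
    have e2 : g (u, u', swB B) = g (w, u', swB B) := hg _ _ ⟨rfl, hw.1, hw.2⟩
    rw [e1, e2]
  have hfin : cav (r1 c s) (fun p => cenB p.2) (fun p => g (p.1, u', p.2)) (u, B) =
      (∑ p ∈ (cls (rA c s) u) ×ˢ ({B, swB B} : Finset Blk), g (p.1, u', p.2)) /
        (((cls (rA c s) u) ×ˢ ({B, swB B} : Finset Blk)).card : ℝ) := by
    unfold cav
    rw [← hS]
    congr!
  rw [hfin, hsum, hcard]
  have := cls_card_ne (rA c s) u
  have e3 : tw ((u, u', B) : U × U' × Blk) = (u, u', swB B) := rfl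
  rw [e3]
  field_simp

theorem cav_cen' (g : U × U' × Blk → ℝ) (hg : ∀ x y, rF' U c' s' x y → g x = g y)
    (z : U × U' × Blk) (hz : cenB z.2.2) :
    cav (relE' U c' s') (fun w => cenB w.2.2) g z = (g z + g (tw z)) / 2 := by
  classical
  obtain ⟨u, u', B⟩ := z
  replace hz : cenB B := hz
  rw [cav_relE']
  have hS : (cls (r1' c' s') (u', B)).filter (fun p => cenB p.2) =
      (cls (rA c' s') u') ×ˢ ({B, swB B} : Finset Blk) := by
    ext ⟨w, B'⟩
    simp only [mem_filter, mem_cls, mem_product, mem_insert, mem_singleton]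
    constructor
    · rintro ⟨⟨h1, -, h3⟩, h4⟩
      have h5 := (cen_cases B B' hz).1 h4
      refine ⟨⟨h1, ?_⟩, h5⟩
      have h6 := col0_swB B
      simp only at h3
      rcases h5 with h5 | h5
      · rw [h5] at h3; linarith
      · rw [h5] at h3; linarith
    · rintro ⟨⟨h1, h2⟩, h5⟩
      refine ⟨⟨h1, ?_, ?_⟩, (cen_cases B B' hz).2 h5⟩
      · rcases h5 with h5 | h5
        · rw [h5]; exact fun _ => rfl
        · rw [h5]; exact rowsEq_swB B
      · have h6 := col0_swB B
        simp only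
        rcases h5 with h5 | h5
        · rw [h5, h2]
        · rw [h5]; linarith
  have hne : B ≠ swB B := swB_ne B hz
  have hcard : (((cls (rA c' s') u') ×ˢ ({B, swB B} : Finset Blk)).card : ℝ) =
      ((cls (rA c' s') u').card : ℝ) * 2 := by
    rw [card_product, card_pair hne]
    push_cast
    ring
  have hsum : ∑ p ∈ (cls (rA c' s') u') ×ˢ ({B, swB B} : Finset Blk), g (u, p.1, p.2) =
      ((cls (rA c' s') u').card : ℝ) * (g (u, u', B) + g (u, u', swB B)) := by
    rw [sum_product]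
    rw [sum_congr rfl (g := fun _ => g (u, u', B) + g (u, u', swB B)), sum_const, nsmul_eq_mul]
    intro w hw
    rw [mem_cls] at hw
    rw [sum_pair hne]
    have e1 : g (u, u', B) = g (u, w, B) := hg _ _ ⟨rfl, rfl, hw.1, hw.2⟩
    have e2 : g (u, u', swB B) = g (u, w, swB B) := hg _ _ ⟨rfl, rfl, hw.1, hw.2⟩
    rw [e1, e2]
  have hfin : cav (r1' c' s') (fun p => cenB p.2) (fun p => g (u, p.1, p.2)) (u', B) =
      (∑ p ∈ (cls (rA c' s') u') ×ˢ ({B, swB B} : Finset Blk), g (u, p.1, p.2)) /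
        (((cls (rA c' s') u') ×ˢ ({B, swB B} : Finset Blk)).card : ℝ) := by
    unfold cav
    rw [← hS]
    congr!
  rw [hfin, hsum, hcard]
  have := cls_card_ne (rA c' s') u'
  have e3 : tw ((u, u', B) : U × U' × Blk) = (u, u', swB B) := rfl
  rw [e3]
  field_simp




theorem rest_zero (g : U × U' × Blk → ℝ) (hg : ∀ x y, rF c s U' x y → g x = g y)
    (hg' : ∀ x y, rF' U c' s' x y → g x = g y) (z : U × U' × Blk) (h1 : ¬ oddB z.2.2)
    (h2 : ¬ cenB z.2.2) : dv (relE c s U') g z * dv (relE' U c' s') g z = 0 := by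
  rcases rest_cases z.2.2 h1 h2 with h | h
  · have : dv (relE c s U') g z = 0 := by
      unfold dv
      rw [av_eq_of_inv (relE c s U') g z (fun y hy => ?_), sub_self]
      obtain ⟨e1, e2, e3, e4⟩ := hy
      have e5 := h y.2.2 e3
      refine (hg z y ⟨Prod.ext e1 e5.symm, e2, ?_⟩).symm
      rw [e5] at e4
      linarith
    rw [this, zero_mul]
  · have : dv (relE' U c' s') g z = 0 := by
      unfold dv
      rw [av_eq_of_inv (relE' U c' s') g z (fun y hy => ?_), sub_self]
      obtain ⟨e1, e2, e3, e4⟩ := hy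
      have e5 := h y.2.2 e3
      refine (hg' z y ⟨e1, e5.symm, e2, ?_⟩).symm
      rw [e5] at e4
      linarith
    rw [this, mul_zero]

theorem phi_ineq (φ : U × U' × Blk → ℝ) (hφ : ∀ x y, rF c s U' x y → φ x = φ y)
    (hφ' : ∀ x y, rF' U c' s' x y → φ x = φ y) :
    ∑ z, as φ z ^ 2
      - (1 / 2) * ∑ z : U × U' × Blk with cenB z.2.2,
          cav (relE c s U') (fun w => cenB w.2.2) (dv (relE c s U') φ) z ^ 2
      - (1 / 2) * ∑ z : U × U' × Blk with cenB z.2.2,
          cav (relE' U c' s') (fun w => cenB w.2.2) (dv (relE' U c' s') φ) z ^ 2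
      ≤ ∑ z : U × U' × Blk, dv (relE c s U') φ z * dv (relE' U c' s') φ z := by
  set G : U × U' × Blk → ℝ := fun z => dv (relE c s U') φ z * dv (relE' U c' s') φ z with hG
  have hdv : ∀ x y, rF c s U' x y → dv (relE c s U') φ x = dv (relE c s U') φ y := by
    intro x y h
    unfold dv
    rw [hφ x y h, av_congr φ (rF_le c s x y h)]
  have hdv' : ∀ x y, rF' U c' s' x y → dv (relE' U c' s') φ x = dv (relE' U c' s') φ y := by
    intro x y h
    unfold dv
    rw [hφ' x y h, av_congr φ (rF'_le c' s' x y h)]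
  have h1 : ∑ z, G z = ∑ z with cenB z.2.2, G z + ∑ z with ¬ cenB z.2.2, G z :=
    (sum_filter_add_sum_filter_not univ (fun z : U × U' × Blk => cenB z.2.2) G).symm
  have h2 : ∑ z with ¬ cenB z.2.2, G z = ∑ z with oddB z.2.2, G z := by
    rw [sum_filter, sum_filter]
    refine sum_congr rfl fun z _ => ?_
    by_cases ho : oddB z.2.2
    · rw [if_pos ho, if_pos (odd_not_cen _ ho)]
    · rw [if_neg ho]
      by_cases hc : cenB z.2.2
      · rw [if_neg (not_not.2 hc)]
      · rw [if_pos hc]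
        exact rest_zero c s c' s' φ hφ hφ' z ho hc
  have h3 : 0 ≤ ∑ z with oddB z.2.2, G z := odd_nonneg c s c' s' φ
  have h4 : ∑ z with cenB z.2.2, G z = ∑ z with cenB z.2.2, (G z + G (tw z)) / 2 := by
    rw [← sum_div, sum_add_distrib, sum_tw_cen G]
    ring
  have h5 : ∑ z, as φ z ^ 2 = ∑ z with cenB z.2.2, as φ z ^ 2 := by
    rw [sum_filter]
    refine sum_congr rfl fun z _ => ?_
    by_cases hc : cenB z.2.2
    · rw [if_pos hc]
    · rw [if_neg hc]
      have : tw z = z := Prod.ext rfl (Prod.ext rfl (swB_of_not _ hc))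
      unfold as
      rw [this]
      ring
  rw [h1, h2, h4, h5, mul_sum, mul_sum, ← sum_sub_distrib, ← sum_sub_distrib]
  refine le_trans ?_ (le_add_of_nonneg_right h3)
  refine sum_le_sum fun z hz => ?_
  have hz : cenB z.2.2 := (mem_filter.1 hz).2
  rw [cav_cen c s (dv (relE c s U') φ) hdv z hz, cav_cen' c' s' (dv (relE' U c' s') φ) hdv' z hz]
  simp only [hG]
  unfold as dv
  rw [← av_congr φ (relE_tw c s z), ← av_congr φ (relE'_tw c' s' z)]
  set a := φ z
  set b := φ (tw z)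
  set e := av (relE c s U') φ z
  set e' := av (relE' U c' s') φ z
  nlinarith [sq_nonneg ((a - e + (b - e)) / 2 + (a - e' + (b - e')) / 2)]

end Model

end CP

end Vale.Agent.KTV
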