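import Mathlib

/-!
# The switch chain on the simple graphs with given degrees (problem P335)
-/

open Finset BigOperators

namespace KTV

/-- `Ω_d`: the labelled simple graphs on `{0, …, n-1}` in which vertex `v` has degree `d v`. -/
abbrev Omega (n : ℕ) (d : Fin n → ℕ) : Type :=
  {G : SimpleGraph (Fin n) // ∀ v, (G.neighborSet v).ncard = d v}

/-- A degree vector is graphical if some simple graph realises it. -/
def Graphical (n : ℕ) (d : Fin n → ℕ) : Prop := Nonempty (Omega n d)

noncomputable instance (n : ℕ) (d : Fin n → ℕ) : Fintype (Omega n d) := Fintype.ofFinite _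

noncomputable instance (n : ℕ) (d : Fin n → ℕ) : DecidableEq (Omega n d) := Classical.decEq _

/-- `F` is (the edge set of) a perfect matching of the complete graph on the vertex set `S`. -/
def IsPerfectMatchingOn {n : ℕ} (S : Finset (Fin n)) (F : Finset (Sym2 (Fin n))) : Prop :=
  (∀ e ∈ F, ¬ e.IsDiag ∧ ∀ v ∈ e, v ∈ S) ∧ ∀ v ∈ S, ∃! e, e ∈ F ∧ v ∈ e

open Classical in
/-- The ordered pairs `(F, F')` of distinct perfect matchings of the complete graph on `S`
(there are six of them when `S` has four elements). -/
noncomputable def matchingPairs {n : ℕ} (S : Finset (Fin n)) :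
    Finset (Finset (Sym2 (Fin n)) × Finset (Sym2 (Fin n))) :=
  Finset.univ.filter fun p =>
    IsPerfectMatchingOn S p.1 ∧ IsPerfectMatchingOn S p.2 ∧ p.1 ≠ p.2

open Classical in
/-- The attempted switch: if all edges of `F` are present in `G` and all edges of `F'` are absent
from `G`, replace `F` by `F'`; otherwise do nothing. -/
noncomputable def move {n : ℕ} (G : SimpleGraph (Fin n)) (F F' : Finset (Sym2 (Fin n))) :
    SimpleGraph (Fin n) :=
  if (∀ e ∈ F, e ∈ G.edgeSet) ∧ (∀ e ∈ F', e ∉ G.edgeSet) then
    SimpleGraph.fromEdgeSet ((G.edgeSet \ (F : Set (Sym2 (Fin n)))) ∪ (F' : Set (Sym2 (Fin n))))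
  else G

open Classical in
/-- The transition matrix of the switch chain `P_d` on `Ω_d`: with probability `1/2` stay put;
otherwise choose a `4`-element set `S` uniformly, then choose uniformly one of the six ordered
pairs of distinct perfect matchings of the complete graph on `S`, and attempt the switch. -/
noncomputable def switchChain (n : ℕ) (d : Fin n → ℕ) : Matrix (Omega n d) (Omega n d) ℝ :=
  fun G H =>
    (1 / 2) * (if G = H then 1 else 0) +
    (1 / 2) * ∑ S ∈ Finset.powersetCard 4 (Finset.univ : Finset (Fin n)),
      (1 / (n.choose 4 : ℝ)) * ∑ p ∈ matchingPairs S,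
        (1 / ((matchingPairs S).card : ℝ)) * (if move G.1 p.1 p.2 = H.1 then 1 else 0)

/-- Total variation distance between two real valued mass functions on a finite set. -/
noncomputable def tvDist {Ω : Type} [Fintype Ω] (μ ν : Ω → ℝ) : ℝ :=
  (1 / 2) * ∑ x, |μ x - ν x|

/-- The uniform distribution on `Ω_d`. -/
noncomputable def uniform (n : ℕ) (d : Fin n → ℕ) : Omega n d → ℝ :=
  fun _ => 1 / (Fintype.card (Omega n d) : ℝ)

/-- The mixing time of the switch chain: the least `t` such that from every start the total
variation distance to the uniform distribution at time `t` is at most `1/4` (`⊤` if there is no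
such `t`). -/
noncomputable def mixingTime (n : ℕ) (d : Fin n → ℕ) : ℕ∞ :=
  ⨅ t ∈ {t : ℕ | ∀ G : Omega n d,
    tvDist (fun H => (switchChain n d ^ t) G H) (uniform n d) ≤ 1 / 4}, (t : ℕ∞)

/-- The Kannan–Tetali–Vempala conjecture in its simple undirected form. -/
def KannanTetaliVempala : Prop :=
  ∃ p : Polynomial ℕ, ∀ n : ℕ, 4 ≤ n → ∀ d : Fin n → ℕ, Graphical n d →
    mixingTime n d ≤ (p.eval n : ℕ)

end KTV
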