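import Vale.Agent.KTV.Chain

/-!
# A polynomial Poincaré constant gives the conjecture
-/

open Finset BigOperators

namespace KTV

theorem card_Omega_le (n : ℕ) (d : Fin n → ℕ) : Fintype.card (Omega n d) ≤ 2 ^ (n ^ 2) := by
  classical
  have hinj : Function.Injective (fun (G : Omega n d) (p : Fin n × Fin n) =>
      (decide (G.1.Adj p.1 p.2) : Bool)) := by
    intro G H h
    apply Subtype.ext
    ext u v
    have := congrFun h (u, v)
    simpa using this
  have h := Fintype.card_le_of_injective _ hinj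
  simp only [Fintype.card_fun, Fintype.card_bool, Fintype.card_prod, Fintype.card_fin] at h
  rw [sq]; exact h

/-- Final packaging: a polynomial Poincaré constant of the switch chain, uniform over all degree
sequences, gives the Kannan–Tetali–Vempala conjecture. -/
theorem ktv_of_poincare (C k : ℕ) (hC : 1 ≤ C)
    (hgap : ∀ n : ℕ, 4 ≤ n → ∀ d : Fin n → ℕ, ∀ f : Omega n d → ℝ, ∑ G, f G = 0 →
      ∑ G, f G ^ 2 ≤ ((C : ℝ) * (n : ℝ) ^ k) *
        ((1 / 2) * ∑ G, ∑ H, switchChain n d G H * (f G - f H) ^ 2)) :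
    KannanTetaliVempala := by
  refine ⟨Polynomial.C C * Polynomial.X ^ k * (Polynomial.X ^ 2 + 2), ?_⟩
  intro n hn d _
  unfold mixingTime
  refine iInf₂_le_of_le (C * n ^ k * (n ^ 2 + 2)) ?_ ?_
  swap
  · simp
  intro G
  have hn0 : (0 : ℝ) < n := by exact_mod_cast (by omega : 0 < n)
  have hn1 : (1 : ℝ) ≤ n := by exact_mod_cast (by omega : 1 ≤ n)
  have hC1 : (1 : ℝ) ≤ C := by exact_mod_cast hC
  have hD1 : (1 : ℝ) ≤ (C : ℝ) * (n : ℝ) ^ k := by
    have : (1 : ℝ) ≤ (n : ℝ) ^ k := one_le_pow₀ hn1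
    nlinarith
  set D : ℝ := (C : ℝ) * (n : ℝ) ^ k with hD
  have hD0 : 0 < D := by linarith
  have hres := tv_le_quarter (switchChain n d) (switchQ n d) (switchChain_eq d)
    (switchQ_symm d) (switchQ_nonneg d) (switchQ_row hn d) (1 / D)
    (by rw [div_le_one hD0]; exact hD1)
    (by
      intro f hf
      rw [one_div, inv_mul_le_iff₀ hD0]
      exact hgap n hn d f hf)
    (C * n ^ k * (n ^ 2 + 2))
    (by
      have hcardpos : (0 : ℝ) < Fintype.card (Omega n d) := by
        exact_mod_cast Fintype.card_pos_iff.mpr ⟨G⟩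
      have h1 : (4 : ℝ) * Fintype.card (Omega n d) ≤ 2 ^ (n ^ 2 + 2) := by
        have h2 : (Fintype.card (Omega n d) : ℝ) ≤ 2 ^ (n ^ 2) := by
          exact_mod_cast card_Omega_le n d
        rw [pow_add]; nlinarith
      have h2 : Real.log (4 * Fintype.card (Omega n d)) ≤ (n : ℝ) ^ 2 + 2 := by
        calc Real.log (4 * Fintype.card (Omega n d)) ≤ Real.log (2 ^ (n ^ 2 + 2)) :=
              Real.log_le_log (by positivity) h1
          _ = ((n : ℝ) ^ 2 + 2) * Real.log 2 := by rw [Real.log_pow]; push_cast; ring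
          _ ≤ ((n : ℝ) ^ 2 + 2) * 1 := by
              refine mul_le_mul_of_nonneg_left ?_ (by positivity)
              linarith [Real.log_two_lt_d9]
          _ = _ := by ring
      refine h2.trans (le_of_eq ?_)
      push_cast
      rw [← hD]
      field_simp) G
  exact hres

end KTV
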