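import Vale.Agent.KTV.Avg

/-!
Abstract spectral lemmas.
-/

open Finset

namespace Vale.Agent.KTV

variable {α : Type*} [Fintype α]

/-- Eigenfunction expansion of a symmetric linear map on functions on a finite type. -/
theorem exists_eigen (T : (α → ℝ) →ₗ[ℝ] (α → ℝ))
    (hT : ∀ f g : α → ℝ, ∑ x, f x * T g x = ∑ x, T f x * g x) :
    ∃ (n : ℕ) (v : Fin n → α → ℝ) (μ : Fin n → ℝ),
      (∀ i, T (v i) = fun x => μ i * v i x) ∧ (∀ i, ∑ x, v i x ^ 2 = 1) ∧
      (∀ f : α → ℝ, ∑ x, f x ^ 2 = ∑ i, (∑ x, f x * v i x) ^ 2) ∧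
      (∀ f : α → ℝ, ∑ x, f x * T f x = ∑ i, μ i * (∑ x, f x * v i x) ^ 2) ∧
      (∀ f : α → ℝ, ∑ x, T f x ^ 2 = ∑ i, μ i ^ 2 * (∑ x, f x * v i x) ^ 2) := by
  classical
  let e : EuclideanSpace ℝ α ≃ₗ[ℝ] (α → ℝ) := WithLp.linearEquiv 2 ℝ (α → ℝ)
  let T' : EuclideanSpace ℝ α →ₗ[ℝ] EuclideanSpace ℝ α :=
    e.symm.toLinearMap ∘ₗ T ∘ₗ e.toLinearMap
  have hin : ∀ u w : EuclideanSpace ℝ α, inner ℝ u w = ∑ x, e u x * e w x := by
    intro u w
    rw [PiLp.inner_apply]
    refine sum_congr rfl fun x _ => ?_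
    simp [e, mul_comm]
  have heT : ∀ u, e (T' u) = T (e u) := by
    intro u; simp [T']
  have hsym : T'.IsSymmetric := by
    intro u w
    rw [hin, hin, heT, heT]
    exact (hT (e u) (e w)).symm
  set n := Module.finrank ℝ (EuclideanSpace ℝ α) with hn
  let b := hsym.eigenvectorBasis hn.symm
  let μ := hsym.eigenvalues hn.symm
  have hb : ∀ i, T' (b i) = μ i • b i := fun i => hsym.apply_eigenvectorBasis hn.symm i
  have hco : ∀ (f : α → ℝ) i, inner ℝ (e.symm f) (b i) = ∑ x, f x * e (b i) x := by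
    intro f i
    rw [hin]; simp
  have hcoT : ∀ (f : α → ℝ) i, inner ℝ (e.symm (T f)) (b i) = μ i * ∑ x, f x * e (b i) x := by
    intro f i
    rw [hin]
    simp only [LinearEquiv.apply_symm_apply]
    rw [← hT, ← heT, hb, mul_sum]
    refine sum_congr rfl fun x _ => ?_
    simp; ring
  have hpars : ∀ u w : EuclideanSpace ℝ α, ∑ i, inner ℝ u (b i) * inner ℝ w (b i) = inner ℝ u w := by
    intro u w
    rw [← b.sum_inner_mul_inner u w]
    refine sum_congr rfl fun i _ => ?_
    rw [real_inner_comm w (b i)]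
  refine ⟨n, fun i => e (b i), μ, ?_, ?_, ?_, ?_, ?_⟩
  · intro i
    funext x
    rw [← heT, hb]
    simp
  · intro i
    have h1 : inner ℝ (b i) (b i) = (1 : ℝ) := by
      rw [real_inner_self_eq_norm_sq, b.norm_eq_one]; norm_num
    rw [hin] at h1
    rw [← h1]
    exact sum_congr rfl fun x _ => sq _
  · intro f
    have h1 := hpars (e.symm f) (e.symm f)
    rw [hin] at h1
    simp only [LinearEquiv.apply_symm_apply, hco] at h1
    calc ∑ x, f x ^ 2 = ∑ x, f x * f x := sum_congr rfl fun x _ => sq _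
      _ = _ := h1.symm
      _ = _ := sum_congr rfl fun i _ => (sq _).symm
  · intro f
    have h1 := hpars (e.symm f) (e.symm (T f))
    rw [hin] at h1
    simp only [LinearEquiv.apply_symm_apply, hcoT] at h1
    simp only [hco] at h1
    rw [← h1]
    exact sum_congr rfl fun i _ => by ring
  · intro f
    have h1 := hpars (e.symm (T f)) (e.symm (T f))
    rw [hin] at h1
    simp only [LinearEquiv.apply_symm_apply, hcoT] at h1
    calc ∑ x, T f x ^ 2 = ∑ x, T f x * T f x := sum_congr rfl fun x _ => sq _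
      _ = _ := h1.symm
      _ = _ := sum_congr rfl fun i _ => by ring

/-- The sum of the deviations over `B`, as a linear map. -/
noncomputable def dvSum {ι : Type*} (B : Finset ι) (r : ι → Setoid α) :
    (α → ℝ) →ₗ[ℝ] (α → ℝ) where
  toFun f := fun x => ∑ b ∈ B, dv (r b) f x
  map_add' f g := by
    funext x
    simp only [Pi.add_apply]
    rw [← sum_add_distrib]
    exact sum_congr rfl fun b _ => dv_add (r b) f g x
  map_smul' c f := by
    funext x
    simp only [Pi.smul_apply, smul_eq_mul, RingHom.id_apply]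
    rw [mul_sum]
    exact sum_congr rfl fun b _ => dv_smul (r b) c f x

theorem dvSum_apply {ι : Type*} (B : Finset ι) (r : ι → Setoid α) (f : α → ℝ) (x : α) :
    dvSum B r f x = ∑ b ∈ B, dv (r b) f x := rfl

theorem dvSum_symm {ι : Type*} (B : Finset ι) (r : ι → Setoid α) (f g : α → ℝ) :
    ∑ x, f x * dvSum B r g x = ∑ x, dvSum B r f x * g x := by
  simp only [dvSum_apply, mul_sum, sum_mul]
  rw [sum_comm, sum_comm (s := univ) (t := B)]
  refine sum_congr rfl fun b _ => ?_
  rw [sum_mul_dv, ← sum_dv_mul]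

theorem dvSum_energy {ι : Type*} (B : Finset ι) (r : ι → Setoid α) (f : α → ℝ) :
    ∑ x, f x * dvSum B r f x = ∑ b ∈ B, ∑ x, dv (r b) f x ^ 2 := by
  simp only [dvSum_apply, mul_sum]
  rw [sum_comm]
  exact sum_congr rfl fun b _ => (sum_sq_dv (r b) f).symm

/-- If every eigenvalue of `∑ p, av (r p)` that exceeds `2` has only eigenfunctions fixed by
all three averages, then the sum of the three mixed products is nonnegative.
(With `T = ∑ p, dv (r p)`: every eigenvalue of `T` is `0` or at least `1`, so `T ^ 2 ≥ T`.) -/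
theorem three_of_eig (r : Fin 3 → Setoid α)
    (h : ∀ (f : α → ℝ) (lam : ℝ), (∀ x, ∑ p, av (r p) f x = lam * f x) → 2 < lam →
      ∀ p x, av (r p) f x = f x) (f : α → ℝ) :
    0 ≤ ∑ x, (dv (r 0) f x * dv (r 1) f x + dv (r 1) f x * dv (r 2) f x +
      dv (r 0) f x * dv (r 2) f x) := by
  obtain ⟨n, v, μ, hv, hv1, -, hE, hN⟩ := exists_eigen (dvSum univ r) (dvSum_symm univ r)
  have hμ : ∀ i, μ i ≤ μ i ^ 2 := by
    intro i
    by_cases hlt : μ i < 1
    · have hav : ∀ x, ∑ p, av (r p) (v i) x = (3 - μ i) * v i x := by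
        intro x
        have h1 := congrFun (hv i) x
        rw [dvSum_apply] at h1
        simp only [dv, sum_sub_distrib, sum_const, card_univ, Fintype.card_fin, nsmul_eq_mul] at h1
        push_cast at h1
        linarith
      have h2 := h (v i) (3 - μ i) hav (by linarith)
      have h3 : ∀ x, μ i * v i x = 0 := by
        intro x
        have h4 := hav x
        rw [sum_congr rfl fun p _ => h2 p x] at h4
        simp only [sum_const, card_univ, Fintype.card_fin, nsmul_eq_mul] at h4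
        push_cast at h4
        linarith
      have h5 : μ i * ∑ x, v i x ^ 2 = 0 := by
        rw [mul_sum]
        refine sum_eq_zero fun x _ => ?_
        have := h3 x
        calc μ i * v i x ^ 2 = (μ i * v i x) * v i x := by ring
          _ = 0 := by rw [this, zero_mul]
      rw [hv1 i, mul_one] at h5
      rw [h5]; norm_num
    · rw [not_lt] at hlt
      nlinarith
  have h1 : ∑ x, f x * dvSum univ r f x ≤ ∑ x, dvSum univ r f x ^ 2 := by
    rw [hE f, hN f]
    exact sum_le_sum fun i _ => mul_le_mul_of_nonneg_right (hμ i) (sq_nonneg _)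
  rw [dvSum_energy] at h1
  have h2 : ∑ x, dvSum univ r f x ^ 2 = ∑ b, ∑ x, dv (r b) f x ^ 2 +
      2 * ∑ x, (dv (r 0) f x * dv (r 1) f x + dv (r 1) f x * dv (r 2) f x +
      dv (r 0) f x * dv (r 2) f x) := by
    rw [sum_comm, mul_sum, ← sum_add_distrib]
    refine sum_congr rfl fun x _ => ?_
    rw [dvSum_apply, Fin.sum_univ_three, Fin.sum_univ_three]
    ring
  linarith

/-- From `T ^ 2 ≥ κ T` to a spectral gap `κ`, for `T = ∑ b ∈ B, dv (r b)`. -/
theorem gap_of_sq {ι : Type*} (B : Finset ι) (r : ι → Setoid α) (κ : ℝ) (_hκ : 0 < κ)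
    (h : ∀ f : α → ℝ, κ * ∑ b ∈ B, ∑ x, dv (r b) f x ^ 2 ≤ ∑ x, (∑ b ∈ B, dv (r b) f x) ^ 2)
    (f : α → ℝ)
    (hf : ∀ g : α → ℝ, (∀ b ∈ B, ∀ x, dv (r b) g x = 0) → ∑ x, f x * g x = 0) :
    κ * ∑ x, f x ^ 2 ≤ ∑ b ∈ B, ∑ x, dv (r b) f x ^ 2 := by
  obtain ⟨n, v, μ, hv, hv1, hS, hE, -⟩ := exists_eigen (dvSum B r) (dvSum_symm B r)
  have hen : ∀ i, ∑ b ∈ B, ∑ x, dv (r b) (v i) x ^ 2 = μ i := by
    intro i
    rw [← dvSum_energy, hv i]
    calc ∑ x, v i x * (μ i * v i x) = μ i * ∑ x, v i x ^ 2 := by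
          rw [mul_sum]; exact sum_congr rfl fun x _ => by ring
      _ = μ i := by rw [hv1 i, mul_one]
  have hμ0 : ∀ i, 0 ≤ μ i := by
    intro i
    rw [← hen i]
    exact sum_nonneg fun b _ => sum_nonneg fun x _ => sq_nonneg _
  have hμ : ∀ i, μ i = 0 ∨ κ ≤ μ i := by
    intro i
    have h1 := h (v i)
    rw [hen i] at h1
    have h2 : ∑ x, (∑ b ∈ B, dv (r b) (v i) x) ^ 2 = μ i ^ 2 := by
      calc ∑ x, (∑ b ∈ B, dv (r b) (v i) x) ^ 2 = ∑ x, (μ i * v i x) ^ 2 := by
            refine sum_congr rfl fun x _ => ?_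
            rw [← dvSum_apply, hv i]
        _ = μ i ^ 2 * ∑ x, v i x ^ 2 := by
            rw [mul_sum]; exact sum_congr rfl fun x _ => by ring
        _ = μ i ^ 2 := by rw [hv1 i, mul_one]
    rw [h2] at h1
    by_cases h0 : μ i = 0
    · exact Or.inl h0
    · right
      have hpos : 0 < μ i := lt_of_le_of_ne (hμ0 i) (Ne.symm h0)
      have : κ * μ i ≤ μ i * μ i := by rw [← sq]; exact h1
      exact le_of_mul_le_mul_right this hpos
  rw [← dvSum_energy, hS f, hE f, mul_sum]
  refine sum_le_sum fun i _ => ?_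
  rcases hμ i with h0 | h1
  · have hz : ∀ b ∈ B, ∀ x, dv (r b) (v i) x = 0 := by
      have h2 := hen i
      rw [h0] at h2
      intro b hb x
      have h3 := (sum_eq_zero_iff_of_nonneg (fun b _ =>
        sum_nonneg fun x _ => sq_nonneg (dv (r b) (v i) x))).1 h2 b hb
      have h4 := (sum_eq_zero_iff_of_nonneg (fun x _ =>
        sq_nonneg (dv (r b) (v i) x))).1 h3 x (mem_univ x)
      exact pow_eq_zero_iff (two_ne_zero) |>.1 h4
    rw [hf (v i) hz]
    simp
  · exact mul_le_mul_of_nonneg_right h1 (sq_nonneg _)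

end Vale.Agent.KTV
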