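import Vale.Agent.KTV.SliceDefs
import Vale.Agent.KTV.Spectral

/-!
Poincare inequality on the slice `powersetCard t R`.

On functions on the slice let `K f S = ∑_{j, l} (f S - f (swp j l S)) / 4`; then
`⟨f, K f⟩` is the right-hand side, `K` is symmetric, and every eigenvalue `μ` with a nonconstant
eigenfunction `v` is at least `1`: let `α > 0` be the maximum of `v S - v (swp j l S)`, attained at
`(S, j, l)`, and let `g = v - v ∘ swp j l`; `K` commutes with `swp j l`, so `K g = μ g`, and at `S`,
where `g` is maximal `= α`, the two terms of `swp j l` itself in `K g S` give `α` and the other terms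
are nonnegative; so `μ α ≥ α`.
-/

open Finset

namespace Vale.Agent.KTV

variable {V : Type*} [DecidableEq V]

theorem mem_swp (j l : V) (S : Finset V) (x : V) : x ∈ swp j l S ↔ Equiv.swap j l x ∈ S := by
  unfold swp
  rw [Finset.mem_map_equiv, Equiv.symm_swap]

theorem swp_swp (j l : V) (S : Finset V) : swp j l (swp j l S) = S := by
  ext x
  rw [mem_swp, mem_swp, ← Equiv.Perm.mul_apply, Equiv.swap_mul_self, Equiv.Perm.one_apply]

theorem swp_self' (j : V) (S : Finset V) : swp j j S = S := by
  ext x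
  rw [mem_swp, Equiv.swap_self, Equiv.refl_apply]

theorem swp_symm (j l : V) (S : Finset V) : swp j l S = swp l j S := by
  unfold swp
  rw [Equiv.swap_comm]

theorem swp_conj (a b j l : V) (S : Finset V) :
    swp j l (swp a b S) = swp a b (swp (Equiv.swap a b j) (Equiv.swap a b l) S) := by
  ext x
  rw [mem_swp, mem_swp, mem_swp, mem_swp]
  have h := Equiv.mul_swap_eq_swap_mul (Equiv.swap a b) j l
  have h2 := congrArg (fun e : Equiv.Perm V => e x) h
  simp only [Equiv.Perm.mul_apply] at h2
  rw [h2]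

theorem swp_mem {R : Finset V} {t : ℕ} {j l : V} (hj : j ∈ R) (hl : l ∈ R) {S : Finset V}
    (hS : S ∈ powersetCard t R) : swp j l S ∈ powersetCard t R := by
  rw [mem_powersetCard] at hS ⊢
  refine ⟨fun x hx => ?_, by rw [swp, card_map, hS.2]⟩
  rw [mem_swp] at hx
  by_cases h1 : x = j
  · rwa [h1]
  by_cases h2 : x = l
  · rwa [h2]
  rw [Equiv.swap_apply_of_ne_of_ne h1 h2] at hx
  exact hS.1 hx

/-- The exchange as a map of the slice. -/
def swz (R : Finset V) (t : ℕ) (j l : R) (S : powersetCard t R) : powersetCard t R :=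
  ⟨swp j.1 l.1 S.1, swp_mem j.2 l.2 S.2⟩

theorem swz_swz (R : Finset V) (t : ℕ) (j l : R) (S : powersetCard t R) :
    swz R t j l (swz R t j l S) = S := Subtype.ext (swp_swp _ _ _)

theorem swz_symm (R : Finset V) (t : ℕ) (j l : R) (S : powersetCard t R) :
    swz R t j l S = swz R t l j S := Subtype.ext (swp_symm _ _ _)

/-- The conjugation of an index by an exchange. -/
def cj (R : Finset V) (a b : R) (j : R) : R := Equiv.swap a b j

theorem cj_val (R : Finset V) (a b j : R) : (cj R a b j : V) = Equiv.swap (a : V) (b : V) j := by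
  unfold cj
  by_cases h1 : j = a
  · subst h1; simp
  by_cases h2 : j = b
  · subst h2; simp
  rw [Equiv.swap_apply_of_ne_of_ne h1 h2, Equiv.swap_apply_of_ne_of_ne]
  · exact fun h => h1 (Subtype.ext h)
  · exact fun h => h2 (Subtype.ext h)

theorem swz_conj (R : Finset V) (t : ℕ) (a b j l : R) (S : powersetCard t R) :
    swz R t j l (swz R t a b S) = swz R t a b (swz R t (cj R a b j) (cj R a b l) S) := by
  apply Subtype.ext
  simp only [swz]
  rw [swp_conj, cj_val, cj_val]

/-- reindexing the slice by an exchange -/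
theorem sum_swz (R : Finset V) (t : ℕ) (j l : R) (f : powersetCard t R → ℝ) :
    ∑ S, f (swz R t j l S) = ∑ S, f S :=
  Equiv.sum_comp (Function.Involutive.toPerm (swz R t j l) (swz_swz R t j l)) f

/-- The generator. -/
noncomputable def genK (R : Finset V) (t : ℕ) :
    (powersetCard t R → ℝ) →ₗ[ℝ] (powersetCard t R → ℝ) where
  toFun f := fun S => ∑ j : R, ∑ l : R, (f S - f (swz R t j l S)) / 4
  map_add' f g := by
    funext S
    simp only [Pi.add_apply, ← sum_add_distrib]
    exact sum_congr rfl fun j _ => sum_congr rfl fun l _ => by ring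
  map_smul' c f := by
    funext S
    simp only [Pi.smul_apply, smul_eq_mul, RingHom.id_apply, mul_sum]
    exact sum_congr rfl fun j _ => sum_congr rfl fun l _ => by ring

theorem genK_apply (R : Finset V) (t : ℕ) (f : powersetCard t R → ℝ) (S : powersetCard t R) :
    genK R t f S = ∑ j : R, ∑ l : R, (f S - f (swz R t j l S)) / 4 := rfl

theorem genK_pair (R : Finset V) (t : ℕ) (f g : powersetCard t R → ℝ) :
    ∑ S, f S * genK R t g S =
      ∑ j : R, ∑ l : R, ∑ S, (f S - f (swz R t j l S)) * (g S - g (swz R t j l S)) / 8 := by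
  simp only [genK_apply, mul_sum]
  rw [sum_comm]
  refine sum_congr rfl fun j _ => ?_
  rw [sum_comm]
  refine sum_congr rfl fun l _ => ?_
  have h1 := sum_swz R t j l fun S => f S * ((g S - g (swz R t j l S)) / 4)
  simp only [swz_swz] at h1
  have h2 : ∑ S, (f S - f (swz R t j l S)) * (g S - g (swz R t j l S)) / 8 =
      (∑ S, f S * ((g S - g (swz R t j l S)) / 4) +
        ∑ S, f (swz R t j l S) * ((g (swz R t j l S) - g S) / 4)) / 2 := by
    rw [← sum_add_distrib, sum_div]
    exact sum_congr rfl fun S _ => by ring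
  rw [h2, h1]
  ring

theorem genK_symm (R : Finset V) (t : ℕ) (f g : powersetCard t R → ℝ) :
    ∑ S, f S * genK R t g S = ∑ S, genK R t f S * g S := by
  have h1 : ∑ S, genK R t f S * g S = ∑ S, g S * genK R t f S :=
    sum_congr rfl fun S _ => mul_comm _ _
  rw [h1, genK_pair, genK_pair]
  exact sum_congr rfl fun j _ => sum_congr rfl fun l _ => sum_congr rfl fun S _ => by ring

/-- The generator commutes with exchanges. -/
theorem genK_comm (R : Finset V) (t : ℕ) (a b : R) (f : powersetCard t R → ℝ)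
    (S : powersetCard t R) :
    genK R t (fun S => f (swz R t a b S)) S = genK R t f (swz R t a b S) := by
  rw [genK_apply, genK_apply]
  have h1 : ∀ j l : R, swz R t j l (swz R t a b S) =
      swz R t a b (swz R t (cj R a b j) (cj R a b l) S) := fun j l => swz_conj R t a b j l S
  simp only [h1]
  have h2 := Equiv.sum_comp (Equiv.swap a b)
    fun j : R => ∑ l : R, (f (swz R t a b S) - f (swz R t a b (swz R t j (cj R a b l) S))) / 4
  have h3 : ∀ j : R, ∑ l : R, (f (swz R t a b S) - f (swz R t a b (swz R t j (cj R a b l) S))) / 4 =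
      ∑ l : R, (f (swz R t a b S) - f (swz R t a b (swz R t j l S))) / 4 := fun j =>
    Equiv.sum_comp (Equiv.swap a b)
      fun l : R => (f (swz R t a b S) - f (swz R t a b (swz R t j l S))) / 4
  simp only [h3] at h2
  rw [← h2]
  exact sum_congr rfl fun j _ => (h3 _).symm

/-- A function on the slice that is invariant under exchanges is constant. -/
theorem const_of_swz (R : Finset V) (t : ℕ) (v : powersetCard t R → ℝ)
    (hv : ∀ j l S, v S = v (swz R t j l S)) (S S' : powersetCard t R) : v S = v S' := by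
  induction hn : (S.1 \ S'.1).card using Nat.strong_induction_on generalizing S with
  | _ n ih =>
    by_cases hSS : S = S'
    · rw [hSS]
    have hS := mem_powersetCard.1 S.2
    have hS' := mem_powersetCard.1 S'.2
    have hcard : S.1.card = S'.1.card := by rw [hS.2, hS'.2]
    have hne : ¬ S.1 ⊆ S'.1 := fun h => hSS (Subtype.ext (eq_of_subset_of_card_le h hcard.ge))
    have hne' : ¬ S'.1 ⊆ S.1 := fun h => hSS (Subtype.ext (eq_of_subset_of_card_le h hcard.le).symm)
    obtain ⟨j, hj, hj'⟩ := not_subset.1 hne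
    obtain ⟨l, hl, hl'⟩ := not_subset.1 hne'
    have hjl : j ≠ l := fun h => hj' (h ▸ hl)
    rw [hv ⟨j, hS.1 hj⟩ ⟨l, hS'.1 hl⟩ S]
    refine ih _ ?_ _ rfl
    rw [← hn]
    refine card_lt_card ?_
    rw [ssubset_iff_of_subset]
    · refine ⟨j, mem_sdiff.2 ⟨hj, hj'⟩, fun h => ?_⟩
      have h1 := (mem_sdiff.1 h).1
      simp only [swz] at h1
      rw [mem_swp, Equiv.swap_apply_left] at h1
      exact hl' h1
    · intro x hx
      rw [mem_sdiff] at hx ⊢
      refine ⟨?_, hx.2⟩
      have h1 := hx.1
      simp only [swz] at h1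
      rw [mem_swp] at h1
      have hxl : x ≠ l := fun h => hx.2 (h ▸ hl)
      by_cases hxj : x = j
      · rwa [hxj]
      · rwa [Equiv.swap_apply_of_ne_of_ne hxj hxl] at h1

/-- Nonconstant eigenfunctions have eigenvalue at least one. -/
theorem one_le_eig (R : Finset V) (t : ℕ) (v : powersetCard t R → ℝ) (μ : ℝ)
    (hv : genK R t v = fun S => μ * v S) (hne : ∃ S S', v S ≠ v S') : 1 ≤ μ := by
  classical
  obtain ⟨S1, S2, h12⟩ := hne
  have h1 : ∃ j l S, v S ≠ v (swz R t j l S) := by
    by_contra hcon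
    push Not at hcon
    exact h12 (const_of_swz R t v hcon S1 S2)
  obtain ⟨j1, l1, S3, h3⟩ := h1
  obtain ⟨p, -, hp⟩ := exists_max_image (univ : Finset (R × R × powersetCard t R))
    (fun p => v p.2.2 - v (swz R t p.1 p.2.1 p.2.2)) ⟨(j1, l1, S3), mem_univ _⟩
  obtain ⟨a, b, S0⟩ := p
  have hmax : ∀ j l S, v S - v (swz R t j l S) ≤ v S0 - v (swz R t a b S0) := fun j l S =>
    hp (j, l, S) (mem_univ _)
  set α := v S0 - v (swz R t a b S0) with hα
  have hαpos : 0 < α := by
    rcases lt_or_gt_of_ne h3 with h | h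
    · have h4 := hmax j1 l1 (swz R t j1 l1 S3)
      rw [swz_swz] at h4
      linarith
    · have h4 := hmax j1 l1 S3
      linarith
  have hab : a ≠ b := by
    rintro rfl
    have : swz R t a a S0 = S0 := Subtype.ext (swp_self' _ _)
    rw [this] at hα
    linarith
  -- the function g
  let g : powersetCard t R → ℝ := fun S => v S - v (swz R t a b S)
  have hg : genK R t g S0 = μ * g S0 := by
    have h4 : g = v - fun S => v (swz R t a b S) := rfl
    rw [h4, map_sub, Pi.sub_apply, genK_comm, hv]
    simp only [Pi.sub_apply]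
    ring
  have hgS0 : g S0 = α := rfl
  have hgle : ∀ S, g S ≤ α := fun S => hmax a b S
  have hgs : g (swz R t a b S0) = -α := by
    simp only [g, swz_swz]
    rw [hα]; ring
  have hlow : α ≤ genK R t g S0 := by
    rw [genK_apply]
    have hnn : ∀ j l : R, 0 ≤ (g S0 - g (swz R t j l S0)) / 4 := by
      intro j l
      have := hgle (swz R t j l S0)
      rw [hgS0]; linarith
    have h5 : ∑ j ∈ ({a, b} : Finset R), ∑ l : R, (g S0 - g (swz R t j l S0)) / 4 ≤
        ∑ j : R, ∑ l : R, (g S0 - g (swz R t j l S0)) / 4 :=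
      sum_le_sum_of_subset_of_nonneg (subset_univ _) fun j _ _ => sum_nonneg fun l _ => hnn j l
    rw [sum_pair hab] at h5
    have h6 : (g S0 - g (swz R t a b S0)) / 4 ≤ ∑ l : R, (g S0 - g (swz R t a l S0)) / 4 :=
      single_le_sum (f := fun l : R => (g S0 - g (swz R t a l S0)) / 4) (fun l _ => hnn a l)
        (mem_univ b)
    have h7 : (g S0 - g (swz R t b a S0)) / 4 ≤ ∑ l : R, (g S0 - g (swz R t b l S0)) / 4 :=
      single_le_sum (f := fun l : R => (g S0 - g (swz R t b l S0)) / 4) (fun l _ => hnn b l)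
        (mem_univ a)
    rw [swz_symm R t b a] at h7
    rw [hgs, hgS0] at h6 h7
    linarith
  rw [hg, hgS0] at hlow
  by_contra hcon
  push Not at hcon
  nlinarith

theorem slice_poincare (R : Finset V) (t : ℕ) (h : Finset V → ℝ)
    (h0 : ∑ S ∈ powersetCard t R, h S = 0) :
    ∑ S ∈ powersetCard t R, h S ^ 2 ≤
      (1 / 2) * ∑ j ∈ R, ∑ l ∈ R.erase j, ∑ S ∈ powersetCard t R,
        ((h S - h (swp j l S)) / 2) ^ 2 := by
  classical
  let f : powersetCard t R → ℝ := fun S => h S.1
  obtain ⟨n, v, μ, hv, hv1, hS, hE, -⟩ := exists_eigen (genK R t) (genK_symm R t)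
  have hf0 : ∑ S, f S = 0 := by
    rw [← h0]; exact sum_coe_sort (powersetCard t R) h
  have hf2 : ∑ S ∈ powersetCard t R, h S ^ 2 = ∑ S, f S ^ 2 :=
    (sum_coe_sort (powersetCard t R) fun S => h S ^ 2).symm
  have hrhs : (1 / 2) * ∑ j ∈ R, ∑ l ∈ R.erase j, ∑ S ∈ powersetCard t R,
        ((h S - h (swp j l S)) / 2) ^ 2 = ∑ S, f S * genK R t f S := by
    rw [genK_pair]
    have h1 : ∀ j ∈ R, ∑ l ∈ R.erase j, ∑ S ∈ powersetCard t R,
        ((h S - h (swp j l S)) / 2) ^ 2 = ∑ l ∈ R, ∑ S ∈ powersetCard t R,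
        ((h S - h (swp j l S)) / 2) ^ 2 := by
      intro j hj
      rw [← add_sum_erase R _ hj]
      simp [swp_self']
    rw [sum_congr rfl h1, ← sum_coe_sort R, mul_sum]
    refine sum_congr rfl fun j _ => ?_
    rw [← sum_coe_sort R, mul_sum]
    refine sum_congr rfl fun l _ => ?_
    rw [← sum_coe_sort (powersetCard t R), mul_sum]
    refine sum_congr rfl fun S _ => ?_
    simp only [f, swz]
    ring
  rw [hf2, hrhs, hS f, hE f]
  refine sum_le_sum fun i _ => ?_
  by_cases hc : ∃ S S', v i S ≠ v i S'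
  · have h1 := one_le_eig R t (v i) (μ i) (hv i) hc
    nlinarith [sq_nonneg (∑ x, f x * v i x)]
  · push Not at hc
    have h1 : ∑ x, f x * v i x = 0 := by
      rcases isEmpty_or_nonempty (powersetCard t R) with he | ⟨⟨S0⟩⟩
      · simp
      · have h2 : ∀ x, f x * v i x = f x * v i S0 := fun x => by rw [hc x S0]
        rw [sum_congr rfl fun x _ => h2 x, ← sum_mul, hf0, zero_mul]
    rw [h1]
    simp

end Vale.Agent.KTV
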