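import Vale.Agent.KTV.SliceDefs
import Vale.Agent.KTV.SlicePoin

/-!
Inequalities on the slice `powersetCard t R`.

Paper proof of `slice_main`.  Let `m = |R|`, and for `j ≠ l` in `R` let `N` be the size of `unl R t j l`
(it does not depend on the pair: `2 * (m-2).choose (t-1)`), and `δ j l` the average of `h` over
`unl R t j l`.  If `N = 0` there is nothing to do.  Let `κ j l = ∑_S ((h S - h (swp j l S)) / 2) ^ 2`.
1. `∑_{j≠l} δ j l = 0`: every `S` lies in `unl` of exactly `2 t (m-t)` ordered pairs.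
2. For distinct `j, l, m`: `N * (δ j l - δ j m) ^ 2 ≤ κ l m`.  Indeed `swp l m` maps `unl j l` onto
   `unl j m`, so `N (δ j l - δ j m) = ∑_{S ∈ unl j l} (h S - h (swp l m S))`, whose terms vanish unless
   exactly one of `l, m` is in `S`, i.e. `j ∈ S ↔ m ∈ S`, which is half of `unl j l`
   (by `swp j l`).  Cauchy-Schwarz over these `N/2` sets gives `N² (δ j l - δ j m)² ≤ (N/2) ∑ (..)²`, and the
   sum over `{j ∈ S ↔ m ∈ S, l unlike}` of `(h S - h (swp l m S))²` is half of the sum over all `S`,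
   i.e. `2 κ l m` (by `swp l m`, which exchanges `{j = m ≠ l}` and `{j = l ≠ m}`).
3. (Gap of the Johnson graph J(m,2).)  For a symmetric `δ` on pairs with `∑_{j≠l} δ j l = 0` and
   `s j = ∑_{l≠j} δ j l`: `∑ s j ^ 2 ≤ ((m-2)/2) ∑_{j≠l} δ j l ^ 2` for `m ≥ 3` (expand
   `0 ≤ ∑_{j≠l} (δ j l - (s j + s l)/(m-2))²` and use `∑ s = 0`); hence
   `∑_{j,l,m distinct} (δ j l - δ j m)² = 2 (m-1) ∑_{j≠l} δ² - 2 ∑ s² ≥ m ∑_{j≠l} δ²`.
4. Summing 2 over ordered distinct triples, `m N ∑_{j≠l} δ² ≤ (m-2) ∑_{j≠l} κ j l`, so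
   `∑_{j≠l} N δ² ≤ ∑_{j≠l} κ`.  For `m = 2` directly `δ = 0` by 1.

Paper proof of `slice_poincare` (any proof will do; the constant must be as stated).  On functions on
the slice let `K f S = ∑_{j<l} (f S - f (swp j l S)) / 2`; then `⟨f, K f⟩ = ∑_{j<l} κ j l`, `K` is
symmetric positive semidefinite, its kernel is the constants (the slice is connected under
exchanges), and every eigenvalue `μ` with a nonconstant eigenfunction is at least `1`: let `α > 0` be the
maximum of `f S - f (swp j l S)`, attained at `(S, j, l)`, and let `g = f - f ∘ swp j l`; `K` commutes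
with `swp j l` (conjugation permutes the transpositions), so `K g = μ g`, and at `S`, where `g` is
maximal `= α`, the term of `swp j l` itself in `K g S` is `(g S + g S)/2 = α` and the other terms are
nonnegative; so `μ α ≥ α`.  Then expand in an orthonormal eigenbasis.
(Alternatively induct on `|R|`.)
-/

open Finset

namespace Vale.Agent.KTV

variable {V : Type*} [DecidableEq V]

theorem mem_swp' {j l x : V} {S : Finset V} : x ∈ swp j l S ↔ Equiv.swap j l x ∈ S := by
  unfold swp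
  rw [Finset.mem_map_equiv, Equiv.symm_swap]

theorem swp_eq_self {j l : V} {S : Finset V} (h : j ∈ S ↔ l ∈ S) : swp j l S = S := by
  ext x
  rw [mem_swp', Equiv.swap_apply_def]
  split_ifs with h1 h2
  · subst h1; exact h.symm
  · subst h2; exact h
  · rfl

theorem sum_swp {R : Finset V} {t : ℕ} {j l : V} (hj : j ∈ R) (hl : l ∈ R)
    (p q : Finset V → Prop) [DecidablePred p] [DecidablePred q]
    (hpq : ∀ S ∈ powersetCard t R, p (swp j l S) ↔ q S) (F : Finset V → ℝ) :
    ∑ S ∈ (powersetCard t R).filter p, F S = ∑ S ∈ (powersetCard t R).filter q, F (swp j l S) := by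
  refine sum_bij' (fun S _ => swp j l S) (fun S _ => swp j l S) ?_ ?_ ?_ ?_ ?_
  · intro S hS
    rw [mem_filter] at hS ⊢
    refine ⟨swp_mem hj hl hS.1, ?_⟩
    rw [← hpq _ (swp_mem hj hl hS.1), swp_swp]
    exact hS.2
  · intro S hS
    rw [mem_filter] at hS ⊢
    exact ⟨swp_mem hj hl hS.1, (hpq _ hS.1).2 hS.2⟩
  · intro S _; exact swp_swp j l S
  · intro S _; exact swp_swp j l S
  · intro S _; simp only [swp_swp]

theorem sum_swp' {R : Finset V} {t : ℕ} {j l : V} (hj : j ∈ R) (hl : l ∈ R)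
    (F : Finset V → ℝ) :
    ∑ S ∈ powersetCard t R, F S = ∑ S ∈ powersetCard t R, F (swp j l S) := by
  have := sum_swp (R := R) (t := t) hj hl (fun _ => True) (fun _ => True) (fun _ _ => Iff.rfl) F
  simpa using this

/-- the swap energy -/
noncomputable def kap (R : Finset V) (t : ℕ) (h : Finset V → ℝ) (j l : V) : ℝ :=
  ∑ S ∈ powersetCard t R, ((h S - h (swp j l S)) / 2) ^ 2

theorem kap_nonneg (R : Finset V) (t : ℕ) (h : Finset V → ℝ) (j l : V) : 0 ≤ kap R t h j l :=
  sum_nonneg fun _ _ => sq_nonneg _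

/-- Johnson graph inequality. -/
theorem johnson (R : Finset V) (D : V → V → ℝ) (hsym : ∀ j l, D j l = D l j)
    (h0 : ∑ j ∈ R, ∑ l ∈ R.erase j, D j l = 0) :
    (R.card : ℝ) * ∑ j ∈ R, ∑ l ∈ R.erase j, D j l ^ 2 ≤
      ∑ j ∈ R, ∑ l ∈ R.erase j, ∑ m ∈ R.erase j, (D j l - D j m) ^ 2 := by
  classical
  set s : V → ℝ := fun j => ∑ l ∈ R.erase j, D j l with hs
  set Q : ℝ := ∑ j ∈ R, ∑ l ∈ R.erase j, D j l ^ 2 with hQ
  set S2 : ℝ := ∑ j ∈ R, s j ^ 2 with hS2
  set n : ℝ := (R.card : ℝ) with hn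
  have hs0 : ∑ j ∈ R, s j = 0 := h0
  -- swapping the order of a symmetric double sum
  have hswap : ∀ F : V → V → ℝ, ∑ j ∈ R, ∑ l ∈ R.erase j, F j l =
      ∑ j ∈ R, ∑ l ∈ R.erase j, F l j := by
    intro F
    rw [sum_comm' (t' := R) (s' := fun l => R.erase l)]
    intro x y
    simp only [mem_erase]
    constructor
    · rintro ⟨h1, h2, h3⟩; exact ⟨⟨h2.symm, h1⟩, h3⟩
    · rintro ⟨⟨h1, h2⟩, h3⟩; exact ⟨h2, h1.symm, h3⟩
  have hcard : ∀ j ∈ R, ((R.erase j).card : ℝ) = n - 1 := by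
    intro j hj
    have h1 := card_erase_add_one hj
    have : ((R.erase j).card : ℝ) + 1 = R.card := by exact_mod_cast h1
    rw [hn]; linarith
  -- the right hand side
  have hR : ∑ j ∈ R, ∑ l ∈ R.erase j, ∑ m ∈ R.erase j, (D j l - D j m) ^ 2 =
      2 * (n - 1) * Q - 2 * S2 := by
    have h1 : ∀ j ∈ R, ∑ l ∈ R.erase j, ∑ m ∈ R.erase j, (D j l - D j m) ^ 2 =
        2 * (n - 1) * ∑ l ∈ R.erase j, D j l ^ 2 - 2 * s j ^ 2 := by
      intro j hj
      have e1 : ∀ l m, (D j l - D j m) ^ 2 = D j l ^ 2 + D j m ^ 2 - 2 * (D j l * D j m) := by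
        intro l m; ring
      simp only [e1, sum_sub_distrib, sum_add_distrib, sum_const, nsmul_eq_mul, ← mul_sum]
      rw [← sum_mul, hcard j hj]
      simp only [hs]
      ring
    rw [sum_congr rfl h1, sum_sub_distrib, ← mul_sum, ← mul_sum]
  rw [hR]
  -- cases on the cardinality
  rcases le_or_gt R.card 1 with h | h
  · have hQ0 : Q = 0 := by
      rw [hQ]
      refine sum_eq_zero fun j hj => ?_
      have : R.erase j = ∅ := by
        rw [← card_eq_zero, card_erase_of_mem hj]; omega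
      rw [this, sum_empty]
    have hS0 : S2 = 0 := by
      rw [hS2]
      refine sum_eq_zero fun j hj => ?_
      have : R.erase j = ∅ := by
        rw [← card_eq_zero, card_erase_of_mem hj]; omega
      simp [hs, this]
    rw [hQ0, hS0]; simp
  · suffices h3 : 2 * S2 ≤ (n - 2) * Q by linarith
    rcases Nat.lt_or_ge R.card 3 with h' | h'
    · -- card = 2
      have hc : R.card = 2 := by omega
      obtain ⟨x, y, hxy, hRxy⟩ := card_eq_two.1 hc
      have e1 : s x = D x y := by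
        simp only [hs, hRxy]
        rw [erase_insert (by simpa using hxy)]; simp
      have e2 : s y = D y x := by
        simp only [hs, hRxy]
        rw [pair_comm, erase_insert (by simpa using hxy.symm)]; simp
      have e3 : s x + s y = 0 := by
        rw [← hs0, hRxy, sum_pair hxy]
      have e4 : D x y = 0 := by
        have := hsym x y
        linarith
      have e5 : S2 = 0 := by
        rw [hS2, hRxy, sum_pair hxy, e1, e2, hsym y x, e4]; simp
      have e6 : n = 2 := by rw [hn, hc]; norm_num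
      rw [e5, e6]; simp
    · have hn3 : (3 : ℝ) ≤ n := by rw [hn]; exact_mod_cast h'
      have hpos : 0 < n - 2 := by linarith
      set a : ℝ := 1 / (n - 2) with ha
      have hnn : 0 ≤ ∑ j ∈ R, ∑ l ∈ R.erase j, (D j l - a * (s j + s l)) ^ 2 :=
        sum_nonneg fun _ _ => sum_nonneg fun _ _ => sq_nonneg _
      have f1 : ∑ j ∈ R, ∑ l ∈ R.erase j, D j l * s j = S2 := by
        rw [hS2]
        refine sum_congr rfl fun j _ => ?_
        rw [← sum_mul, sq]
      have f2 : ∑ j ∈ R, ∑ l ∈ R.erase j, D j l * s l = S2 := by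
        rw [hswap, ← f1]
        refine sum_congr rfl fun j _ => sum_congr rfl fun l _ => ?_
        rw [hsym l j]
      have f3 : ∑ j ∈ R, ∑ l ∈ R.erase j, s j ^ 2 = (n - 1) * S2 := by
        rw [hS2, mul_sum]
        refine sum_congr rfl fun j hj => ?_
        rw [sum_const, nsmul_eq_mul, hcard j hj]
      have f4 : ∑ j ∈ R, ∑ l ∈ R.erase j, s l ^ 2 = (n - 1) * S2 := by
        rw [hswap, f3]
      have f5 : ∑ j ∈ R, s j * ∑ l ∈ R.erase j, s l = - S2 := by
        have g1 : ∀ j ∈ R, s j * ∑ l ∈ R.erase j, s l = - s j ^ 2 := by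
          intro j hj
          have := add_sum_erase R s hj
          rw [hs0] at this
          have g2 : ∑ l ∈ R.erase j, s l = - s j := by linarith
          rw [g2]; ring
        rw [sum_congr rfl g1, sum_neg_distrib]
      have f6 : ∑ j ∈ R, ∑ l ∈ R.erase j, (D j l - a * (s j + s l)) ^ 2 =
          Q - 2 * a * (S2 + S2) + a ^ 2 * ((n - 1) * S2 + (n - 1) * S2 + 2 * (- S2)) := by
        have g1 : ∀ j l, (D j l - a * (s j + s l)) ^ 2 =
            D j l ^ 2 - 2 * a * (D j l * s j + D j l * s l) +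
              a ^ 2 * (s j ^ 2 + s l ^ 2 + 2 * (s j * s l)) := by
          intro j l; ring
        simp only [g1, sum_add_distrib, sum_sub_distrib, ← mul_sum]
        rw [f1, f2, f3, f4, f5]
      rw [f6] at hnn
      have g2 : a * (n - 2) = 1 := by rw [ha]; field_simp
      have g3 : 0 ≤ Q - 2 * a * S2 := by
        have : Q - 2 * a * (S2 + S2) + a ^ 2 * ((n - 1) * S2 + (n - 1) * S2 + 2 * (- S2)) =
            Q - 4 * a * S2 + 2 * a * (a * (n - 2)) * S2 := by ring
        rw [this, g2] at hnn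
        linarith
      have g4 : 0 ≤ (n - 2) * (Q - 2 * a * S2) := mul_nonneg hpos.le g3
      have g5 : (n - 2) * (Q - 2 * a * S2) = (n - 2) * Q - 2 * (a * (n - 2)) * S2 := by ring
      rw [g5, g2] at g4
      linarith


theorem card_unl_sum (R : Finset V) (t : ℕ) (h : Finset V → ℝ)
    (h0 : ∑ S ∈ powersetCard t R, h S = 0) :
    ∑ j ∈ R, ∑ l ∈ R.erase j, ∑ S ∈ unl R t j l, h S = 0 := by
  have h1 : ∀ j l, ∑ S ∈ unl R t j l, h S =
      ∑ S ∈ powersetCard t R, if ¬ (j ∈ S ↔ l ∈ S) then h S else 0 := by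
    intro j l
    rw [unl, sum_filter]
  simp only [h1]
  have h2 : ∀ j ∈ R, ∑ l ∈ R.erase j, ∑ S ∈ powersetCard t R, (if ¬ (j ∈ S ↔ l ∈ S) then h S else 0) =
      ∑ S ∈ powersetCard t R, ∑ l ∈ R, (if ¬ (j ∈ S ↔ l ∈ S) then h S else 0) := by
    intro j hj
    rw [sum_comm]
    refine sum_congr rfl fun S _ => ?_
    rw [← add_sum_erase R _ hj]
    simp
  rw [sum_congr rfl h2, sum_comm]
  have h3 : ∀ S ∈ powersetCard t R, ∑ j ∈ R, ∑ l ∈ R, (if ¬ (j ∈ S ↔ l ∈ S) then h S else 0) =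
      (2 * (t : ℝ) * ((R.card : ℝ) - t)) * h S := by
    intro S hS
    rw [mem_powersetCard] at hS
    have hRS : ((R.filter (· ∉ S)).card : ℝ) = (R.card : ℝ) - t := by
      have e2 : R.filter (· ∉ S) = R \ S := by
        ext x; simp only [mem_filter, mem_sdiff]
      have e1 := card_sdiff_add_card_eq_card hS.1
      rw [e2]
      rw [hS.2] at e1
      have : ((R \ S).card : ℝ) + (t : ℝ) = R.card := by exact_mod_cast e1
      linarith
    have hRS' : ((R.filter (· ∈ S)).card : ℝ) = t := by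
      have e2 : R.filter (· ∈ S) = S := by
        ext x; simp only [mem_filter]; exact ⟨fun h => h.2, fun h => ⟨hS.1 h, h⟩⟩
      rw [e2, hS.2]
    have h4 : ∀ j ∈ R, ∑ l ∈ R, (if ¬ (j ∈ S ↔ l ∈ S) then h S else 0) =
        if j ∈ S then ((R.card : ℝ) - t) * h S else (t : ℝ) * h S := by
      intro j _
      rw [← sum_filter, sum_const, nsmul_eq_mul]
      split_ifs with hj
      · rw [← hRS]
        congr 3
        ext x
        simp [hj]
      · rw [← hRS']
        congr 3
        ext x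
        simp [hj]
    rw [sum_congr rfl h4, ← sum_filter_add_sum_filter_not R (· ∈ S)]
    have h5 : ∑ x ∈ R.filter (· ∈ S), (if x ∈ S then ((R.card : ℝ) - t) * h S else (t : ℝ) * h S) =
        (t : ℝ) * (((R.card : ℝ) - t) * h S) := by
      have e : ∀ x ∈ R.filter (· ∈ S), (if x ∈ S then ((R.card : ℝ) - t) * h S else (t : ℝ) * h S)
          = ((R.card : ℝ) - t) * h S := fun x hx => if_pos (mem_filter.1 hx).2
      rw [sum_congr rfl e, sum_const, nsmul_eq_mul, hRS']
    have h6 : ∑ x ∈ R.filter (¬ · ∈ S), (if x ∈ S then ((R.card : ℝ) - t) * h S else (t : ℝ) * h S) =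
        ((R.card : ℝ) - t) * ((t : ℝ) * h S) := by
      have e : ∀ x ∈ R.filter (¬ · ∈ S), (if x ∈ S then ((R.card : ℝ) - t) * h S else (t : ℝ) * h S)
          = (t : ℝ) * h S := fun x hx => if_neg (mem_filter.1 hx).2
      rw [sum_congr rfl e, sum_const, nsmul_eq_mul, hRS]
    rw [h5, h6]; ring
  rw [sum_congr rfl h3, ← mul_sum, h0, mul_zero]

/-- Step 2. -/
theorem slice_step {R : Finset V} {t : ℕ} (h : Finset V → ℝ) {j l m : V} (hl : l ∈ R)
    (hm : m ∈ R) (hjl : j ≠ l) (hjm : j ≠ m) :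
    (∑ S ∈ unl R t j l, h S - ∑ S ∈ unl R t j m, h S) ^ 2 ≤
      ((unl R t l m).card : ℝ) * kap R t h l m := by
  classical
  set A : Finset (Finset V) :=
    (powersetCard t R).filter (fun S => ¬ (j ∈ S ↔ l ∈ S) ∧ ¬ (l ∈ S ↔ m ∈ S)) with hA
  set A' : Finset (Finset V) :=
    (powersetCard t R).filter (fun S => ¬ (j ∈ S ↔ m ∈ S) ∧ ¬ (l ∈ S ↔ m ∈ S)) with hA'
  have hjs : Equiv.swap l m j = j := Equiv.swap_apply_of_ne_of_ne hjl hjm
  -- the difference
  have h1 : ∑ S ∈ unl R t j m, h S = ∑ S ∈ unl R t j l, h (swp l m S) := by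
    unfold unl
    refine sum_swp hl hm _ _ (fun S _ => ?_) h
    simp only [mem_swp', hjs, Equiv.swap_apply_right]
  have h2 : ∑ S ∈ unl R t j l, h S - ∑ S ∈ unl R t j m, h S = ∑ S ∈ A, (h S - h (swp l m S)) := by
    rw [h1, ← sum_sub_distrib]
    symm
    refine sum_subset ?_ ?_
    · intro S hS
      rw [hA, mem_filter] at hS
      rw [unl, mem_filter]
      exact ⟨hS.1, hS.2.1⟩
    · intro S hS hS'
      rw [unl, mem_filter] at hS
      rw [hA, mem_filter] at hS'
      have : l ∈ S ↔ m ∈ S := by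
        by_contra hc
        exact hS' ⟨hS.1, hS.2, hc⟩
      rw [swp_eq_self this, sub_self]
  -- decomposition of `unl l m`
  have hU : unl R t l m = A ∪ A' := by
    ext S
    simp only [unl, hA, hA', mem_union, mem_filter]
    tauto
  have hdisj : Disjoint A A' := by
    rw [disjoint_left]
    intro S hS hS'
    rw [hA, mem_filter] at hS
    rw [hA', mem_filter] at hS'
    tauto
  have hsw : ∀ F : Finset V → ℝ, ∑ S ∈ A', F S = ∑ S ∈ A, F (swp l m S) := by
    intro F
    rw [hA, hA']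
    refine sum_swp hl hm _ _ (fun S _ => ?_) F
    simp only [mem_swp', hjs, Equiv.swap_apply_right, Equiv.swap_apply_left]
    tauto
  have hcard : ((unl R t l m).card : ℝ) = 2 * A.card := by
    have e1 := hsw (fun _ => (1 : ℝ))
    simp only [sum_const, nsmul_eq_mul, mul_one] at e1
    rw [hU, card_union_of_disjoint hdisj]
    push_cast
    linarith
  have hk : kap R t h l m = (1 / 2) * ∑ S ∈ A, (h S - h (swp l m S)) ^ 2 := by
    have e1 : kap R t h l m = ∑ S ∈ unl R t l m, ((h S - h (swp l m S)) / 2) ^ 2 := by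
      unfold kap unl
      rw [sum_filter]
      refine sum_congr rfl fun S _ => ?_
      by_cases hc : l ∈ S ↔ m ∈ S
      · rw [swp_eq_self hc]; simp
      · rw [if_pos hc]
    rw [e1, hU, sum_union hdisj, hsw, mul_sum, ← sum_add_distrib]
    refine sum_congr rfl fun S _ => ?_
    rw [swp_swp]
    ring
  rw [h2, hcard, hk]
  have hcs := sq_sum_le_card_mul_sum_sq (s := A) (f := fun S => h S - h (swp l m S))
  linarith

theorem slice_main (R : Finset V) (t : ℕ) (h : Finset V → ℝ)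
    (h0 : ∑ S ∈ powersetCard t R, h S = 0) :
    ∑ j ∈ R, ∑ l ∈ R.erase j, ∑ _S ∈ unl R t j l,
        ((∑ S' ∈ unl R t j l, h S') / ((unl R t j l).card : ℝ)) ^ 2 ≤
      ∑ j ∈ R, ∑ l ∈ R.erase j, ∑ S ∈ powersetCard t R, ((h S - h (swp j l S)) / 2) ^ 2 := by
  classical
  set D : V → V → ℝ := fun j l => ∑ S ∈ unl R t j l, h S with hD
  have hunl : ∀ j l, unl R t j l = unl R t l j := by
    intro j l
    unfold unl
    refine filter_congr fun S _ => ?_
    tauto
  have hDs : ∀ j l, D j l = D l j := by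
    intro j l; simp only [hD, hunl j l]
  -- all the `unl` have the same size
  have hc1 : ∀ j ∈ R, ∀ l ∈ R, ∀ m ∈ R, j ≠ l → j ≠ m → (unl R t j l).card = (unl R t j m).card := by
    intro j hj l hl m hm hjl hjm
    rcases eq_or_ne l m with rfl | hlm
    · rfl
    have := sum_swp (R := R) (t := t) hl hm (fun S => ¬ (j ∈ S ↔ m ∈ S)) (fun S => ¬ (j ∈ S ↔ l ∈ S))
      (fun S _ => by
        simp only [mem_swp', Equiv.swap_apply_of_ne_of_ne hjl hjm, Equiv.swap_apply_right])
      (fun _ => (1 : ℝ))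
    simp only [sum_const, nsmul_eq_mul, mul_one] at this
    have h' : ((unl R t j m).card : ℝ) = ((unl R t j l).card : ℝ) := this
    exact_mod_cast h'.symm
  obtain ⟨N, hN⟩ : ∃ N : ℕ, ∀ j ∈ R, ∀ l ∈ R, j ≠ l → (unl R t j l).card = N := by
    by_cases hR : ∃ a ∈ R, ∃ b ∈ R, a ≠ b
    · obtain ⟨a, ha, b, hb, hab⟩ := hR
      refine ⟨(unl R t a b).card, fun j hj l hl hjl => ?_⟩
      by_cases hja : j = a
      · subst hja; exact hc1 j hj l hl b hb hjl hab
      · -- (j,l) -> (j,a) -> (a,j) -> (a,b)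
        rw [hc1 j hj l hl a ha hjl hja, hunl j a]
        exact hc1 a ha j hj b hb (Ne.symm hja) hab
    · push Not at hR
      exact ⟨0, fun j hj l hl hjl => absurd (hR j hj l hl) hjl⟩
  have hLHS : ∀ j ∈ R, ∀ l ∈ R.erase j, ∑ _S ∈ unl R t j l,
        ((∑ S' ∈ unl R t j l, h S') / ((unl R t j l).card : ℝ)) ^ 2 = D j l ^ 2 / N := by
    intro j hj l hl
    rw [mem_erase] at hl
    rw [sum_const, nsmul_eq_mul, hN j hj l hl.2 hl.1.symm]
    rcases Nat.eq_zero_or_pos N with h0 | hpos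
    · rw [h0]; simp
    · have : (N : ℝ) ≠ 0 := by positivity
      field_simp
      rfl
  rw [sum_congr rfl fun j hj => sum_congr rfl fun l hl => hLHS j hj l hl]
  change _ ≤ ∑ j ∈ R, ∑ l ∈ R.erase j, kap R t h j l
  rcases Nat.eq_zero_or_pos N with hN0 | hNpos
  · rw [hN0]
    simp only [Nat.cast_zero, div_zero, sum_const_zero]
    exact sum_nonneg fun _ _ => sum_nonneg fun _ _ => kap_nonneg _ _ _ _ _
  have hNr : (0 : ℝ) < N := by exact_mod_cast hNpos
  have hJ := johnson R D hDs (card_unl_sum R t h h0)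
  have hstep : ∑ j ∈ R, ∑ l ∈ R.erase j, ∑ m ∈ R.erase j, (D j l - D j m) ^ 2 ≤
      ∑ j ∈ R, ∑ l ∈ R, ∑ m ∈ R.erase l, (N : ℝ) * kap R t h l m := by
    refine sum_le_sum fun j hj => ?_
    refine (sum_le_sum (f := fun l => ∑ m ∈ R.erase j, (D j l - D j m) ^ 2)
      (g := fun l => ∑ m ∈ R.erase l, (N : ℝ) * kap R t h l m) fun l hl => ?_).trans ?_
    · rw [mem_erase] at hl
      have e1 : ∑ m ∈ R.erase j, (D j l - D j m) ^ 2 =
          ∑ m ∈ (R.erase j).erase l, (D j l - D j m) ^ 2 := by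
        rw [← add_sum_erase (R.erase j) _ (mem_erase.2 hl)]
        simp
      rw [e1]
      refine (sum_le_sum (g := fun m => (N : ℝ) * kap R t h l m) fun m hm => ?_).trans ?_
      · rw [mem_erase, mem_erase] at hm
        have := slice_step (R := R) (t := t) h hl.2 hm.2.2 hl.1.symm hm.2.1.symm
        rwa [hN l hl.2 m hm.2.2 hm.1.symm] at this
      · refine sum_le_sum_of_subset_of_nonneg ?_ fun _ _ _ =>
          mul_nonneg hNr.le (kap_nonneg _ _ _ _ _)
        intro x hx
        simp only [mem_erase] at hx ⊢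
        exact ⟨hx.1, hx.2.2⟩
    · exact sum_le_sum_of_subset_of_nonneg (erase_subset _ _) fun _ _ _ =>
        sum_nonneg fun _ _ => mul_nonneg hNr.le (kap_nonneg _ _ _ _ _)
  have e2 : ∑ j ∈ R, ∑ l ∈ R, ∑ m ∈ R.erase l, (N : ℝ) * kap R t h l m =
      (R.card : ℝ) * ((N : ℝ) * ∑ l ∈ R, ∑ m ∈ R.erase l, kap R t h l m) := by
    rw [sum_const, nsmul_eq_mul]
    simp only [mul_sum]
  rcases Nat.eq_zero_or_pos R.card with hR0 | hRpos
  · rw [card_eq_zero] at hR0
    rw [hR0]; simp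
  have hRr : (0 : ℝ) < R.card := by exact_mod_cast hRpos
  have e3 : (R.card : ℝ) * ∑ j ∈ R, ∑ l ∈ R.erase j, D j l ^ 2 ≤
      (R.card : ℝ) * ((N : ℝ) * ∑ l ∈ R, ∑ m ∈ R.erase l, kap R t h l m) := by
    rw [← e2]; exact hJ.trans hstep
  have e4 := le_of_mul_le_mul_left e3 hRr
  have e5 : ∑ j ∈ R, ∑ l ∈ R.erase j, D j l ^ 2 / (N : ℝ) =
      (∑ j ∈ R, ∑ l ∈ R.erase j, D j l ^ 2) / N := by
    simp only [sum_div]
  rw [e5, div_le_iff₀ hNr, mul_comm]
  exact e4

end Vale.Agent.KTV
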