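import Vale.Agent.KTV.Core

/-!
Elementary facts on a single switch.
-/

open Finset

namespace Vale.Agent.KTV

variable {V : Type*} [Fintype V] [DecidableEq V]

omit [Fintype V] in
theorem sw_of_not_isC {i k j l : V} {g : Gr V} (h : ¬ isC i k j l g) : sw i k j l g = g := by
  funext e; simp [sw, h]

omit [Fintype V] in
theorem sw_other {i k j l : V} {g : Gr V} {e : Sym2 V}
    (h : ¬ (e = s(i, j) ∨ e = s(i, l) ∨ e = s(k, j) ∨ e = s(k, l))) : sw i k j l g e = g e := by
  unfold sw; rw [if_neg (fun h' => h h'.2)]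

omit [Fintype V] in
theorem sw_in {i k j l : V} {g : Gr V} (hc : isC i k j l g) {e : Sym2 V}
    (h : e = s(i, j) ∨ e = s(i, l) ∨ e = s(k, j) ∨ e = s(k, l)) : sw i k j l g e = !(g e) := by
  unfold sw; rw [if_pos ⟨hc, h⟩]

theorem pairRel_sw (i k j l : V) (h : Good i k j l) (g : Gr V) :
    (pairRel i k) g (sw i k j l g) := by
  obtain ⟨hik, hjl, hij, hil, hkj, hkl⟩ := h
  by_cases hc : isC i k j l g
  swap
  · rw [sw_of_not_isC hc]
  have e1 : sw i k j l g s(i, j) = !(g s(i, j)) := sw_in hc (by simp)
  have e2 : sw i k j l g s(i, l) = !(g s(i, l)) := sw_in hc (by simp)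
  have e3 : sw i k j l g s(k, j) = !(g s(k, j)) := sw_in hc (by simp)
  have e4 : sw i k j l g s(k, l) = !(g s(k, l)) := sw_in hc (by simp)
  have hrow : ∀ x, x ≠ j → x ≠ l → sw i k j l g s(i, x) = g s(i, x) := by
    intro x hxj hxl
    apply sw_other
    simp only [Sym2.eq_iff]
    tauto
  have hrow' : ∀ x, x ≠ j → x ≠ l → sw i k j l g s(k, x) = g s(k, x) := by
    intro x hxj hxl
    apply sw_other
    simp only [Sym2.eq_iff]
    tauto
  obtain ⟨c1, c2, c3⟩ := hc
  refine ⟨?_, ?_, ?_⟩
  · intro x y hxy
    symm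
    apply sw_other
    simp only [Sym2.eq_iff]
    clear e1 e2 e3 e4 hrow hrow' c1 c2 c3
    have h1 := hik.symm
    have h2 := hjl.symm
    have h3 := hij.symm
    have h4 := hil.symm
    have h5 := hkj.symm
    have h6 := hkl.symm
    rintro (h | h | h | h) <;> rcases h with ⟨rfl, rfl⟩ | ⟨rfl, rfl⟩ <;> simp_all
  · intro x hxi hxk
    by_cases hxj : x = j
    · subst hxj
      unfold ad
      rw [e1, e3, ← c2]
      cases h1 : g s(i, x) <;> cases h2 : g s(i, l) <;> simp_all
    · by_cases hxl : x = l
      · subst hxl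
        unfold ad
        rw [e2, e4, ← c1]
        cases h1 : g s(i, j) <;> cases h2 : g s(i, x) <;> simp_all
      · unfold ad
        rw [hrow x hxj hxl, hrow' x hxj hxl]
  · unfold deg
    have hjl' : l ∈ univ.erase j := by simp [hjl.symm]
    rw [← add_sum_erase univ _ (mem_univ j), ← add_sum_erase univ (fun y => ad (sw i k j l g) i y) (mem_univ j),
      ← add_sum_erase _ _ hjl', ← add_sum_erase _ (fun y => ad (sw i k j l g) i y) hjl']
    have hs : ∑ y ∈ (univ.erase j).erase l, ad g i y =
        ∑ y ∈ (univ.erase j).erase l, ad (sw i k j l g) i y := by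
      refine sum_congr rfl fun y hy => ?_
      simp only [mem_erase, mem_univ, and_true] at hy
      unfold ad
      rw [hrow y hy.2 hy.1]
    rw [hs]
    have : ad g i j + ad g i l = ad (sw i k j l g) i j + ad (sw i k j l g) i l := by
      unfold ad
      rw [e1, e2]
      cases h1 : g s(i, j) <;> cases h2 : g s(i, l) <;> simp_all
    linarith

omit [Fintype V] [DecidableEq V] in
theorem ad_comm (g : Gr V) (x y : V) : ad g x y = ad g y x := by
  unfold ad; rw [Sym2.eq_swap]

/-- Related graphs have the same column sums everywhere, also in the columns `i` and `k`. -/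
theorem pairRel_col {i k : V} {g h : Gr V} (hgh : (pairRel i k) g h) (x : V) :
    ad g i x + ad g k x = ad h i x + ad h k x := by
  obtain ⟨h1, h2, h3⟩ := hgh
  by_cases hx : x = i ∨ x = k
  · unfold ad
    rw [h1 i x (by simp [hx]), h1 k x (by simp [hx])]
  · rw [not_or] at hx
    exact h2 x hx.1 hx.2

theorem pairRel_deg {i k : V} {g h : Gr V} (hgh : (pairRel i k) g h) (x : V) :
    deg g x = deg h x := by
  by_cases hxi : x = i
  · rw [hxi]; exact hgh.2.2
  by_cases hxk : x = k
  · have h1 : ∑ y, (ad g i y + ad g k y) = ∑ y, (ad h i y + ad h k y) :=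
      sum_congr rfl fun y _ => pairRel_col hgh y
    rw [sum_add_distrib, sum_add_distrib] at h1
    have h2 : deg g i = deg h i := hgh.2.2
    unfold deg at *
    rw [hxk]
    linarith
  by_cases hik : i = k
  · subst hik
    unfold deg
    refine sum_congr rfl fun y _ => ?_
    by_cases hy : y = i
    · subst hy
      have := pairRel_col hgh x
      rw [ad_comm g y x, ad_comm h y x] at this
      linarith
    · unfold ad
      rw [hgh.1 x y (by simp [hxi, hy])]
  · unfold deg
    have hk : k ∈ univ.erase i := by simp [Ne.symm hik]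
    rw [← add_sum_erase univ _ (mem_univ i), ← add_sum_erase univ (fun y => ad h x y) (mem_univ i),
      ← add_sum_erase _ _ hk, ← add_sum_erase _ (fun y => ad h x y) hk]
    have hs : ∑ y ∈ (univ.erase i).erase k, ad g x y = ∑ y ∈ (univ.erase i).erase k, ad h x y := by
      refine sum_congr rfl fun y hy => ?_
      simp only [mem_erase, mem_univ, and_true] at hy
      unfold ad
      rw [hgh.1 x y (by simp [hxi, hxk, hy.1, hy.2])]
    have := pairRel_col hgh x
    rw [ad_comm g i x, ad_comm h i x, ad_comm g k x, ad_comm h k x] at this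
    linarith

theorem degRel_of_pairRel {i k : V} {g h : Gr V} (hgh : (pairRel i k) g h) : degRel g h :=
  ⟨fun x => hgh.1 x x Iff.rfl, fun x => pairRel_deg hgh x⟩

theorem pairRel_comm (i k : V) : pairRel i k = pairRel (V := V) k i := by
  have key : ∀ (i k : V) (g h : Gr V), (pairRel i k) g h → (pairRel k i) g h := by
    intro i k g h hgh
    refine ⟨fun x y hxy => hgh.1 x y ?_, fun x hx1 hx2 => ?_, pairRel_deg hgh k⟩
    · rw [or_comm (a := x = i), or_comm (a := y = i)]; exact hxy
    · have := hgh.2.1 x hx2 hx1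
      linarith
  ext g h
  exact ⟨key i k g h, key k i g h⟩

end Vale.Agent.KTV
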