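import Vale.Agent.KTV.Avg
import Vale.Agent.KTV.Slice
import Vale.Agent.KTV.Switch

/-!
The slice inequalities for graphs.

From `slice_main`, `slice_poincare`: by `sum_le_of_cls` for `pairRel i k` it suffices to sum over the
class of a fixed `g₀`.  Let `R = {x ≠ i, k | g₀ s(i,x) ≠ g₀ s(k,x)}` (the same for all members of the
class), `T g = {x ∈ R | g s(i,x) = true}`, `t = |T g₀|`.  Then `T` is a bijection from the class onto
`powersetCard t R`, with inverse `S ↦` the graph with `s(i,x) = (x ∈ S)`, `s(k,x) = (x ∉ S)` for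
`x ∈ R` and `g₀` elsewhere; `T (sw i k j l g) = swp j l (T g)` for distinct `j, l ∈ R`, `sw i k j l g = g`
if `j` or `l` is not in `R`, and for `j, l ∈ R` distinct `isC i k j l g` iff exactly one of `j, l` is in
`T g`.  Apply the slice inequalities to `h S = dv (pairRel i k) f (the graph of S)`, and note
`dv .. f g - dv .. f (sw .. g) = f g - f (sw .. g)` since `sw .. g` is in the class of `g`.
-/

open Finset

namespace Vale.Agent.KTV

variable {V : Type*} [Fintype V] [DecidableEq V]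

/-- The columns in which the rows `i` and `k` differ. -/
def RR (i k : V) (g : Gr V) : Finset V :=
  univ.filter fun x => x ≠ i ∧ x ≠ k ∧ g s(i, x) ≠ g s(k, x)

/-- The columns among `RR` in which the row `i` has the edge. -/
def TT (i k : V) (g : Gr V) : Finset V := (RR i k g).filter fun x => g s(i, x) = true

theorem mem_RR {i k : V} {g : Gr V} {x : V} :
    x ∈ RR i k g ↔ x ≠ i ∧ x ≠ k ∧ g s(i, x) ≠ g s(k, x) := by simp [RR]

theorem mem_TT {i k : V} {g : Gr V} {x : V} :
    x ∈ TT i k g ↔ x ∈ RR i k g ∧ g s(i, x) = true := by simp [TT]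

theorem TT_subset (i k : V) (g : Gr V) : TT i k g ⊆ RR i k g := filter_subset _ _

/-- The graph with `s(i,x) = (x ∈ S)`, `s(k,x) = (x ∉ S)` for `x ∈ R`, and `g₀` elsewhere. -/
def GG (i k : V) (g₀ : Gr V) (R S : Finset V) : Gr V := fun e =>
  if ∃ x ∈ R, (e = s(i, x) ∧ x ∈ S) ∨ (e = s(k, x) ∧ x ∉ S) then true
  else if ∃ x ∈ R, e = s(i, x) ∨ e = s(k, x) then false else g₀ e

omit [Fintype V] in
theorem GG_i {i k : V} (hik : i ≠ k) (g₀ : Gr V) {R : Finset V} (hR : ∀ x ∈ R, x ≠ i ∧ x ≠ k)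
    (S : Finset V) {x : V} (hx : x ∈ R) : GG i k g₀ R S s(i, x) = decide (x ∈ S) := by
  unfold GG
  by_cases hS : x ∈ S
  · rw [if_pos ⟨x, hx, Or.inl ⟨rfl, hS⟩⟩]
    simp [hS]
  · rw [if_neg, if_pos ⟨x, hx, Or.inl rfl⟩]
    · simp [hS]
    · rintro ⟨y, hy, ⟨h1, h2⟩ | ⟨h1, h2⟩⟩
      · have : x = y := Sym2.congr_right.1 h1
        exact hS (this ▸ h2)
      · rw [Sym2.eq_iff] at h1
        rcases h1 with ⟨h1, -⟩ | ⟨h1, -⟩
        · exact hik h1
        · exact (hR y hy).1 h1.symm

omit [Fintype V] in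
theorem GG_k {i k : V} (hik : i ≠ k) (g₀ : Gr V) {R : Finset V} (hR : ∀ x ∈ R, x ≠ i ∧ x ≠ k)
    (S : Finset V) {x : V} (hx : x ∈ R) : GG i k g₀ R S s(k, x) = !decide (x ∈ S) := by
  unfold GG
  by_cases hS : x ∈ S
  · rw [if_neg, if_pos ⟨x, hx, Or.inr rfl⟩]
    · simp [hS]
    · rintro ⟨y, hy, ⟨h1, h2⟩ | ⟨h1, h2⟩⟩
      · rw [Sym2.eq_iff] at h1
        rcases h1 with ⟨h1, -⟩ | ⟨h1, -⟩
        · exact hik h1.symm
        · exact (hR y hy).2 h1.symm
      · have : x = y := Sym2.congr_right.1 h1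
        exact h2 (this ▸ hS)
  · rw [if_pos ⟨x, hx, Or.inr ⟨rfl, hS⟩⟩]
    simp [hS]

omit [Fintype V] in
theorem GG_other {i k : V} (g₀ : Gr V) {R : Finset V}
    (S : Finset V) {e : Sym2 V} (he : ∀ x ∈ R, e ≠ s(i, x) ∧ e ≠ s(k, x)) :
    GG i k g₀ R S e = g₀ e := by
  unfold GG
  rw [if_neg, if_neg]
  · rintro ⟨y, hy, h | h⟩
    · exact (he y hy).1 h
    · exact (he y hy).2 h
  · rintro ⟨y, hy, h | h⟩
    · exact (he y hy).1 h.1
    · exact (he y hy).2 h.1

theorem RR_congr {i k : V} {g h : Gr V} (hgh : (pairRel i k) g h) : RR i k g = RR i k h := by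
  ext x
  rw [mem_RR, mem_RR]
  refine and_congr_right fun hi => and_congr_right fun hk => ?_
  have := hgh.2.1 x hi hk
  unfold ad at this
  cases h1 : g s(i, x) <;> cases h2 : g s(k, x) <;> cases h3 : h s(i, x) <;>
    cases h4 : h s(k, x) <;> simp_all

theorem hRR (i k : V) (g₀ : Gr V) : ∀ x ∈ RR i k g₀, x ≠ i ∧ x ≠ k := fun x hx =>
  ⟨(mem_RR.1 hx).1, (mem_RR.1 hx).2.1⟩

omit [DecidableEq V] in
/-- The degree of `i` splits. -/
theorem deg_split (i : V) (g₀ g : Gr V) (R : Finset V)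
    (h : ∀ x, x ∉ R → g s(i, x) = g₀ s(i, x)) :
    deg g i - deg g₀ i = ((R.filter fun x => g s(i, x) = true).card : ℤ) -
      ((R.filter fun x => g₀ s(i, x) = true).card : ℤ) := by
  unfold deg
  rw [← sum_sub_distrib, ← sum_subset (subset_univ R)]
  · rw [sum_sub_distrib]
    unfold ad
    rw [← sum_filter, ← sum_filter]
    simp
  · intro x _ hx
    unfold ad
    rw [h x hx, sub_self]

theorem card_TT_eq {i k : V} {g h : Gr V} (hgh : (pairRel i k) g h) :
    (TT i k h).card = (TT i k g).card := by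
  have hR := RR_congr hgh
  have h1 := deg_split i g h (RR i k g) (fun x hx => by
    rw [mem_RR] at hx
    by_cases hi : x = i
    · rw [hi]; exact (hgh.1 i i (by simp)).symm
    by_cases hk : x = k
    · rw [hk]; exact (hgh.1 i k (by simp)).symm
    have h2 := hgh.2.1 x hi hk
    have h3 : g s(i, x) = g s(k, x) := by
      by_contra hne
      exact hx ⟨hi, hk, hne⟩
    unfold ad at h2
    cases h4 : g s(i, x) <;> cases h5 : g s(k, x) <;> cases h6 : h s(i, x) <;>
      cases h7 : h s(k, x) <;> simp_all)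
  have h2 : deg g i = deg h i := hgh.2.2
  rw [h2, sub_self] at h1
  unfold TT
  rw [← hR]
  omega

theorem TT_mem {i k : V} {g h : Gr V} (hgh : (pairRel i k) g h) :
    TT i k h ∈ powersetCard (TT i k g).card (RR i k g) := by
  rw [mem_powersetCard]
  exact ⟨by rw [RR_congr hgh]; exact TT_subset i k h, card_TT_eq hgh⟩

theorem GG_mem {i k : V} (hik : i ≠ k) (g₀ : Gr V) {S : Finset V}
    (hS : S ∈ powersetCard (TT i k g₀).card (RR i k g₀)) :
    (pairRel i k) g₀ (GG i k g₀ (RR i k g₀) S) := by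
  rw [mem_powersetCard] at hS
  have hR := hRR i k g₀
  have hoth : ∀ x, x ∉ RR i k g₀ → ∀ y, (y = i ∨ y = k) → 
      GG i k g₀ (RR i k g₀) S s(y, x) = g₀ s(y, x) := by
    intro x hx y hy
    apply GG_other
    intro z hz
    constructor
    · intro he
      rw [Sym2.eq_iff] at he
      rcases he with ⟨-, h2⟩ | ⟨h1, h2⟩
      · exact hx (h2 ▸ hz)
      · rcases hy with rfl | rfl
        · exact (hR z hz).1 h1.symm
        · exact (hR z hz).2 h1.symm
    · intro he
      rw [Sym2.eq_iff] at he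
      rcases he with ⟨-, h2⟩ | ⟨h1, h2⟩
      · exact hx (h2 ▸ hz)
      · rcases hy with rfl | rfl
        · exact (hR z hz).1 h1.symm
        · exact (hR z hz).2 h1.symm
  refine ⟨?_, ?_, ?_⟩
  · intro x y hxy
    symm
    apply GG_other
    intro z hz
    have hz' := hR z hz
    constructor
    · intro he
      rw [Sym2.eq_iff] at he
      rcases he with ⟨h1, h2⟩ | ⟨h1, h2⟩
      · subst h1 h2
        have := hxy.1 (Or.inl rfl)
        tauto
      · subst h1 h2
        have := hxy.2 (Or.inl rfl)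
        tauto
    · intro he
      rw [Sym2.eq_iff] at he
      rcases he with ⟨h1, h2⟩ | ⟨h1, h2⟩
      · subst h1 h2
        have := hxy.1 (Or.inr rfl)
        tauto
      · subst h1 h2
        have := hxy.2 (Or.inr rfl)
        tauto
  · intro x hxi hxk
    by_cases hx : x ∈ RR i k g₀
    · unfold ad
      rw [GG_i hik g₀ hR S hx, GG_k hik g₀ hR S hx]
      have := (mem_RR.1 hx).2.2
      by_cases hxS : x ∈ S <;> cases h1 : g₀ s(i, x) <;> cases h2 : g₀ s(k, x) <;> simp_all
    · unfold ad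
      rw [hoth x hx i (Or.inl rfl), hoth x hx k (Or.inr rfl)]
  · have h1 := deg_split i g₀ (GG i k g₀ (RR i k g₀) S) (RR i k g₀)
      (fun x hx => hoth x hx i (Or.inl rfl))
    have h2 : ((RR i k g₀).filter fun x => GG i k g₀ (RR i k g₀) S s(i, x) = true) = S := by
      ext x
      rw [mem_filter]
      constructor
      · rintro ⟨hx, h⟩
        rw [GG_i hik g₀ hR S hx] at h
        simpa using h
      · intro hx
        refine ⟨hS.1 hx, ?_⟩
        rw [GG_i hik g₀ hR S (hS.1 hx)]
        simpa using hx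
    rw [h2, hS.2] at h1
    unfold TT at h1
    linarith

theorem GG_TT {i k : V} (hik : i ≠ k) {g₀ g : Gr V} (h : (pairRel i k) g₀ g) :
    GG i k g₀ (RR i k g₀) (TT i k g) = g := by
  have hR := hRR i k g₀
  funext e
  by_cases he : ∃ x ∈ RR i k g₀, e = s(i, x) ∨ e = s(k, x)
  · obtain ⟨x, hx, rfl | rfl⟩ := he
    · rw [GG_i hik g₀ hR _ hx]
      have hx' : x ∈ RR i k g := RR_congr h ▸ hx
      by_cases h1 : g s(i, x) = true
      · simp [mem_TT, hx', h1]
      · simp [mem_TT, hx', h1]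
    · rw [GG_k hik g₀ hR _ hx]
      have hx' : x ∈ RR i k g := RR_congr h ▸ hx
      have := (mem_RR.1 hx').2.2
      cases h1 : g s(i, x) <;> cases h2 : g s(k, x) <;> simp_all [mem_TT]
  · push Not at he
    rw [GG_other g₀ _ he]
    induction e using Sym2.ind with
    | _ x y =>
      by_cases hxy : (x = i ∨ x = k) ↔ (y = i ∨ y = k)
      · exact h.1 x y hxy
      · -- exactly one of `x`, `y` is in `{i,k}`
        have key : ∀ u v : V, (u = i ∨ u = k) → ¬ (v = i ∨ v = k) → v ∉ RR i k g₀ →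
            g₀ s(u, v) = g s(u, v) := by
          intro u v hu hv hvR
          rw [not_or] at hv
          have h2 := h.2.1 v hv.1 hv.2
          have h3 : g₀ s(i, v) = g₀ s(k, v) := by
            by_contra hne
            exact hvR (mem_RR.2 ⟨hv.1, hv.2, hne⟩)
          unfold ad at h2
          rcases hu with rfl | rfl
          · cases h4 : g₀ s(u, v) <;> cases h5 : g₀ s(k, v) <;> cases h6 : g s(u, v) <;>
              cases h7 : g s(k, v) <;> simp_all
          · cases h4 : g₀ s(i, v) <;> cases h5 : g₀ s(u, v) <;> cases h6 : g s(i, v) <;>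
              cases h7 : g s(u, v) <;> simp_all
        by_cases hx : x = i ∨ x = k
        · have hy : ¬ (y = i ∨ y = k) := fun hy => hxy ⟨fun _ => hy, fun _ => hx⟩
          refine key x y hx hy fun hyR => ?_
          rcases hx with rfl | rfl
          · exact (he y hyR).1 rfl
          · exact (he y hyR).2 rfl
        · have hy : y = i ∨ y = k := by tauto
          rw [Sym2.eq_swap]
          refine key y x hy hx fun hxR => ?_
          rcases hy with rfl | rfl
          · exact (he x hxR).1 Sym2.eq_swap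
          · exact (he x hxR).2 Sym2.eq_swap

theorem TT_GG {i k : V} (hik : i ≠ k) (g₀ : Gr V) {S : Finset V}
    (hS : S ∈ powersetCard (TT i k g₀).card (RR i k g₀)) :
    TT i k (GG i k g₀ (RR i k g₀) S) = S := by
  have hR := hRR i k g₀
  have h1 := RR_congr (GG_mem hik g₀ hS)
  rw [mem_powersetCard] at hS
  ext x
  rw [mem_TT, ← h1]
  constructor
  · rintro ⟨hx, h⟩
    rw [GG_i hik g₀ hR S hx] at h
    simpa using h
  · intro hx
    refine ⟨hS.1 hx, ?_⟩
    rw [GG_i hik g₀ hR S (hS.1 hx)]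
    simpa using hx

/-- Sums over the class of `g₀` are sums over the slice. -/
theorem sum_cls_slice {i k : V} (hik : i ≠ k) (g₀ : Gr V) (F : Gr V → ℝ) :
    ∑ g ∈ cls (pairRel i k) g₀, F g =
      ∑ S ∈ powersetCard (TT i k g₀).card (RR i k g₀), F (GG i k g₀ (RR i k g₀) S) := by
  refine sum_nbij' (fun g => TT i k g) (fun S => GG i k g₀ (RR i k g₀) S) ?_ ?_ ?_ ?_ ?_
  · intro g hg
    exact TT_mem (mem_cls.1 hg)
  · intro S hS
    exact mem_cls.2 (GG_mem hik g₀ hS)
  · intro g hg
    exact GG_TT hik (mem_cls.1 hg)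
  · intro S hS
    exact TT_GG hik g₀ hS
  · intro g hg
    rw [GG_TT hik (mem_cls.1 hg)]

/-- The switch needs both columns in `RR`. -/
theorem isC_RR {i k j l : V} (h : Good i k j l) {g : Gr V} (hc : isC i k j l g) :
    j ∈ RR i k g ∧ l ∈ RR i k g := by
  obtain ⟨hik, hjl, hij, hil, hkj, hkl⟩ := h
  obtain ⟨c1, c2, c3⟩ := hc
  refine ⟨mem_RR.2 ⟨hij.symm, hkj.symm, ?_⟩, mem_RR.2 ⟨hil.symm, hkl.symm, ?_⟩⟩
  · rw [← c2]; exact c3
  · rw [← c1]; exact c3.symm

theorem isC_GG {i k : V} (hik : i ≠ k) (g₀ : Gr V) (S : Finset V) {j l : V}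
    (hj : j ∈ RR i k g₀) (hl : l ∈ RR i k g₀) :
    isC i k j l (GG i k g₀ (RR i k g₀) S) ↔ ¬ (j ∈ S ↔ l ∈ S) := by
  have hR := hRR i k g₀
  unfold isC
  rw [GG_i hik g₀ hR S hj, GG_i hik g₀ hR S hl, GG_k hik g₀ hR S hj, GG_k hik g₀ hR S hl]
  by_cases h1 : j ∈ S <;> by_cases h2 : l ∈ S <;> simp [h1, h2]

theorem good_of_mem {i k : V} (hik : i ≠ k) (g₀ : Gr V) {j l : V}
    (hj : j ∈ RR i k g₀) (hl : l ∈ RR i k g₀) (hjl : j ≠ l) : Good i k j l :=
  ⟨hik, hjl, (hRR i k g₀ j hj).1.symm, (hRR i k g₀ l hl).1.symm, (hRR i k g₀ j hj).2.symm,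
    (hRR i k g₀ l hl).2.symm⟩

omit [Fintype V] in
theorem mem_swpG {j l : V} {S : Finset V} {x : V} : x ∈ swp j l S ↔ Equiv.swap j l x ∈ S := by
  unfold swp
  rw [mem_map_equiv, Equiv.symm_swap]

omit [Fintype V] in
theorem swp_memG {R : Finset V} {t : ℕ} {j l : V} (hj : j ∈ R) (hl : l ∈ R) {S : Finset V}
    (hS : S ∈ powersetCard t R) : swp j l S ∈ powersetCard t R := by
  rw [mem_powersetCard] at hS ⊢
  refine ⟨?_, by unfold swp; rw [card_map]; exact hS.2⟩
  intro x hx
  rw [mem_swpG] at hx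
  have := hS.1 hx
  by_cases h1 : x = j
  · rw [h1]; exact hj
  by_cases h2 : x = l
  · rw [h2]; exact hl
  rwa [Equiv.swap_apply_of_ne_of_ne h1 h2] at this

theorem sw_GG {i k : V} (hik : i ≠ k) (g₀ : Gr V) {S : Finset V}
    {j l : V} (hj : j ∈ RR i k g₀) (hl : l ∈ RR i k g₀) (hjl : j ≠ l) :
    sw i k j l (GG i k g₀ (RR i k g₀) S) = GG i k g₀ (RR i k g₀) (swp j l S) := by
  have hR := hRR i k g₀
  have hji := (hR j hj).1
  have hjk := (hR j hj).2
  have hli := (hR l hl).1
  have hlk := (hR l hl).2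
  by_cases hc : isC i k j l (GG i k g₀ (RR i k g₀) S)
  · have hc' := (isC_GG hik g₀ S hj hl).1 hc
    funext e
    by_cases he : ∃ x ∈ RR i k g₀, e = s(i, x) ∨ e = s(k, x)
    · obtain ⟨x, hx, h⟩ := he
      have hxi := (hR x hx).1
      have hxk := (hR x hx).2
      by_cases hxj : x = j
      · subst hxj
        rw [sw_in hc (by rcases h with rfl | rfl <;> simp)]
        rcases h with rfl | rfl
        · rw [GG_i hik g₀ hR _ hx, GG_i hik g₀ hR _ hx]
          by_cases h1 : x ∈ S <;> by_cases h2 : l ∈ S <;> simp_all [mem_swpG]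
        · rw [GG_k hik g₀ hR _ hx, GG_k hik g₀ hR _ hx]
          by_cases h1 : x ∈ S <;> by_cases h2 : l ∈ S <;> simp_all [mem_swpG]
      by_cases hxl : x = l
      · subst hxl
        rw [sw_in hc (by rcases h with rfl | rfl <;> simp)]
        rcases h with rfl | rfl
        · rw [GG_i hik g₀ hR _ hx, GG_i hik g₀ hR _ hx]
          by_cases h1 : x ∈ S <;> by_cases h2 : j ∈ S <;> simp_all [mem_swpG]
        · rw [GG_k hik g₀ hR _ hx, GG_k hik g₀ hR _ hx]
          by_cases h1 : x ∈ S <;> by_cases h2 : j ∈ S <;> simp_all [mem_swpG]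
      have hsx : x ∈ swp j l S ↔ x ∈ S := by
        rw [mem_swpG, Equiv.swap_apply_of_ne_of_ne hxj hxl]
      rw [sw_other]
      · rcases h with rfl | rfl
        · rw [GG_i hik g₀ hR _ hx, GG_i hik g₀ hR _ hx]
          simp [hsx]
        · rw [GG_k hik g₀ hR _ hx, GG_k hik g₀ hR _ hx]
          simp [hsx]
      · rcases h with rfl | rfl <;> simp only [Sym2.eq_iff] <;> tauto
    · push Not at he
      rw [sw_other, GG_other g₀ _ he, GG_other g₀ _ he]
      rintro (h | h | h | h)
      · exact (he j hj).1 h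
      · exact (he l hl).1 h
      · exact (he j hj).2 h
      · exact (he l hl).2 h
  · rw [sw_of_not_isC hc]
    rw [isC_GG hik g₀ S hj hl, not_not] at hc
    congr 1
    ext x
    rw [mem_swpG]
    by_cases h1 : x = j
    · subst h1; rw [Equiv.swap_apply_left]; exact hc
    by_cases h2 : x = l
    · subst h2; rw [Equiv.swap_apply_right]; exact hc.symm
    rw [Equiv.swap_apply_of_ne_of_ne h1 h2]

/-- Reorganise the sum over good pairs. -/
theorem sum_good {i k : V} (hik : i ≠ k) (g₀ : Gr V) (F : V → V → ℝ)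
    (hF : ∀ j l, Good i k j l → ¬ (j ∈ RR i k g₀ ∧ l ∈ RR i k g₀) → F j l = 0) :
    ∑ j, ∑ l, (if Good i k j l then F j l else 0) =
      ∑ j ∈ RR i k g₀, ∑ l ∈ (RR i k g₀).erase j, F j l := by
  rw [← sum_subset (subset_univ (RR i k g₀))]
  · refine sum_congr rfl fun j hj => ?_
    rw [← sum_subset (subset_univ ((RR i k g₀).erase j))]
    · refine sum_congr rfl fun l hl => ?_
      rw [mem_erase] at hl
      rw [if_pos (good_of_mem hik g₀ hj hl.2 hl.1.symm)]
    · intro l _ hl
      split_ifs with h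
      · refine hF j l h fun h' => hl ?_
        rw [mem_erase]
        exact ⟨h.2.1.symm, h'.2⟩
      · rfl
  · intro j _ hj
    refine sum_eq_zero fun l _ => ?_
    split_ifs with h
    · exact hF j l h fun h' => hj h'.1
    · rfl

theorem sum_dv_slice {i k : V} (hik : i ≠ k) (g₀ : Gr V) (f : Gr V → ℝ) :
    ∑ S ∈ powersetCard (TT i k g₀).card (RR i k g₀),
      dv (pairRel i k) f (GG i k g₀ (RR i k g₀) S) = 0 := by
  rw [← sum_cls_slice hik g₀ (dv (pairRel i k) f)]
  have h := av_dv (pairRel i k) f g₀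
  unfold av at h
  exact (div_eq_zero_iff.1 h).resolve_right (cls_card_ne _ _)

/-- The right side on one class. -/
theorem rhs_slice {i k : V} (hik : i ≠ k) (g₀ : Gr V) (f : Gr V → ℝ) :
    ∑ g ∈ cls (pairRel i k) g₀, ∑ j, ∑ l,
      (if Good i k j l then ((f g - f (sw i k j l g)) / 2) ^ 2 else 0) =
    ∑ j ∈ RR i k g₀, ∑ l ∈ (RR i k g₀).erase j,
      ∑ S ∈ powersetCard (TT i k g₀).card (RR i k g₀),
        ((dv (pairRel i k) f (GG i k g₀ (RR i k g₀) S) -
          dv (pairRel i k) f (GG i k g₀ (RR i k g₀) (swp j l S))) / 2) ^ 2 := by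
  have h1 : ∑ g ∈ cls (pairRel i k) g₀, ∑ j, ∑ l,
      (if Good i k j l then ((f g - f (sw i k j l g)) / 2) ^ 2 else 0) =
      ∑ j, ∑ l, (if Good i k j l then
        ∑ g ∈ cls (pairRel i k) g₀, ((f g - f (sw i k j l g)) / 2) ^ 2 else 0) := by
    rw [sum_comm]
    refine sum_congr rfl fun j _ => ?_
    rw [sum_comm]
    refine sum_congr rfl fun l _ => ?_
    split_ifs
    · rfl
    · exact sum_const_zero
  rw [h1, sum_good hik g₀]
  · refine sum_congr rfl fun j hj => sum_congr rfl fun l hl => ?_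
    rw [mem_erase] at hl
    rw [sum_cls_slice hik g₀]
    refine sum_congr rfl fun S hS => ?_
    have hg := good_of_mem hik g₀ hj hl.2 hl.1.symm
    have h2 := pairRel_sw i k j l hg (GG i k g₀ (RR i k g₀) S)
    rw [← sw_GG hik g₀ hj hl.2 hl.1.symm]
    unfold dv
    rw [av_congr f h2]
    ring
  · intro j l hg hR
    refine sum_eq_zero fun g hgc => ?_
    have : ¬ isC i k j l g := fun hc => by
      have := isC_RR hg hc
      rw [← RR_congr (mem_cls.1 hgc)] at this
      exact hR this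
    rw [sw_of_not_isC this]
    simp

theorem slice_graph (i k : V) (hik : i ≠ k) (f : Gr V → ℝ) :
    ∑ j, ∑ l, (if Good i k j l then ∑ g with isC i k j l g,
        cav (pairRel i k) (isC i k j l) (dv (pairRel i k) f) g ^ 2 else 0) ≤
      ∑ j, ∑ l, (if Good i k j l then ∑ g, ((f g - f (sw i k j l g)) / 2) ^ 2 else 0) := by
  classical
  have hl : ∑ j, ∑ l, (if Good i k j l then ∑ g with isC i k j l g,
        cav (pairRel i k) (isC i k j l) (dv (pairRel i k) f) g ^ 2 else 0) =
      ∑ g, ∑ j, ∑ l, (if Good i k j l then (if isC i k j l g then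
        cav (pairRel i k) (isC i k j l) (dv (pairRel i k) f) g ^ 2 else 0) else 0) := by
    symm
    rw [sum_comm]
    refine sum_congr rfl fun j _ => ?_
    rw [sum_comm]
    refine sum_congr rfl fun l _ => ?_
    split_ifs
    · rw [sum_filter]
    · exact sum_const_zero
  have hr : ∑ j, ∑ l, (if Good i k j l then ∑ g, ((f g - f (sw i k j l g)) / 2) ^ 2 else 0) =
      ∑ g, ∑ j, ∑ l, (if Good i k j l then ((f g - f (sw i k j l g)) / 2) ^ 2 else 0) := by
    symm
    rw [sum_comm]
    refine sum_congr rfl fun j _ => ?_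
    rw [sum_comm]
    refine sum_congr rfl fun l _ => ?_
    split_ifs
    · rfl
    · exact sum_const_zero
  rw [hl, hr]
  refine sum_le_of_cls (pairRel i k) _ _ fun g₀ => ?_
  rw [rhs_slice hik g₀ f]
  refine le_trans (le_of_eq ?_) (slice_main (RR i k g₀) (TT i k g₀).card
    (fun S => dv (pairRel i k) f (GG i k g₀ (RR i k g₀) S)) (sum_dv_slice hik g₀ f))
  have h1 : ∑ g ∈ cls (pairRel i k) g₀, ∑ j, ∑ l, (if Good i k j l then (if isC i k j l g then
        cav (pairRel i k) (isC i k j l) (dv (pairRel i k) f) g ^ 2 else 0) else 0) =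
      ∑ j, ∑ l, (if Good i k j l then
        ∑ g ∈ cls (pairRel i k) g₀, (if isC i k j l g then
        cav (pairRel i k) (isC i k j l) (dv (pairRel i k) f) g ^ 2 else 0) else 0) := by
    rw [sum_comm]
    refine sum_congr rfl fun j _ => ?_
    rw [sum_comm]
    refine sum_congr rfl fun l _ => ?_
    split_ifs
    · rfl
    · exact sum_const_zero
  rw [h1, sum_good hik g₀]
  · refine sum_congr rfl fun j hj => sum_congr rfl fun l hl => ?_
    rw [mem_erase] at hl
    have hfil : ∀ F : Gr V → ℝ, ∑ g ∈ (cls (pairRel i k) g₀).filter (isC i k j l), F g =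
        ∑ S ∈ unl (RR i k g₀) (TT i k g₀).card j l, F (GG i k g₀ (RR i k g₀) S) := by
      intro F
      rw [sum_filter, sum_cls_slice hik g₀]
      unfold unl
      rw [sum_filter]
      refine sum_congr rfl fun S hS => ?_
      simp only [isC_GG hik g₀ S hj hl.2]
    have hcard : (((cls (pairRel i k) g₀).filter (isC i k j l)).card : ℝ) =
        ((unl (RR i k g₀) (TT i k g₀).card j l).card : ℝ) := by
      have h := hfil (fun _ => (1 : ℝ))
      simpa only [sum_const, nsmul_eq_mul, mul_one] using h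
    rw [← sum_filter, hfil]
    refine sum_congr rfl fun S hS => ?_
    have hS' : S ∈ powersetCard (TT i k g₀).card (RR i k g₀) := by
      unfold unl at hS; exact (mem_filter.1 hS).1
    rw [← cav_congr (isC i k j l) _ (GG_mem hik g₀ hS')]
    unfold cav
    congr 2
    · rw [← hfil]
      refine sum_congr ?_ fun _ _ => rfl
      ext g; simp
    · rw [← hcard]
      congr 2
      ext g; simp
  · intro j l hg hR
    refine sum_eq_zero fun g hgc => ?_
    rw [if_neg]
    intro hc
    have := isC_RR hg hc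
    rw [← RR_congr (mem_cls.1 hgc)] at this
    exact hR this

theorem poincare_graph (i k : V) (hik : i ≠ k) (f : Gr V → ℝ) :
    ∑ g, dv (pairRel i k) f g ^ 2 ≤
      (1 / 2) * ∑ j, ∑ l, (if Good i k j l then
        ∑ g, ((f g - f (sw i k j l g)) / 2) ^ 2 else 0) := by
  have hr : ∑ j, ∑ l, (if Good i k j l then ∑ g, ((f g - f (sw i k j l g)) / 2) ^ 2 else 0) =
      ∑ g, ∑ j, ∑ l, (if Good i k j l then ((f g - f (sw i k j l g)) / 2) ^ 2 else 0) := by
    symm
    rw [sum_comm]
    refine sum_congr rfl fun j _ => ?_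
    rw [sum_comm]
    refine sum_congr rfl fun l _ => ?_
    split_ifs
    · rfl
    · exact sum_const_zero
  rw [hr, mul_sum]
  refine sum_le_of_cls (pairRel i k) _ _ fun g₀ => ?_
  rw [← mul_sum, rhs_slice hik g₀ f, sum_cls_slice hik g₀]
  exact slice_poincare (RR i k g₀) (TT i k g₀).card
    (fun S => dv (pairRel i k) f (GG i k g₀ (RR i k g₀) S)) (sum_dv_slice hik g₀ f)

end Vale.Agent.KTV
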