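import Vale.Agent.KTV.Tri
import Vale.Agent.KTV.CrossGraph
import Vale.Agent.KTV.SliceGraph
import Vale.Agent.KTV.Conn
import Vale.Agent.KTV.Switch

/-!
Assembly of the spectral gap on graphs.
-/

open Finset

namespace Vale.Agent.KTV

variable {V : Type*} [Fintype V] [DecidableEq V]

/-- Splitting an ordered pair of ordered pairs by how they meet. -/
theorem split_pairs (G : V → V → V → V → ℝ) (i k : V) (hik : i ≠ k)
    (h1 : ∀ j l, G i k j l = G i k l j) :
    ∑ j, ∑ l, (if j ≠ l then G i k j l else 0) =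
      2 * G i k i k + 2 * ∑ l, (if l ≠ i ∧ l ≠ k then G i k i l else 0)
        + 2 * ∑ l, (if l ≠ i ∧ l ≠ k then G i k k l else 0)
        + ∑ j, ∑ l, (if Good i k j l then G i k j l else 0) := by
  have key : ∀ j l, (if j ≠ l then G i k j l else 0) =
      (if j = i then (if l = k then G i k j l else 0) else 0)
      + (if j = k then (if l = i then G i k j l else 0) else 0)
      + (if j = i then (if l ≠ i ∧ l ≠ k then G i k j l else 0) else 0)
      + (if l = i then (if j ≠ i ∧ j ≠ k then G i k j l else 0) else 0)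
      + (if j = k then (if l ≠ i ∧ l ≠ k then G i k j l else 0) else 0)
      + (if l = k then (if j ≠ i ∧ j ≠ k then G i k j l else 0) else 0)
      + (if Good i k j l then G i k j l else 0) := by
    intro j l
    unfold Good
    by_cases hji : j = i
    · subst hji
      by_cases hlk : l = k
      · subst hlk; simp [hik, hik.symm]
      · by_cases hlj : l = j
        · subst hlj; simp [hik]
        · simp [hik, hlk, hlj, Ne.symm hlj]
    · by_cases hjk : j = k
      · subst hjk
        by_cases hli : l = i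
        · subst hli; simp [hik, hik.symm]
        · by_cases hlj : l = j
          · subst hlj; simp [hik.symm]
          · simp [hik.symm, hli, hlj, Ne.symm hlj]
      · by_cases hli : l = i
        · subst hli; simp [hji, hjk, hik]
        · by_cases hlk : l = k
          · subst hlk; simp [hji, hjk, hli]
          · simp [hji, hjk, hli, hlk, hik, Ne.symm hji, Ne.symm hjk, Ne.symm hli, Ne.symm hlk]
  simp only [key, sum_add_distrib]
  have e1 : ∑ j, ∑ l, (if j = i then (if l = k then G i k j l else 0) else 0) = G i k i k := by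
    rw [sum_eq_single i (fun j _ hj => by simp [hj]) (by simp)]
    simp
  have e2 : ∑ j, ∑ l, (if j = k then (if l = i then G i k j l else 0) else 0) = G i k i k := by
    rw [sum_eq_single k (fun j _ hj => by simp [hj]) (by simp)]
    simp [h1 k i]
  have e3 : ∑ j, ∑ l, (if j = i then (if l ≠ i ∧ l ≠ k then G i k j l else 0) else 0) =
      ∑ l, (if l ≠ i ∧ l ≠ k then G i k i l else 0) := by
    rw [sum_eq_single i (fun j _ hj => by simp [hj]) (by simp)]
    simp
  have e4 : ∑ j, ∑ l, (if l = i then (if j ≠ i ∧ j ≠ k then G i k j l else 0) else 0) =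
      ∑ l, (if l ≠ i ∧ l ≠ k then G i k i l else 0) := by
    refine sum_congr rfl fun j _ => ?_
    rw [sum_ite_eq' univ i]
    simp [h1 j i]
  have e5 : ∑ j, ∑ l, (if j = k then (if l ≠ i ∧ l ≠ k then G i k j l else 0) else 0) =
      ∑ l, (if l ≠ i ∧ l ≠ k then G i k k l else 0) := by
    rw [sum_eq_single k (fun j _ hj => by simp [hj]) (by simp)]
    simp
  have e6 : ∑ j, ∑ l, (if l = k then (if j ≠ i ∧ j ≠ k then G i k j l else 0) else 0) =
      ∑ l, (if l ≠ i ∧ l ≠ k then G i k k l else 0) := by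
    refine sum_congr rfl fun j _ => ?_
    rw [sum_ite_eq' univ k]
    simp [h1 j k]
  rw [e1, e2, e3, e4, e5, e6]
  ring

/-- The mixed product of the deviations of two pairs. -/
noncomputable def gapG (f : Gr V → ℝ) (i k j l : V) : ℝ :=
  ∑ g, dv (pairRel i k) f g * dv (pairRel j l) f g

theorem gapG_left (f : Gr V → ℝ) (i k j l : V) : gapG f i k j l = gapG f k i j l := by
  unfold gapG; rw [pairRel_comm i k]

theorem gapG_right (f : Gr V → ℝ) (i k j l : V) : gapG f i k j l = gapG f i k l j := by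
  unfold gapG; rw [pairRel_comm j l]

theorem gapG_swap (f : Gr V → ℝ) (i k j l : V) : gapG f i k j l = gapG f j l i k := by
  unfold gapG; exact sum_congr rfl fun g _ => mul_comm _ _

theorem isC_transpose (i k j l : V) (g : Gr V) : isC i k j l g ↔ isC j l i k g := by
  unfold isC
  rw [Sym2.eq_swap (a := j) (b := i), Sym2.eq_swap (a := l) (b := k),
    Sym2.eq_swap (a := j) (b := k), Sym2.eq_swap (a := l) (b := i)]
  constructor
  · rintro ⟨h1, h2, h3⟩
    exact ⟨h1, h2.symm, by rw [← h2]; exact h3⟩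
  · rintro ⟨h1, h2, h3⟩
    exact ⟨h1, h2.symm, by rw [← h2]; exact h3⟩

theorem sw_transpose (i k j l : V) (g : Gr V) : sw i k j l g = sw j l i k g := by
  funext e
  unfold sw
  rw [Sym2.eq_swap (a := j) (b := i), Sym2.eq_swap (a := l) (b := k),
    Sym2.eq_swap (a := j) (b := k), Sym2.eq_swap (a := l) (b := i)]
  have h := isC_transpose i k j l g
  by_cases hc : isC i k j l g
  · have hc' := h.1 hc
    simp only [hc, hc', true_and]
    congr 1
    simp only [eq_iff_iff]
    tauto
  · have hc' : ¬ isC j l i k g := fun h' => hc (h.2 h')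
    simp [hc, hc']

/-- The energy of one switch. -/
noncomputable def gapA (f : Gr V → ℝ) (i k j l : V) : ℝ :=
  ∑ g, ((f g - f (sw i k j l g)) / 2) ^ 2

/-- The conditional square term. -/
noncomputable def gapQ (f : Gr V → ℝ) (i k j l : V) : ℝ :=
  ∑ g with isC i k j l g, cav (pairRel i k) (isC i k j l) (dv (pairRel i k) f) g ^ 2

theorem cross_gapG (f : Gr V → ℝ) (i k j l : V) (h : Good i k j l) :
    gapA f i k j l - (1 / 2) * gapQ f i k j l - (1 / 2) * gapQ f j l i k ≤ gapG f i k j l := by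
  have h1 := cross_graph i k j l h f
  have h2 : gapQ f j l i k = ∑ g with isC i k j l g,
      cav (pairRel j l) (isC i k j l) (dv (pairRel j l) f) g ^ 2 := by
    unfold gapQ
    have hP : isC j l i k = isC i k j l := by
      funext g; exact propext (isC_transpose i k j l g).symm
    refine sum_congr ?_ fun g _ => by rw [hP]
    ext g
    simp only [mem_filter, mem_univ, true_and]
    exact (isC_transpose i k j l g).symm
  rw [h2]
  exact h1

/-- Sum over four distinct vertices. -/
noncomputable def gapS (F : V → V → V → V → ℝ) : ℝ :=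
  ∑ i, ∑ k, ∑ j, ∑ l, if Good i k j l then F i k j l else 0

theorem Good_transpose (i k j l : V) : Good i k j l ↔ Good j l i k := by
  unfold Good
  constructor
  · rintro ⟨h1, h2, h3, h4, h5, h6⟩
    exact ⟨h2, h1, h3.symm, h5.symm, h4.symm, h6.symm⟩
  · rintro ⟨h1, h2, h3, h4, h5, h6⟩
    exact ⟨h2, h1, h3.symm, h5.symm, h4.symm, h6.symm⟩

theorem gapS_transpose (F : V → V → V → V → ℝ) :
    gapS (fun i k j l => F j l i k) = gapS F := by
  unfold gapS
  calc ∑ i, ∑ k, ∑ j, ∑ l, (if Good i k j l then F j l i k else 0)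
      = ∑ i, ∑ k, ∑ j, ∑ l, (if Good j l i k then F j l i k else 0) := by
        refine sum_congr rfl fun i _ => sum_congr rfl fun k _ => sum_congr rfl fun j _ =>
          sum_congr rfl fun l _ => ?_
        exact if_congr (Good_transpose i k j l) rfl rfl
    _ = ∑ i, ∑ j, ∑ k, ∑ l, (if Good j l i k then F j l i k else 0) := by
        exact sum_congr rfl fun i _ => sum_comm
    _ = ∑ j, ∑ i, ∑ k, ∑ l, (if Good j l i k then F j l i k else 0) := sum_comm
    _ = ∑ j, ∑ i, ∑ l, ∑ k, (if Good j l i k then F j l i k else 0) := by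
        exact sum_congr rfl fun j _ => sum_congr rfl fun i _ => sum_comm
    _ = ∑ j, ∑ l, ∑ i, ∑ k, (if Good j l i k then F j l i k else 0) := by
        exact sum_congr rfl fun j _ => sum_comm

theorem gapS_gapG_nonneg (f : Gr V → ℝ) : 0 ≤ gapS (gapG f) := by
  have h1 : gapS (fun i k j l => gapA f i k j l - (1 / 2) * gapQ f i k j l - (1 / 2) * gapQ f j l i k)
      ≤ gapS (gapG f) := by
    unfold gapS
    refine sum_le_sum fun i _ => sum_le_sum fun k _ => sum_le_sum fun j _ =>
      sum_le_sum fun l _ => ?_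
    split_ifs with h
    · exact cross_gapG f i k j l h
    · exact le_rfl
  have h2 : gapS (fun i k j l => gapA f i k j l - (1 / 2) * gapQ f i k j l - (1 / 2) * gapQ f j l i k)
      = gapS (gapA f) - (1 / 2) * gapS (gapQ f) - (1 / 2) * gapS (fun i k j l => gapQ f j l i k) := by
    unfold gapS
    simp only [mul_sum, ← sum_sub_distrib]
    refine sum_congr rfl fun i _ => sum_congr rfl fun k _ => sum_congr rfl fun j _ =>
      sum_congr rfl fun l _ => ?_
    split_ifs <;> ring
  have h3 : gapS (gapQ f) ≤ gapS (gapA f) := by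
    unfold gapS
    refine sum_le_sum fun i _ => sum_le_sum fun k _ => ?_
    by_cases hik : i = k
    · subst hik
      have : ∀ j l, ¬ Good i i j l := fun j l h => h.1 rfl
      simp [this]
    · exact slice_graph i k hik f
  have h4 := gapS_transpose (gapQ f)
  rw [h4] at h2
  linarith

theorem tri_sum_nonneg (f : Gr V → ℝ) :
    0 ≤ ∑ i, ∑ k, ∑ l, (if i ≠ k ∧ i ≠ l ∧ k ≠ l then gapG f i k i l else 0) := by
  have h : ∀ i j k : V, 0 ≤ (if i ≠ j ∧ i ≠ k ∧ j ≠ k then
      (gapG f j i j k + gapG f k j k i + gapG f i j i k) else 0) := by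
    intro i j k
    split_ifs with h
    · have := tri_graph i j k h.1 h.2.2 h.2.1 f
      rw [sum_add_distrib, sum_add_distrib] at this
      have e1 : gapG f j i j k = ∑ g, dv (pairRel i j) f g * dv (pairRel j k) f g := by
        unfold gapG; rw [pairRel_comm i j]
      have e2 : gapG f k j k i = ∑ g, dv (pairRel j k) f g * dv (pairRel i k) f g := by
        unfold gapG; rw [pairRel_comm j k, pairRel_comm i k]
      rw [e1, e2]
      exact this
    · exact le_rfl
  have hs : 0 ≤ ∑ i, ∑ j, ∑ k, (if i ≠ j ∧ i ≠ k ∧ j ≠ k then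
      (gapG f j i j k + gapG f k j k i + gapG f i j i k) else 0) :=
    sum_nonneg fun i _ => sum_nonneg fun j _ => sum_nonneg fun k _ => h i j k
  have e : ∑ i, ∑ j, ∑ k, (if i ≠ j ∧ i ≠ k ∧ j ≠ k then
      (gapG f j i j k + gapG f k j k i + gapG f i j i k) else 0) =
      3 * ∑ i, ∑ k, ∑ l, (if i ≠ k ∧ i ≠ l ∧ k ≠ l then gapG f i k i l else 0) := by
    have a1 : ∑ i, ∑ j, ∑ k, (if i ≠ j ∧ i ≠ k ∧ j ≠ k then gapG f j i j k else 0) =
        ∑ i, ∑ k, ∑ l, (if i ≠ k ∧ i ≠ l ∧ k ≠ l then gapG f i k i l else 0) := by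
      rw [sum_comm]
      refine sum_congr rfl fun j _ => sum_congr rfl fun i _ => sum_congr rfl fun k _ => ?_
      refine if_congr ?_ rfl rfl
      constructor
      · rintro ⟨a, b, c⟩; exact ⟨a.symm, c, b⟩
      · rintro ⟨a, b, c⟩; exact ⟨a.symm, c, b⟩
    have a2 : ∑ i, ∑ j, ∑ k, (if i ≠ j ∧ i ≠ k ∧ j ≠ k then gapG f k j k i else 0) =
        ∑ i, ∑ k, ∑ l, (if i ≠ k ∧ i ≠ l ∧ k ≠ l then gapG f i k i l else 0) := by
      calc ∑ i, ∑ j, ∑ k, (if i ≠ j ∧ i ≠ k ∧ j ≠ k then gapG f k j k i else 0)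
          = ∑ i, ∑ k, ∑ j, (if i ≠ j ∧ i ≠ k ∧ j ≠ k then gapG f k j k i else 0) :=
            sum_congr rfl fun i _ => sum_comm
        _ = ∑ k, ∑ i, ∑ j, (if i ≠ j ∧ i ≠ k ∧ j ≠ k then gapG f k j k i else 0) := sum_comm
        _ = ∑ k, ∑ j, ∑ i, (if i ≠ j ∧ i ≠ k ∧ j ≠ k then gapG f k j k i else 0) :=
            sum_congr rfl fun i _ => sum_comm
        _ = _ := by
            refine sum_congr rfl fun k _ => sum_congr rfl fun j _ => sum_congr rfl fun i _ => ?_
            refine if_congr ?_ rfl rfl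
            constructor
            · rintro ⟨a, b, c⟩; exact ⟨c.symm, b.symm, a.symm⟩
            · rintro ⟨a, b, c⟩; exact ⟨c.symm, b.symm, a.symm⟩
    have a3 : ∑ i, ∑ j, ∑ k, (if i ≠ j ∧ i ≠ k ∧ j ≠ k then
        (gapG f j i j k + gapG f k j k i + gapG f i j i k) else 0) =
        ∑ i, ∑ j, ∑ k, (if i ≠ j ∧ i ≠ k ∧ j ≠ k then gapG f j i j k else 0) +
        ∑ i, ∑ j, ∑ k, (if i ≠ j ∧ i ≠ k ∧ j ≠ k then gapG f k j k i else 0) +
        ∑ i, ∑ j, ∑ k, (if i ≠ j ∧ i ≠ k ∧ j ≠ k then gapG f i j i k else 0) := by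
      simp only [← sum_add_distrib]
      refine sum_congr rfl fun i _ => sum_congr rfl fun j _ => sum_congr rfl fun k _ => ?_
      split_ifs <;> ring
    rw [a3, a1, a2]
    ring
  rw [e] at hs
  linarith

/-- The index set of ordered pairs of distinct vertices. -/
def gapB (V : Type*) [Fintype V] [DecidableEq V] : Finset (V × V) := univ.filter (fun p => p.1 ≠ p.2)

theorem sum_gapB (F : V → V → ℝ) :
    ∑ p ∈ gapB V, F p.1 p.2 = ∑ i, ∑ k, (if i ≠ k then F i k else 0) := by
  unfold gapB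
  rw [sum_filter, ← univ_product_univ, sum_product]

/-- The square of the sum of all deviations dominates twice the energy. -/
theorem sq_ineq (f : Gr V → ℝ) :
    2 * ∑ b ∈ gapB V, ∑ g, dv (pairRel b.1 b.2) f g ^ 2 ≤
      ∑ g, (∑ b ∈ gapB V, dv (pairRel b.1 b.2) f g) ^ 2 := by
  have e1 : ∑ g, (∑ b ∈ gapB V, dv (pairRel b.1 b.2) f g) ^ 2 =
      ∑ i, ∑ k, (if i ≠ k then ∑ j, ∑ l, (if j ≠ l then gapG f i k j l else 0) else 0) := by
    have : ∀ g, (∑ b ∈ gapB V, dv (pairRel b.1 b.2) f g) ^ 2 =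
        ∑ b ∈ gapB V, ∑ b' ∈ gapB V, dv (pairRel b.1 b.2) f g * dv (pairRel b'.1 b'.2) f g := by
      intro g; rw [sq, sum_mul_sum]
    rw [sum_congr rfl fun g _ => this g, sum_comm]
    have e2 : ∀ b ∈ gapB V, ∑ g, ∑ b' ∈ gapB V,
        dv (pairRel b.1 b.2) f g * dv (pairRel b'.1 b'.2) f g =
        ∑ j, ∑ l, (if j ≠ l then gapG f b.1 b.2 j l else 0) := by
      intro b _
      rw [sum_comm]
      exact sum_gapB (fun j l => gapG f b.1 b.2 j l)
    rw [sum_congr rfl e2]
    exact sum_gapB (fun i k => ∑ j, ∑ l, (if j ≠ l then gapG f i k j l else 0))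
  have e3 : ∑ b ∈ gapB V, ∑ g, dv (pairRel b.1 b.2) f g ^ 2 =
      ∑ i, ∑ k, (if i ≠ k then gapG f i k i k else 0) := by
    rw [← sum_gapB (fun i k => gapG f i k i k)]
    refine sum_congr rfl fun b _ => ?_
    unfold gapG
    exact sum_congr rfl fun g _ => sq _
  have e4 : ∑ i, ∑ k, (if i ≠ k then ∑ j, ∑ l, (if j ≠ l then gapG f i k j l else 0) else 0) =
      2 * ∑ i, ∑ k, (if i ≠ k then gapG f i k i k else 0)
      + 2 * ∑ i, ∑ k, ∑ l, (if i ≠ k ∧ i ≠ l ∧ k ≠ l then gapG f i k i l else 0)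
      + 2 * ∑ i, ∑ k, ∑ l, (if i ≠ k ∧ i ≠ l ∧ k ≠ l then gapG f i k k l else 0)
      + gapS (gapG f) := by
    unfold gapS
    simp only [mul_sum, ← sum_add_distrib]
    refine sum_congr rfl fun i _ => sum_congr rfl fun k _ => ?_
    by_cases hik : i = k
    · subst hik
      have : ∀ j l, ¬ Good i i j l := fun j l h => h.1 rfl
      simp [this]
    · rw [if_pos hik, if_pos hik, split_pairs (gapG f) i k hik (fun j l => gapG_right f i k j l)]
      have hc : ∀ l, (i ≠ k ∧ i ≠ l ∧ k ≠ l) ↔ (l ≠ i ∧ l ≠ k) := fun l =>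
        ⟨fun h => ⟨h.2.1.symm, h.2.2.symm⟩, fun h => ⟨hik, h.1.symm, h.2.symm⟩⟩
      simp only [hc, mul_sum, sum_add_distrib]
  have e5 : ∑ i, ∑ k, ∑ l, (if i ≠ k ∧ i ≠ l ∧ k ≠ l then gapG f i k k l else 0) =
      ∑ i, ∑ k, ∑ l, (if i ≠ k ∧ i ≠ l ∧ k ≠ l then gapG f i k i l else 0) := by
    rw [sum_comm]
    refine sum_congr rfl fun k _ => sum_congr rfl fun i _ => sum_congr rfl fun l _ => ?_
    rw [gapG_left]
    refine if_congr ?_ rfl rfl
    constructor
    · rintro ⟨a, b, c⟩; exact ⟨a.symm, c, b⟩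
    · rintro ⟨a, b, c⟩; exact ⟨a.symm, c, b⟩
  rw [e1, e3, e4, e5]
  have t1 := tri_sum_nonneg f
  have t2 := gapS_gapG_nonneg f
  linarith

theorem inv_of_dv_eq_zero (f : Gr V → ℝ) (i k : V) (h : ∀ g, dv (pairRel i k) f g = 0)
    {g g' : Gr V} (hg : (pairRel i k) g g') : f g = f g' := by
  have h1 := h g
  have h2 := h g'
  unfold dv at h1 h2
  rw [← av_congr f hg] at h2
  linarith

theorem gap_graph (f : Gr V → ℝ) (hf : ∀ g, ∑ h ∈ cls degRel g, f h = 0) :
    16 * ∑ g, f g ^ 2 ≤ gapS (fun i k j l => ∑ g, (f g - f (sw i k j l g)) ^ 2) := by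
  have h1 : 2 * ∑ g, f g ^ 2 ≤ ∑ b ∈ gapB V, ∑ g, dv (pairRel b.1 b.2) f g ^ 2 := by
    refine gap_of_sq (gapB V) (fun b => pairRel b.1 b.2) 2 (by norm_num) sq_ineq f ?_
    intro g hg
    have hconst : ∀ x y : Gr V, degRel x y → g x = g y := by
      intro x y hxy
      refine conn g ?_ x y hxy
      intro i k j l hG x
      have hb : (i, k) ∈ gapB V := by simp [gapB, hG.1]
      exact (inv_of_dv_eq_zero g i k (hg (i, k) hb) (pairRel_sw i k j l hG x)).symm
    have h2 : ∑ x, f x * g x = ∑ x, f x * av degRel g x := by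
      refine sum_congr rfl fun x _ => ?_
      rw [av_eq_of_inv degRel g x (fun y hy => (hconst x y hy).symm)]
    rw [h2, sum_mul_av]
    refine sum_eq_zero fun x _ => ?_
    unfold av
    rw [hf x]
    simp
  have h2 : ∑ b ∈ gapB V, ∑ g, dv (pairRel b.1 b.2) f g ^ 2 ≤
      ∑ b ∈ gapB V, (1 / 2) * ∑ j, ∑ l, (if Good b.1 b.2 j l then
        ∑ g, ((f g - f (sw b.1 b.2 j l g)) / 2) ^ 2 else 0) := by
    refine sum_le_sum fun b hb => ?_
    exact poincare_graph b.1 b.2 (by simpa [gapB] using hb) f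
  have h3 : ∑ b ∈ gapB V, (1 / 2) * ∑ j, ∑ l, (if Good b.1 b.2 j l then
        ∑ g, ((f g - f (sw b.1 b.2 j l g)) / 2) ^ 2 else 0) =
      (1 / 8) * gapS (fun i k j l => ∑ g, (f g - f (sw i k j l g)) ^ 2) := by
    rw [sum_gapB (fun i k => (1 / 2) * ∑ j, ∑ l, (if Good i k j l then
        ∑ g, ((f g - f (sw i k j l g)) / 2) ^ 2 else 0))]
    unfold gapS
    simp only [mul_sum]
    refine sum_congr rfl fun i _ => sum_congr rfl fun k _ => ?_
    by_cases hik : i = k
    · subst hik
      have : ∀ j l, ¬ Good i i j l := fun j l h => h.1 rfl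
      simp [this]
    · rw [if_pos hik]
      refine sum_congr rfl fun j _ => sum_congr rfl fun l _ => ?_
      split_ifs
      · rw [mul_sum, mul_sum]
        refine sum_congr rfl fun g _ => ?_
        ring
      · ring
  linarith

end Vale.Agent.KTV
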