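import Vale.Agent.KTV.Avg

/-!
The three-row lemma in label form: maximum principle.

`C` is a finite set of columns, each of type A (`s x = true`, weight `+1`) or type B
(`s x = false`, weight `-1`).  A labeling is `l : C → Fin 3`.  The class of `l` under
`labRel s p` consists of all labelings with the same set of `p`-labelled columns and the same
three weights `wt s l q`.  Write `P p = av (labRel s p)`.

Paper proof.  Let `∑ p, P p f = lam * f` with `lam > 2`.

Step 1 (same-type swaps).  Let `α` be the maximum of `|f (l ∘ swap x y) - f l|` over all `l`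
and all `x y` with `s x = s y`.  Take a maximizer with `l x ≠ l y` (otherwise `α = 0`), say
`l x = p`, `l y = q`, third label `r`.  `σ = swap x y` preserves every relation
`labRel s k`, hence `P k (f ∘ σ) = (P k f) ∘ σ`, so `|P k f (l ∘ σ) - P k f l| ≤ α` for all `k`,
and for `k = r` the difference is `0` because `l ∘ σ` and `l` are `labRel s r`-related.
So `lam * α ≤ 2 * α`, hence `α = 0`.  So `f` is invariant under same-type swaps.

Step 2 (AB edges).  Let `β` be the maximum of `|f l' - f l|` over all `l`, `x` of type A, `y` of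
type B, `l x = l y = p`, and `l'` the labeling equal to `l` except `l' x = l' y = q ≠ p`.
At a maximizer let `r` be the third label.  `l` and `l'` are `labRel s r`-related, so
`P r f l' = P r f l`.  Claim: `|P p f l' - P p f l| ≤ β` and `|P q f l' - P q f l| ≤ β` (the
second is the first with the roles of `l`, `l'` exchanged).  So `lam * β ≤ 2 * β`, `β = 0`.

Proof of the claim (using `α = 0`).  Let `Z` be the set of columns with `l z ≠ p`, so
`x, y ∉ Z`.  The class of `l` under `labRel s p` is in bijection with the `k`-subsets of `Z`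
by `U = {z ∈ Z of type A, label q} ∪ {z ∈ Z of type B, label r}` where
`k = wt_q + (number of type B columns in Z)`.  In the same way the class of `l'` is in bijection
with the `(k+1)`-subsets `U'` of `Z ∪ {x,y}`.  Compare the labeling `l'_U'` with `l_U`
(`l_U` has `x,y` labelled `p`):
* exactly one of `x, y` in `U'`, `U' = U ∪ {x}` or `U ∪ {y}`: then `x, y` are both labelled `q`
  resp. both `r`, the rest agrees with `l_U`, so this is an AB edge and the difference is
  at most `β`;
* both in `U'`, `U' = U₀ ∪ {x,y}` with `|U₀| = k-1`: for each `z ∈ Z \ U₀`, `l'_U'` is obtained from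
  `l_(U₀ ∪ {z})` by one same-type swap (`z` with whichever of `x,y` has its type) and one AB edge;
* neither: `|U'| = k+1`: for each `z ∈ U'` the same holds for `l_(U' \ {z})`.
So each `l'_U'` is within `β` (as `α = 0`) of each of the `l_U` attached to it, and averaging
(double counting: adding a uniform element of `Z \ U₀` to a uniform `(k-1)`-set, or removing
a uniform element of a uniform `(k+1)`-set, gives a uniform `k`-set) gives
`|P p f l' - P p f l| ≤ β`.

Step 3.  With `α = β = 0`, `f` is constant on every `labRel s p`-class: in terms of `U`, replacing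
one element of `U` by one of `Z \ U` is a same-type swap (if both have the same type) or an AB
edge (if they have different types), and the `k`-subsets of `Z` are connected by such
exchanges.  So `P p f = f`.
-/

open Finset

namespace Vale.Agent.KTV


/-! ### generalities -/

theorem abs_av_le {α : Type*} [Fintype α] (r : Setoid α) (D : α → ℝ) (M : ℝ)
    (h : ∀ y, |D y| ≤ M) (x : α) : |av r D x| ≤ M := by
  unfold av
  have hc := cls_card_pos r x
  have hc' : (0 : ℝ) < ((cls r x).card : ℝ) := by exact_mod_cast hc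
  rw [abs_div, abs_of_pos hc', div_le_iff₀ hc']
  calc |∑ y ∈ cls r x, D y| ≤ ∑ y ∈ cls r x, |D y| := abs_sum_le_sum_abs _ _
    _ ≤ ∑ _y ∈ cls r x, M := sum_le_sum fun y _ => h y
    _ = M * ((cls r x).card : ℝ) := by rw [sum_const, nsmul_eq_mul, mul_comm]

theorem max_zero {ι : Type*} [Finite ι] (g : ι → ℝ) (lam : ℝ) (hlam : 2 < lam)
    (h : ∀ M, (∀ i, g i ≤ M) → ∀ i, lam * g i ≤ 2 * M) : ∀ i, g i ≤ 0 := by
  intro i
  have : Nonempty ι := ⟨i⟩
  obtain ⟨i0, hi0⟩ := Finite.exists_max g
  have h1 := h (g i0) hi0 i0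
  have h2 : g i0 ≤ 0 := by nlinarith
  exact (hi0 i).trans h2

theorem exists_third (p q : Fin 3) (h : q ≠ p) : ∃ r : Fin 3, r ≠ p ∧ r ≠ q := by
  revert p q; decide

theorem eq_third (p q r k : Fin 3) (h1 : q ≠ p) (h2 : r ≠ p) (h3 : r ≠ q) (h4 : k ≠ p)
    (h5 : k ≠ q) : k = r := by
  revert p q r k; decide

theorem sum_three (p q r : Fin 3) (h1 : q ≠ p) (h2 : r ≠ p) (h3 : r ≠ q) (g : Fin 3 → ℝ) :
    ∑ k, g k = g p + g q + g r := by
  fin_cases p <;> fin_cases q <;> fin_cases r <;> simp [Fin.sum_univ_three] at * <;> ring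

section

variable {C : Type*} [Fintype C] [DecidableEq C]

/-! ### same-type swaps -/

theorem wt_swap (s : C → Bool) {x y : C} (hs : s x = s y) (l : C → Fin 3) (q : Fin 3) :
    wt s (l ∘ Equiv.swap x y) q = wt s l q := by
  unfold wt
  rw [← Equiv.sum_comp (Equiv.swap x y)
    (fun z => if l z = q then (if s z = true then (1 : ℤ) else -1) else 0)]
  refine sum_congr rfl fun z _ => ?_
  have : s (Equiv.swap x y z) = s z := by
    by_cases h1 : z = x
    · subst h1; rw [Equiv.swap_apply_left, hs]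
    by_cases h2 : z = y
    · subst h2; rw [Equiv.swap_apply_right, hs]
    rw [Equiv.swap_apply_of_ne_of_ne h1 h2]
  simp only [Function.comp_apply, this]

theorem labRel_swap (s : C → Bool) {x y : C} (hs : s x = s y) (p : Fin 3) (l m : C → Fin 3) :
    labRel s p l m ↔ labRel s p (l ∘ Equiv.swap x y) (m ∘ Equiv.swap x y) := by
  constructor
  · rintro ⟨h1, h2⟩
    refine ⟨fun z => h1 _, fun q => ?_⟩
    rw [wt_swap s hs, wt_swap s hs]; exact h2 q
  · rintro ⟨h1, h2⟩
    refine ⟨fun z => ?_, fun q => ?_⟩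
    · have := h1 (Equiv.swap x y z)
      simpa using this
    · have := h2 q
      rwa [wt_swap s hs, wt_swap s hs] at this

theorem av_swap (s : C → Bool) {x y : C} (hs : s x = s y) (p : Fin 3) (f : (C → Fin 3) → ℝ)
    (l : C → Fin 3) :
    av (labRel s p) f (l ∘ Equiv.swap x y)
      = av (labRel s p) (fun m => f (m ∘ Equiv.swap x y)) l := by
  refine av_embed (labRel s p) (labRel s p) (fun m => m ∘ Equiv.swap x y) ?_
    (labRel_swap s hs p) ?_ f l
  · intro m m' h
    funext z
    have := congrFun h (Equiv.swap x y z)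
    simpa using this
  · intro m m' _
    refine ⟨m' ∘ Equiv.swap x y, ?_⟩
    funext z
    simp

theorem step_one (s : C → Bool) (f : (C → Fin 3) → ℝ) (lam : ℝ)
    (hf : ∀ l, ∑ p, av (labRel s p) f l = lam * f l) (hlam : 2 < lam)
    (l : C → Fin 3) (x y : C) (hs : s x = s y) : f (l ∘ Equiv.swap x y) = f l := by
  classical
  have key := max_zero (ι := (C → Fin 3) × C × C)
    (fun i => if s i.2.1 = s i.2.2 then |f (i.1 ∘ Equiv.swap i.2.1 i.2.2) - f i.1| else 0)
    lam hlam ?_
  · have h := key (l, x, y)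
    simp only [hs, if_true] at h
    have := abs_nonneg (f (l ∘ Equiv.swap x y) - f l)
    have h0 : |f (l ∘ Equiv.swap x y) - f l| = 0 := le_antisymm h this
    rw [abs_eq_zero] at h0
    linarith
  · rintro M hM ⟨l, x, y⟩
    have hM' : ∀ (l : C → Fin 3) (x y : C), s x = s y →
        |f (l ∘ Equiv.swap x y) - f l| ≤ M := by
      intro l x y hs
      have := hM (l, x, y)
      simpa only [hs, if_true] using this
    have hM0 : 0 ≤ M := by
      have := hM' l x x rfl
      exact (abs_nonneg _).trans this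
    by_cases hs : s x = s y
    swap
    · simp only [hs, if_false, mul_zero]; linarith
    simp only [hs, if_true]
    by_cases hl : l y = l x
    · have : l ∘ Equiv.swap x y = l := by
        funext z
        by_cases h1 : z = x
        · subst h1; simp [hl]
        by_cases h2 : z = y
        · subst h2; simp [hl]
        simp [Equiv.swap_apply_of_ne_of_ne h1 h2]
      rw [this, sub_self, abs_zero, mul_zero]; linarith
    · obtain ⟨r, hr1, hr2⟩ := exists_third (l x) (l y) hl
      have hlamD : lam * (f (l ∘ Equiv.swap x y) - f l)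
          = ∑ k, (av (labRel s k) f (l ∘ Equiv.swap x y) - av (labRel s k) f l) := by
        rw [sum_sub_distrib, hf, hf]; ring
      rw [sum_three (l x) (l y) r hl hr1 hr2] at hlamD
      have hr0 : av (labRel s r) f (l ∘ Equiv.swap x y) = av (labRel s r) f l := by
        refine av_congr f ⟨?_, fun q => wt_swap s hs l q⟩
        intro z
        by_cases h1 : z = x
        · subst h1
          simp only [Function.comp_apply, Equiv.swap_apply_left]
          exact ⟨fun h => absurd h.symm hr2, fun h => absurd h.symm hr1⟩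
        by_cases h2 : z = y
        · subst h2
          simp only [Function.comp_apply, Equiv.swap_apply_right]
          exact ⟨fun h => absurd h.symm hr1, fun h => absurd h.symm hr2⟩
        simp [Equiv.swap_apply_of_ne_of_ne h1 h2]
      have hk : ∀ k, |av (labRel s k) f (l ∘ Equiv.swap x y) - av (labRel s k) f l| ≤ M := by
        intro k
        rw [av_swap s hs, ← av_sub]
        exact abs_av_le _ _ M (fun m => hM' m x y hs) l
      have h1 := hk (l x)
      have h2 := hk (l y)
      rw [hr0, sub_self, add_zero] at hlamD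
      have h3 : lam * |f (l ∘ Equiv.swap x y) - f l| = |lam * (f (l ∘ Equiv.swap x y) - f l)| := by
        rw [abs_mul, abs_of_pos (by linarith : (0 : ℝ) < lam)]
      rw [h3, hlamD]
      calc _ ≤ |av (labRel s (l x)) f (l ∘ Equiv.swap x y) - av (labRel s (l x)) f l| +
            |av (labRel s (l y)) f (l ∘ Equiv.swap x y) - av (labRel s (l y)) f l| :=
            abs_add_le _ _
        _ ≤ 2 * M := by linarith

/-! ### parametrising a class by the `k`-subsets of a set -/

/-- The labeling attached to a subset `U` of `Z`. -/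
def Lam (s : C → Bool) (p q r : Fin 3) (Z U : Finset C) : C → Fin 3 := fun z =>
  if z ∈ Z then (if (z ∈ U ↔ s z = true) then q else r) else p

/-- The subset of `Z` attached to a labeling. -/
def Uof (s : C → Bool) (q : Fin 3) (Z : Finset C) (m : C → Fin 3) : Finset C :=
  Z.filter fun z => (m z = q ↔ s z = true)

theorem Lam_Uof (s : C → Bool) {p q r : Fin 3} (h1 : q ≠ p) (h2 : r ≠ p) (h3 : r ≠ q)
    {Z : Finset C} {m : C → Fin 3} (hm : ∀ z, z ∈ Z ↔ m z ≠ p) :
    Lam s p q r Z (Uof s q Z m) = m := by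
  funext z
  unfold Lam
  by_cases hz : z ∈ Z
  · rw [if_pos hz]
    have hmp : m z ≠ p := (hm z).mp hz
    by_cases hq : m z = q
    · rw [if_pos, hq]
      simp only [Uof, mem_filter, hz, true_and]; tauto
    · rw [if_neg, ← eq_third p q r (m z) h1 h2 h3 hmp hq]
      simp only [Uof, mem_filter, hz, true_and]; tauto
  · rw [if_neg hz]
    by_contra hc
    exact hz ((hm z).mpr (Ne.symm hc))

theorem Uof_Lam (s : C → Bool) {p q r : Fin 3} (h3 : r ≠ q)
    {Z U : Finset C} (hU : U ⊆ Z) : Uof s q Z (Lam s p q r Z U) = U := by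
  ext z
  simp only [Uof, mem_filter]
  constructor
  · rintro ⟨hz, h⟩
    unfold Lam at h
    rw [if_pos hz] at h
    by_cases hc : (z ∈ U ↔ s z = true)
    · rw [if_pos hc] at h; tauto
    · rw [if_neg hc] at h
      have : ¬ (s z = true) := fun hh => h3 (h.mpr hh)
      tauto
  · intro hzU
    refine ⟨hU hzU, ?_⟩
    unfold Lam
    rw [if_pos (hU hzU)]
    by_cases hc : (z ∈ U ↔ s z = true)
    · rw [if_pos hc]; tauto
    · rw [if_neg hc]
      exact ⟨fun h => absurd h h3, fun h => absurd (by tauto) hc⟩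

theorem Lam_eq_p_iff (s : C → Bool) {p q r : Fin 3} (h1 : q ≠ p) (h2 : r ≠ p)
    {Z U : Finset C} (z : C) : z ∈ Z ↔ Lam s p q r Z U z ≠ p := by
  unfold Lam
  by_cases hz : z ∈ Z
  · simp only [hz, if_true, true_iff]
    split_ifs <;> assumption
  · simp [hz]

theorem wt_q_eq (s : C → Bool) {p q r : Fin 3} (h1 : q ≠ p) 
    {Z : Finset C} {m : C → Fin 3} (hm : ∀ z, z ∈ Z ↔ m z ≠ p) :
    wt s m q = ((Uof s q Z m).card : ℤ) - ((Z.filter fun z => s z = false).card : ℤ) := by
  unfold wt Uof
  rw [card_filter, card_filter]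
  push_cast
  rw [← sum_sub_distrib, ← sum_filter_add_sum_filter_not univ (fun z => z ∈ Z)]
  have hz : ∑ z ∈ univ.filter (fun z => ¬ z ∈ Z),
      (if m z = q then (if s z = true then (1 : ℤ) else -1) else 0) = 0 := by
    refine sum_eq_zero fun z hz => ?_
    rw [mem_filter] at hz
    have : m z = p := by by_contra hc; exact hz.2 ((hm z).mpr hc)
    rw [if_neg (by rw [this]; exact Ne.symm h1)]
  rw [hz, add_zero]
  rw [show univ.filter (fun z => z ∈ Z) = Z by ext; simp]
  refine sum_congr rfl fun z _ => ?_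
  by_cases a : m z = q <;> by_cases b : s z = true <;> simp [a, b]

theorem wt_r_eq (s : C → Bool) {p q r : Fin 3} (h1 : q ≠ p) (h2 : r ≠ p) (h3 : r ≠ q)
    {Z : Finset C} {m : C → Fin 3} (hm : ∀ z, z ∈ Z ↔ m z ≠ p) :
    wt s m r = ((Z.filter fun z => s z = true).card : ℤ) - ((Uof s q Z m).card : ℤ) := by
  unfold wt Uof
  rw [card_filter, card_filter]
  push_cast
  rw [← sum_sub_distrib, ← sum_filter_add_sum_filter_not univ (fun z => z ∈ Z)]
  have hz : ∑ z ∈ univ.filter (fun z => ¬ z ∈ Z),
      (if m z = r then (if s z = true then (1 : ℤ) else -1) else 0) = 0 := by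
    refine sum_eq_zero fun z hz => ?_
    rw [mem_filter] at hz
    have : m z = p := by by_contra hc; exact hz.2 ((hm z).mpr hc)
    rw [if_neg (by rw [this]; exact Ne.symm h2)]
  rw [hz, add_zero]
  rw [show univ.filter (fun z => z ∈ Z) = Z by ext; simp]
  refine sum_congr rfl fun z hzZ => ?_
  have hmp : m z ≠ p := (hm z).mp hzZ
  have hr : m z = r ↔ ¬ m z = q := by
    constructor
    · intro h h'; rw [h] at h'; exact h3 h'
    · intro h; exact eq_third p q r (m z) h1 h2 h3 hmp h
  by_cases a : m z = q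
  · have a' : ¬ m z = r := by rw [hr]; simpa using a
    rw [if_neg a']
    by_cases b : s z = true <;> simp [a, b]
  · have a' : m z = r := by rw [hr]; exact a
    rw [if_pos a']
    by_cases b : s z = true <;> simp [a, b]

theorem wt_p_eq (s : C → Bool) {p : Fin 3} {Z : Finset C} {m : C → Fin 3}
    (hm : ∀ z, z ∈ Z ↔ m z ≠ p) :
    wt s m p = ∑ z ∈ univ.filter (fun z => ¬ z ∈ Z), (if s z = true then (1 : ℤ) else -1) := by
  unfold wt
  rw [sum_filter]
  refine sum_congr rfl fun z _ => ?_
  have : m z = p ↔ ¬ z ∈ Z := by rw [hm z]; tauto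
  by_cases h : m z = p
  · rw [if_pos h, if_pos (this.mp h)]
  · rw [if_neg h, if_neg (fun hh => h (this.mpr hh))]

/-- The class of `l` is parametrised by the `k`-subsets of `Z`. -/
theorem labRel_iff_card (s : C → Bool) {p q r : Fin 3} (h1 : q ≠ p) (h2 : r ≠ p) (h3 : r ≠ q)
    {Z : Finset C} {l m : C → Fin 3} (hl : ∀ z, z ∈ Z ↔ l z ≠ p) :
    labRel s p l m ↔ (∀ z, z ∈ Z ↔ m z ≠ p) ∧ (Uof s q Z m).card = (Uof s q Z l).card := by
  constructor
  · rintro ⟨a, b⟩
    have hm : ∀ z, z ∈ Z ↔ m z ≠ p := fun z => by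
      rw [hl z]; exact not_congr (a z)
    refine ⟨hm, ?_⟩
    have := b q
    rw [wt_q_eq s (r := r) h1 hl, wt_q_eq s (r := r) h1 hm] at this
    have h' : ((Uof s q Z m).card : ℤ) = ((Uof s q Z l).card : ℤ) := by linarith
    exact_mod_cast h'
  · rintro ⟨hm, hc⟩
    refine ⟨fun z => ?_, fun k => ?_⟩
    · have e1 := hl z
      have e2 := hm z
      tauto
    · by_cases hkp : k = p
      · subst hkp; rw [wt_p_eq s hl, wt_p_eq s hm]
      by_cases hkq : k = q
      · subst hkq; rw [wt_q_eq s (r := r) h1 hl, wt_q_eq s (r := r) h1 hm, hc]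
      · have := eq_third p q r k h1 h2 h3 hkp hkq
        subst this
        rw [wt_r_eq s h1 h2 h3 hl, wt_r_eq s h1 h2 h3 hm, hc]

theorem sum_cls_lab (s : C → Bool) {p q r : Fin 3} (h1 : q ≠ p) (h2 : r ≠ p) (h3 : r ≠ q)
    {Z : Finset C} {l : C → Fin 3} (hl : ∀ z, z ∈ Z ↔ l z ≠ p) (F : (C → Fin 3) → ℝ) :
    ∑ m ∈ cls (labRel s p) l, F m =
      ∑ U ∈ powersetCard (Uof s q Z l).card Z, F (Lam s p q r Z U) := by
  refine sum_nbij' (Uof s q Z) (Lam s p q r Z) ?_ ?_ ?_ ?_ ?_
  · intro m hm
    rw [mem_cls, labRel_iff_card s h1 h2 h3 hl] at hm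
    rw [mem_powersetCard]
    exact ⟨filter_subset _ _, hm.2⟩
  · intro U hU
    rw [mem_powersetCard] at hU
    rw [mem_cls, labRel_iff_card s h1 h2 h3 hl]
    refine ⟨fun z => Lam_eq_p_iff s h1 h2 z, ?_⟩
    rw [Uof_Lam s h3 hU.1, hU.2]
  · intro m hm
    rw [mem_cls, labRel_iff_card s h1 h2 h3 hl] at hm
    exact Lam_Uof s h1 h2 h3 hm.1
  · intro U hU
    rw [mem_powersetCard] at hU
    exact Uof_Lam s h3 hU.1
  · intro m hm
    rw [mem_cls, labRel_iff_card s h1 h2 h3 hl] at hm
    rw [Lam_Uof s h1 h2 h3 hm.1]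

theorem card_cls_lab (s : C → Bool) {p q r : Fin 3} (h1 : q ≠ p) (h2 : r ≠ p) (h3 : r ≠ q)
    {Z : Finset C} {l : C → Fin 3} (hl : ∀ z, z ∈ Z ↔ l z ≠ p) :
    ((cls (labRel s p) l).card : ℝ) = ((powersetCard (Uof s q Z l).card Z).card : ℝ) := by
  have h := sum_cls_lab s h1 h2 h3 hl (fun _ => (1 : ℝ))
  simpa only [sum_const, nsmul_eq_mul, mul_one] using h

/-! ### double counting in the slices -/

omit [Fintype C] in
theorem sum_up (Z : Finset C) (j : ℕ) (G : Finset C → ℝ) :
    ∑ U ∈ powersetCard j Z, ∑ z ∈ Z \ U, G (insert z U)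
      = ((j : ℝ) + 1) * ∑ U ∈ powersetCard (j + 1) Z, G U := by
  have h : ∑ U ∈ powersetCard (j + 1) Z, ∑ _z ∈ U, G U
      = ((j : ℝ) + 1) * ∑ U ∈ powersetCard (j + 1) Z, G U := by
    rw [mul_sum]
    refine sum_congr rfl fun U hU => ?_
    rw [mem_powersetCard] at hU
    rw [sum_const, nsmul_eq_mul, hU.2]; push_cast; ring
  rw [← h, sum_sigma', sum_sigma']
  refine sum_nbij' (fun t => ⟨insert t.2 t.1, t.2⟩) (fun t => ⟨t.1.erase t.2, t.2⟩) ?_ ?_ ?_ ?_ ?_
  · rintro ⟨U, z⟩ h
    simp only [mem_sigma, mem_powersetCard, mem_sdiff] at h ⊢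
    refine ⟨⟨insert_subset h.2.1 h.1.1, ?_⟩, mem_insert_self _ _⟩
    rw [card_insert_of_notMem h.2.2, h.1.2]
  · rintro ⟨U, z⟩ h
    simp only [mem_sigma, mem_powersetCard, mem_sdiff] at h ⊢
    refine ⟨⟨(erase_subset _ _).trans h.1.1, ?_⟩, h.1.1 h.2, notMem_erase _ _⟩
    rw [card_erase_of_mem h.2, h.1.2]; rfl
  · rintro ⟨U, z⟩ h
    simp only [mem_sigma, mem_powersetCard, mem_sdiff] at h ⊢
    rw [erase_insert h.2.2]
  · rintro ⟨U, z⟩ h
    simp only [mem_sigma, mem_powersetCard] at h ⊢
    rw [insert_erase h.2]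
  · rintro ⟨U, z⟩ _
    rfl

omit [Fintype C] in
theorem sum_down (Z : Finset C) (j : ℕ) (G : Finset C → ℝ) :
    ∑ U ∈ powersetCard (j + 1) Z, ∑ z ∈ U, G (U.erase z)
      = ((Z.card : ℝ) - j) * ∑ U ∈ powersetCard j Z, G U := by
  have h : ∑ U ∈ powersetCard j Z, ∑ _z ∈ Z \ U, G U
      = ((Z.card : ℝ) - j) * ∑ U ∈ powersetCard j Z, G U := by
    rw [mul_sum]
    refine sum_congr rfl fun U hU => ?_
    rw [mem_powersetCard] at hU
    rw [sum_const, nsmul_eq_mul, card_sdiff_of_subset hU.1, hU.2,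
      Nat.cast_sub (hU.2 ▸ card_le_card hU.1)]
  rw [← h, sum_sigma', sum_sigma']
  refine sum_nbij' (fun t => ⟨t.1.erase t.2, t.2⟩) (fun t => ⟨insert t.2 t.1, t.2⟩) ?_ ?_ ?_ ?_ ?_
  · rintro ⟨U, z⟩ h
    simp only [mem_sigma, mem_powersetCard, mem_sdiff] at h ⊢
    refine ⟨⟨(erase_subset _ _).trans h.1.1, ?_⟩, h.1.1 h.2, notMem_erase _ _⟩
    rw [card_erase_of_mem h.2, h.1.2]; rfl
  · rintro ⟨U, z⟩ h
    simp only [mem_sigma, mem_powersetCard, mem_sdiff] at h ⊢
    refine ⟨⟨insert_subset h.2.1 h.1.1, ?_⟩, mem_insert_self _ _⟩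
    rw [card_insert_of_notMem h.2.2, h.1.2]
  · rintro ⟨U, z⟩ h
    simp only [mem_sigma, mem_powersetCard] at h ⊢
    rw [insert_erase h.2]
  · rintro ⟨U, z⟩ h
    simp only [mem_sigma, mem_powersetCard, mem_sdiff] at h ⊢
    rw [erase_insert h.2.2]
  · rintro ⟨U, z⟩ _
    rfl

omit [Fintype C] in
theorem card_rel (Z : Finset C) (j : ℕ) :
    ((Z.card : ℝ) - j) * ((powersetCard j Z).card : ℝ)
      = ((j : ℝ) + 1) * ((powersetCard (j + 1) Z).card : ℝ) := by
  have h1 := sum_up Z j (fun _ => 1)
  have h : ∑ U ∈ powersetCard j Z, ∑ _z ∈ Z \ U, (1 : ℝ)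
      = ((Z.card : ℝ) - j) * ((powersetCard j Z).card : ℝ) := by
    rw [card_eq_sum_ones (powersetCard j Z)]
    push_cast
    rw [mul_sum]
    refine sum_congr rfl fun U hU => ?_
    rw [mem_powersetCard] at hU
    rw [sum_const, nsmul_eq_mul, card_sdiff_of_subset hU.1, hU.2,
      Nat.cast_sub (hU.2 ▸ card_le_card hU.1)]
  rw [← h, h1, sum_const, nsmul_eq_mul, mul_one]

omit [Fintype C] in
theorem avg_up (Z : Finset C) (j : ℕ) (hj : j < Z.card) (G H : Finset C → ℝ) (β A : ℝ)
    (h : ∀ U ∈ powersetCard j Z, ∀ z ∈ Z \ U, |H U - G (insert z U)| ≤ β)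
    (hA : ∑ U ∈ powersetCard (j + 1) Z, G U = A * ((powersetCard (j + 1) Z).card : ℝ)) :
    |∑ U ∈ powersetCard j Z, H U - A * ((powersetCard j Z).card : ℝ)|
      ≤ β * ((powersetCard j Z).card : ℝ) := by
  have hpos : (0 : ℝ) < (Z.card : ℝ) - j := by
    have : (j : ℝ) < Z.card := by exact_mod_cast hj
    linarith
  have e1 : ∀ U ∈ powersetCard j Z, ∀ c : ℝ, ∑ _z ∈ Z \ U, c = ((Z.card : ℝ) - j) * c := by
    intro U hU c
    rw [mem_powersetCard] at hU
    rw [sum_const, nsmul_eq_mul, card_sdiff_of_subset hU.1, hU.2,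
      Nat.cast_sub (hU.2 ▸ card_le_card hU.1)]
  have key : ((Z.card : ℝ) - j) *
      (∑ U ∈ powersetCard j Z, H U - A * ((powersetCard j Z).card : ℝ))
      = ∑ U ∈ powersetCard j Z, ∑ z ∈ Z \ U, (H U - G (insert z U)) := by
    have e2 : ∑ U ∈ powersetCard j Z, ∑ z ∈ Z \ U, (H U - G (insert z U))
        = ∑ U ∈ powersetCard j Z, ((Z.card : ℝ) - j) * H U
          - ((j : ℝ) + 1) * ∑ U ∈ powersetCard (j + 1) Z, G U := by
      rw [← sum_up, ← sum_sub_distrib]
      refine sum_congr rfl fun U hU => ?_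
      rw [sum_sub_distrib, e1 U hU]
    rw [e2, hA, ← mul_sum]
    have := card_rel Z j
    linear_combination (-A) * this
  have habs : |((Z.card : ℝ) - j) *
      (∑ U ∈ powersetCard j Z, H U - A * ((powersetCard j Z).card : ℝ))|
      ≤ ((Z.card : ℝ) - j) * (β * ((powersetCard j Z).card : ℝ)) := by
    rw [key]
    calc _ ≤ ∑ U ∈ powersetCard j Z, |∑ z ∈ Z \ U, (H U - G (insert z U))| :=
          abs_sum_le_sum_abs _ _
      _ ≤ ∑ U ∈ powersetCard j Z, ∑ z ∈ Z \ U, |H U - G (insert z U)| :=
          sum_le_sum fun U _ => abs_sum_le_sum_abs _ _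
      _ ≤ ∑ U ∈ powersetCard j Z, ∑ _z ∈ Z \ U, β :=
          sum_le_sum fun U hU => sum_le_sum fun z hz => h U hU z hz
      _ = ∑ U ∈ powersetCard j Z, ((Z.card : ℝ) - j) * β :=
          sum_congr rfl fun U hU => e1 U hU β
      _ = _ := by rw [sum_const, nsmul_eq_mul]; ring
  rw [abs_mul, abs_of_pos hpos] at habs
  exact le_of_mul_le_mul_left habs hpos

omit [Fintype C] in
theorem avg_down (Z : Finset C) (j : ℕ) (G H : Finset C → ℝ) (β A : ℝ)
    (h : ∀ U ∈ powersetCard (j + 1) Z, ∀ z ∈ U, |H U - G (U.erase z)| ≤ β)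
    (hA : ∑ U ∈ powersetCard j Z, G U = A * ((powersetCard j Z).card : ℝ)) :
    |∑ U ∈ powersetCard (j + 1) Z, H U - A * ((powersetCard (j + 1) Z).card : ℝ)|
      ≤ β * ((powersetCard (j + 1) Z).card : ℝ) := by
  have hpos : (0 : ℝ) < (j : ℝ) + 1 := by positivity
  have e1 : ∀ U ∈ powersetCard (j + 1) Z, ∀ c : ℝ, ∑ _z ∈ U, c = ((j : ℝ) + 1) * c := by
    intro U hU c
    rw [mem_powersetCard] at hU
    rw [sum_const, nsmul_eq_mul, hU.2]; push_cast; ring
  have key : ((j : ℝ) + 1) *
      (∑ U ∈ powersetCard (j + 1) Z, H U - A * ((powersetCard (j + 1) Z).card : ℝ))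
      = ∑ U ∈ powersetCard (j + 1) Z, ∑ z ∈ U, (H U - G (U.erase z)) := by
    have e2 : ∑ U ∈ powersetCard (j + 1) Z, ∑ z ∈ U, (H U - G (U.erase z))
        = ∑ U ∈ powersetCard (j + 1) Z, ((j : ℝ) + 1) * H U
          - ((Z.card : ℝ) - j) * ∑ U ∈ powersetCard j Z, G U := by
      rw [← sum_down, ← sum_sub_distrib]
      refine sum_congr rfl fun U hU => ?_
      rw [sum_sub_distrib, e1 U hU]
    rw [e2, hA, ← mul_sum]
    have := card_rel Z j
    linear_combination (A) * this
  have habs : |((j : ℝ) + 1) *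
      (∑ U ∈ powersetCard (j + 1) Z, H U - A * ((powersetCard (j + 1) Z).card : ℝ))|
      ≤ ((j : ℝ) + 1) * (β * ((powersetCard (j + 1) Z).card : ℝ)) := by
    rw [key]
    calc _ ≤ ∑ U ∈ powersetCard (j + 1) Z, |∑ z ∈ U, (H U - G (U.erase z))| :=
          abs_sum_le_sum_abs _ _
      _ ≤ ∑ U ∈ powersetCard (j + 1) Z, ∑ z ∈ U, |H U - G (U.erase z)| :=
          sum_le_sum fun U _ => abs_sum_le_sum_abs _ _
      _ ≤ ∑ U ∈ powersetCard (j + 1) Z, ∑ _z ∈ U, β :=
          sum_le_sum fun U hU => sum_le_sum fun z hz => h U hU z hz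
      _ = ∑ U ∈ powersetCard (j + 1) Z, ((j : ℝ) + 1) * β :=
          sum_congr rfl fun U hU => e1 U hU β
      _ = _ := by rw [sum_const, nsmul_eq_mul]; ring
  rw [abs_mul, abs_of_pos hpos] at habs
  exact le_of_mul_le_mul_left habs hpos

omit [Fintype C] in
theorem sum_powersetCard_insert {W : Finset C} {x : C} (hx : x ∉ W) (k : ℕ)
    (F : Finset C → ℝ) :
    ∑ U ∈ powersetCard (k + 1) (insert x W), F U
      = ∑ U ∈ powersetCard (k + 1) W, F U + ∑ U ∈ powersetCard k W, F (insert x U) := by
  rw [powersetCard_succ_insert hx, sum_union, sum_image]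
  · intro U hU U' hU' h
    rw [mem_coe, mem_powersetCard] at hU hU'
    have h1 : x ∉ U := fun hh => hx (hU.1 hh)
    have h2 : x ∉ U' := fun hh => hx (hU'.1 hh)
    rw [← erase_insert h1, ← erase_insert h2, h]
  · rw [disjoint_left]
    intro U hU hU'
    rw [mem_powersetCard] at hU
    rw [mem_image] at hU'
    obtain ⟨U0, _, rfl⟩ := hU'
    exact hx (hU.1 (mem_insert_self _ _))

/-! ### AB edges -/

/-- Relabel `x` and `y` by `t`. -/
def upd (m : C → Fin 3) (x y : C) (t : Fin 3) : C → Fin 3 := fun z =>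
  if z = x ∨ z = y then t else m z

omit [Fintype C] in
theorem Lam_case1 (s : C → Bool) (p q r : Fin 3) {Z U : Finset C} (hU : U ⊆ Z) {x y : C}
    (hx : x ∉ Z) (hy : y ∉ Z) (sx : s x = true) (sy : s y = false) :
    Lam s p q r (insert x (insert y Z)) (insert x U) = upd (Lam s p q r Z U) x y q := by
  have hxy : x ≠ y := fun e => by rw [e, sy] at sx; exact absurd sx (by decide)
  have hyU : y ∉ U := fun h => hy (hU h)
  funext w
  unfold Lam upd
  by_cases h1 : w = x
  · subst h1; simp [sx]
  by_cases h2 : w = y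
  · subst h2; simp [sy, h1, hyU]
  simp [h1, h2]

omit [Fintype C] in
theorem Lam_case2 (s : C → Bool) (p q r : Fin 3) {Z U : Finset C} (hU : U ⊆ Z) {x y : C}
    (hx : x ∉ Z) (hy : y ∉ Z) (sx : s x = true) (sy : s y = false) :
    Lam s p q r (insert x (insert y Z)) (insert y U) = upd (Lam s p q r Z U) x y r := by
  have hxy : x ≠ y := fun e => by rw [e, sy] at sx; exact absurd sx (by decide)
  have hxU : x ∉ U := fun h => hx (hU h)
  funext w
  unfold Lam upd
  by_cases h1 : w = x
  · subst h1; simp [sx, hxU, hxy]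
  by_cases h2 : w = y
  · subst h2; simp [sy]
  simp [h1, h2]

omit [Fintype C] in
theorem Lam_case3 (s : C → Bool) (p q r : Fin 3) {Z U : Finset C} (hU : U ⊆ Z) {x y z : C}
    (hx : x ∉ Z) (hy : y ∉ Z) (sx : s x = true) (sy : s y = false) (hz : z ∈ Z) (hzU : z ∉ U) :
    Lam s p q r (insert x (insert y Z)) (insert x (insert y U)) =
      (upd (Lam s p q r Z (insert z U)) x y (if s z = true then r else q)) ∘
        Equiv.swap (if s z = true then x else y) z := by
  have hxy : x ≠ y := fun e => by rw [e, sy] at sx; exact absurd sx (by decide)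
  have hxU : x ∉ U := fun h => hx (hU h)
  have hyU : y ∉ U := fun h => hy (hU h)
  have hzx : z ≠ x := fun e => hx (e ▸ hz)
  have hzy : z ≠ y := fun e => hy (e ▸ hz)
  funext w
  by_cases sz : s z = true
  · simp only [sz, if_true, Function.comp_apply]
    by_cases h1 : w = x
    · subst h1; simp [Lam, upd, sx, sz, hz, hzx, hzy]
    by_cases h2 : w = y
    · subst h2
      rw [Equiv.swap_apply_of_ne_of_ne h1 (Ne.symm hzy)]
      simp [Lam, upd, sy]
    by_cases h3 : w = z
    · subst h3; rw [Equiv.swap_apply_right]; simp [Lam, upd, sz, hz, hzU, hzx, hzy]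
    rw [Equiv.swap_apply_of_ne_of_ne h1 h3]
    simp [Lam, upd, h1, h2, h3]
  · have sz' : s z = false := by simpa using sz
    simp only [sz', Bool.false_eq_true, if_false, Function.comp_apply]
    by_cases h1 : w = x
    · subst h1
      rw [Equiv.swap_apply_of_ne_of_ne hxy (Ne.symm hzx)]
      simp [Lam, upd, sx]
    by_cases h2 : w = y
    · subst h2; rw [Equiv.swap_apply_left]; simp [Lam, upd, sy, sz', hz, hzx, hzy]
    by_cases h3 : w = z
    · subst h3; rw [Equiv.swap_apply_right]; simp [Lam, upd, sz', hz, hzU, hzx, hzy]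
    rw [Equiv.swap_apply_of_ne_of_ne h2 h3]
    simp [Lam, upd, h1, h2, h3]

omit [Fintype C] in
theorem Lam_case4 (s : C → Bool) (p q r : Fin 3) {Z U : Finset C} (hU : U ⊆ Z) {x y z : C}
    (hx : x ∉ Z) (hy : y ∉ Z) (sx : s x = true) (sy : s y = false) (hzU : z ∈ U) :
    Lam s p q r (insert x (insert y Z)) U =
      (upd (Lam s p q r Z (U.erase z)) x y (if s z = true then q else r)) ∘
        Equiv.swap (if s z = true then x else y) z := by
  have hxy : x ≠ y := fun e => by rw [e, sy] at sx; exact absurd sx (by decide)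
  have hxU : x ∉ U := fun h => hx (hU h)
  have hyU : y ∉ U := fun h => hy (hU h)
  have hz : z ∈ Z := hU hzU
  have hzx : z ≠ x := fun e => hx (e ▸ hz)
  have hzy : z ≠ y := fun e => hy (e ▸ hz)
  funext w
  by_cases sz : s z = true
  · simp only [sz, if_true, Function.comp_apply]
    by_cases h1 : w = x
    · subst h1; simp [Lam, upd, sx, sz, hz, hzx, hzy, hxU]
    by_cases h2 : w = y
    · subst h2
      rw [Equiv.swap_apply_of_ne_of_ne h1 (Ne.symm hzy)]
      simp [Lam, upd, sy, hyU]
    by_cases h3 : w = z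
    · subst h3; rw [Equiv.swap_apply_right]; simp [Lam, upd, sz, hz, hzU]
    rw [Equiv.swap_apply_of_ne_of_ne h1 h3]
    simp [Lam, upd, h1, h2, h3]
  · have sz' : s z = false := by simpa using sz
    simp only [sz', Bool.false_eq_true, if_false, Function.comp_apply]
    by_cases h1 : w = x
    · subst h1
      rw [Equiv.swap_apply_of_ne_of_ne hxy (Ne.symm hzx)]
      simp [Lam, upd, sx, hxU]
    by_cases h2 : w = y
    · subst h2; rw [Equiv.swap_apply_left]; simp [Lam, upd, sy, sz', hz, hzx, hzy, hyU]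
    by_cases h3 : w = z
    · subst h3; rw [Equiv.swap_apply_right]; simp [Lam, upd, sz', hz, hzU]
    rw [Equiv.swap_apply_of_ne_of_ne h2 h3]
    simp [Lam, upd, h1, h2, h3]

theorem claim (s : C → Bool) (f : (C → Fin 3) → ℝ)
    (hα : ∀ (l : C → Fin 3) (x y : C), s x = s y → f (l ∘ Equiv.swap x y) = f l) (β : ℝ)
    (hβ : ∀ (l : C → Fin 3) (x y : C) (p q : Fin 3), s x = true → s y = false → l x = p →
      l y = p → q ≠ p → |f (upd l x y q) - f l| ≤ β)
    (l : C → Fin 3) (x y : C) (p q : Fin 3) (sx : s x = true) (sy : s y = false) (lx : l x = p)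
    (ly : l y = p) (hqp : q ≠ p) :
    |av (labRel s p) f (upd l x y q) - av (labRel s p) f l| ≤ β := by
  obtain ⟨r, hrp, hrq⟩ := exists_third p q hqp
  set Z : Finset C := univ.filter fun z => l z ≠ p with hZ
  have hl : ∀ z, z ∈ Z ↔ l z ≠ p := fun z => by simp [hZ]
  have hxZ : x ∉ Z := by rw [hl]; simpa using lx
  have hyZ : y ∉ Z := by rw [hl]; simpa using ly
  have hxy : x ≠ y := fun e => by rw [e, sy] at sx; exact absurd sx (by decide)
  set Z' : Finset C := insert x (insert y Z) with hZ'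
  set l' := upd l x y q with hl'def
  have hl' : ∀ z, z ∈ Z' ↔ l' z ≠ p := by
    intro z
    simp only [hZ', mem_insert, hl'def, upd, hl]
    by_cases h1 : z = x
    · simp [h1, hqp]
    by_cases h2 : z = y
    · simp [h2, hqp]
    simp [h1, h2]
  set k := (Uof s q Z l).card with hk
  have hU' : Uof s q Z' l' = insert x (Uof s q Z l) := by
    ext z
    simp only [Uof, hZ', mem_filter, mem_insert, hl'def, upd]
    by_cases h1 : z = x
    · simp [h1, sx]
    by_cases h2 : z = y
    · subst h2; simp [sy, h1, hyZ]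
    simp [h1, h2]
  have hxU : x ∉ Uof s q Z l := fun h => hxZ (filter_subset _ _ h)
  have hk' : (Uof s q Z' l').card = k + 1 := by
    rw [hU', card_insert_of_notMem hxU]
  have hkZ : k ≤ Z.card := card_le_card (filter_subset _ _)
  -- the average over the class of `l`
  set G : Finset C → ℝ := fun U => f (Lam s p q r Z U) with hG
  set A : ℝ := av (labRel s p) f l with hA
  have hNk : (0 : ℝ) < ((powersetCard k Z).card : ℝ) := by
    rw [card_powersetCard]; exact_mod_cast Nat.choose_pos hkZ
  have hAsum : ∑ U ∈ powersetCard k Z, G U = A * ((powersetCard k Z).card : ℝ) := by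
    rw [hA]; unfold av
    rw [card_cls_lab s hqp hrp hrq hl, sum_cls_lab s hqp hrp hrq hl f, ← hk]
    rw [div_mul_cancel₀ _ hNk.ne']
  -- the four parts
  set F : Finset C → ℝ := fun U => f (Lam s p q r Z' U) with hF
  have hyW : x ∉ insert y Z := by
    rw [mem_insert]; rintro (h | h)
    · exact hxy h
    · exact hxZ h
  have hLx : ∀ U, Lam s p q r Z U x = p := fun U => by simp [Lam, hxZ]
  have hLy : ∀ U, Lam s p q r Z U y = p := fun U => by simp [Lam, hyZ]
  have b1 : ∀ U ∈ powersetCard k Z, |F (insert x U) - G U| ≤ β := by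
    intro U hU
    rw [mem_powersetCard] at hU
    simp only [hF, hG]
    rw [Lam_case1 s p q r hU.1 hxZ hyZ sx sy]
    exact hβ _ x y p q sx sy (hLx U) (hLy U) hqp
  have b2 : ∀ U ∈ powersetCard k Z, |F (insert y U) - G U| ≤ β := by
    intro U hU
    rw [mem_powersetCard] at hU
    simp only [hF, hG]
    rw [Lam_case2 s p q r hU.1 hxZ hyZ sx sy]
    exact hβ _ x y p r sx sy (hLx U) (hLy U) hrp
  have b3 : ∀ U, U ⊆ Z → ∀ z ∈ Z \ U, |F (insert x (insert y U)) - G (insert z U)| ≤ β := by
    intro U hU z hz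
    rw [mem_sdiff] at hz
    simp only [hF, hG]
    rw [Lam_case3 s p q r hU hxZ hyZ sx sy hz.1 hz.2]
    rw [hα]
    · by_cases sz : s z = true
      · simp only [sz, if_true]
        exact hβ _ x y p r sx sy (hLx _) (hLy _) hrp
      · simp only [sz, if_false]
        exact hβ _ x y p q sx sy (hLx _) (hLy _) hqp
    · by_cases sz : s z = true
      · simp [sz, sx]
      · simp [sz, sy]
  have b4 : ∀ U ∈ powersetCard (k + 1) Z, ∀ z ∈ U, |F U - G (U.erase z)| ≤ β := by
    intro U hU z hz
    rw [mem_powersetCard] at hU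
    simp only [hF, hG]
    rw [Lam_case4 s p q r hU.1 hxZ hyZ sx sy hz]
    rw [hα]
    · by_cases sz : s z = true
      · simp only [sz, if_true]
        exact hβ _ x y p q sx sy (hLx _) (hLy _) hqp
      · simp only [sz, if_false]
        exact hβ _ x y p r sx sy (hLx _) (hLy _) hrp
    · by_cases sz : s z = true
      · simp [sz, sx]
      · simp [sz, sy]
  have part : ∀ (P : Finset (Finset C)) (H : Finset C → ℝ), P = powersetCard k Z →
      (∀ U ∈ P, |H U - G U| ≤ β) →
      |∑ U ∈ P, H U - A * (P.card : ℝ)| ≤ β * (P.card : ℝ) := by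
    intro P H hP hH
    subst hP
    rw [← hAsum, ← sum_sub_distrib]
    calc _ ≤ ∑ U ∈ powersetCard k Z, |H U - G U| := abs_sum_le_sum_abs _ _
      _ ≤ ∑ _U ∈ powersetCard k Z, β := sum_le_sum hH
      _ = _ := by rw [sum_const, nsmul_eq_mul, mul_comm]
  have p1 := part _ (fun U => F (insert x U)) rfl b1
  have p2 := part _ (fun U => F (insert y U)) rfl b2
  have p4 := avg_down Z k G F β A b4 hAsum
  -- the total
  have htot : ∃ N3 S3 : ℝ, |S3 - A * N3| ≤ β * N3 ∧
      ∑ m ∈ cls (labRel s p) l', f m = ∑ U ∈ powersetCard (k + 1) Z, F U +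
        ∑ U ∈ powersetCard k Z, F (insert y U) + ∑ U ∈ powersetCard k Z, F (insert x U) + S3 ∧
      ((cls (labRel s p) l').card : ℝ) = ((powersetCard (k + 1) Z).card : ℝ) +
        ((powersetCard k Z).card : ℝ) + ((powersetCard k Z).card : ℝ) + N3 := by
    have hsplit : ∀ K : Finset C → ℝ, ∑ U ∈ powersetCard (k + 1) Z', K U =
        ∑ U ∈ powersetCard (k + 1) Z, K U + ∑ U ∈ powersetCard k Z, K (insert y U) +
          ∑ U ∈ powersetCard k (insert y Z), K (insert x U) := by
      intro K
      rw [hZ', sum_powersetCard_insert hyW, sum_powersetCard_insert hyZ]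
    have hsum : ∑ m ∈ cls (labRel s p) l', f m = ∑ U ∈ powersetCard (k + 1) Z', F U := by
      rw [sum_cls_lab s hqp hrp hrq hl' f, hk']
    have hcard : ((cls (labRel s p) l').card : ℝ) = ∑ U ∈ powersetCard (k + 1) Z', (1 : ℝ) := by
      rw [card_cls_lab s hqp hrp hrq hl', hk', sum_const, nsmul_eq_mul, mul_one]
    rw [hsum, hcard, hsplit F, hsplit (fun _ => 1)]
    simp only [sum_const, nsmul_eq_mul, mul_one]
    rcases Nat.eq_zero_or_pos k with h0 | h0
    · refine ⟨0, 0, by simp, ?_, ?_⟩
      · rw [h0]; simp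
      · rw [h0]; simp
    · obtain ⟨j, hj⟩ := Nat.exists_eq_succ_of_ne_zero (by omega : k ≠ 0)
      have hj' : k = j + 1 := hj
      refine ⟨((powersetCard j Z).card : ℝ),
        ∑ U ∈ powersetCard j Z, F (insert x (insert y U)), ?_, ?_, ?_⟩
      · refine avg_up Z j (by omega) G (fun U => F (insert x (insert y U))) β A ?_ ?_
        · intro U hU z hz
          rw [mem_powersetCard] at hU
          exact b3 U hU.1 z hz
        · rw [← hj']; exact hAsum
      · have := sum_powersetCard_insert hyZ j (fun U => F (insert x U))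
        rw [← hj'] at this
        rw [this]; ring
      · have := sum_powersetCard_insert hyZ j (fun _ => (1 : ℝ))
        rw [← hj'] at this
        simp only [sum_const, nsmul_eq_mul, mul_one] at this
        rw [this]; ring
  obtain ⟨N3, S3, hS3, hsum, hcard⟩ := htot
  have hNpos : (0 : ℝ) < ((cls (labRel s p) l').card : ℝ) := by
    exact_mod_cast cls_card_pos _ _
  have hfin : |∑ m ∈ cls (labRel s p) l', f m - A * ((cls (labRel s p) l').card : ℝ)|
      ≤ β * ((cls (labRel s p) l').card : ℝ) := by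
    rw [hsum, hcard]
    rw [abs_le] at p1 p2 p4 hS3 ⊢
    constructor
    · nlinarith [p1.1, p2.1, p4.1, hS3.1]
    · nlinarith [p1.2, p2.2, p4.2, hS3.2]
  have : av (labRel s p) f l' - A
      = (∑ m ∈ cls (labRel s p) l', f m - A * ((cls (labRel s p) l').card : ℝ)) /
        ((cls (labRel s p) l').card : ℝ) := by
    unfold av
    field_simp
  rw [this, abs_div, abs_of_pos hNpos, div_le_iff₀ hNpos]
  exact hfin

theorem wt_upd (s : C → Bool) (l : C → Fin 3) (x y : C) (p q : Fin 3) (sx : s x = true)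
    (sy : s y = false) (lx : l x = p) (ly : l y = p) (k : Fin 3) :
    wt s (upd l x y q) k = wt s l k := by
  have hxy : x ≠ y := fun e => by rw [e, sy] at sx; exact absurd sx (by decide)
  have h : wt s (upd l x y q) k - wt s l k = 0 := by
    unfold wt
    rw [← sum_sub_distrib]
    rw [sum_eq_add x y hxy]
    · simp only [upd, true_or, or_true, if_true, sx, sy, lx, ly]
      by_cases h1 : q = k <;> by_cases h2 : p = k <;> simp [h1, h2]
    · rintro z _ ⟨h1, h2⟩
      simp [upd, h1, h2]
    · intro h; exact absurd (mem_univ _) h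
    · intro h; exact absurd (mem_univ _) h
  linarith

theorem step_two (s : C → Bool) (f : (C → Fin 3) → ℝ) (lam : ℝ)
    (hf : ∀ l, ∑ p, av (labRel s p) f l = lam * f l) (hlam : 2 < lam)
    (hα : ∀ (l : C → Fin 3) (x y : C), s x = s y → f (l ∘ Equiv.swap x y) = f l)
    (l : C → Fin 3) (x y : C) (p q : Fin 3) (sx : s x = true) (sy : s y = false) (lx : l x = p)
    (ly : l y = p) (hqp : q ≠ p) : f (upd l x y q) = f l := by
  classical
  have key := max_zero (ι := (C → Fin 3) × C × C × Fin 3 × Fin 3)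
    (fun i => if s i.2.1 = true ∧ s i.2.2.1 = false ∧ i.1 i.2.1 = i.2.2.2.1 ∧
        i.1 i.2.2.1 = i.2.2.2.1 ∧ i.2.2.2.2 ≠ i.2.2.2.1
      then |f (upd i.1 i.2.1 i.2.2.1 i.2.2.2.2) - f i.1| else 0)
    lam hlam ?_
  · have h := key (l, x, y, p, q)
    rw [if_pos ⟨sx, sy, lx, ly, hqp⟩] at h
    have := abs_nonneg (f (upd l x y q) - f l)
    have h0 : |f (upd l x y q) - f l| = 0 := le_antisymm h this
    rw [abs_eq_zero] at h0
    linarith
  · rintro M hM ⟨l, x, y, p, q⟩
    have hM' : ∀ (l : C → Fin 3) (x y : C) (p q : Fin 3), s x = true → s y = false → l x = p →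
        l y = p → q ≠ p → |f (upd l x y q) - f l| ≤ M := by
      intro l x y p q h1 h2 h3 h4 h5
      have := hM (l, x, y, p, q)
      rwa [if_pos ⟨h1, h2, h3, h4, h5⟩] at this
    have hM0 : 0 ≤ M := by
      refine le_trans ?_ (hM (l, x, y, p, q))
      split_ifs
      · exact abs_nonneg _
      · exact le_refl _
    dsimp only
    split_ifs with hc
    swap
    · rw [mul_zero]; linarith
    obtain ⟨sx, sy, lx, ly, hqp⟩ := hc
    obtain ⟨r, hrp, hrq⟩ := exists_third p q hqp
    have hlamD : lam * (f (upd l x y q) - f l)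
        = ∑ k, (av (labRel s k) f (upd l x y q) - av (labRel s k) f l) := by
      rw [sum_sub_distrib, hf, hf]; ring
    rw [sum_three p q r hqp hrp hrq] at hlamD
    have hr0 : av (labRel s r) f (upd l x y q) = av (labRel s r) f l := by
      refine av_congr f ⟨?_, fun k => wt_upd s l x y p q sx sy lx ly k⟩
      intro z
      unfold upd
      by_cases h1 : z = x
      · subst h1
        simp only [true_or, if_true, lx]
        exact ⟨fun h => absurd h.symm hrq, fun h => absurd h.symm hrp⟩
      by_cases h2 : z = y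
      · subst h2
        simp only [or_true, if_true, ly]
        exact ⟨fun h => absurd h.symm hrq, fun h => absurd h.symm hrp⟩
      simp [h1, h2]
    have h1 := claim s f hα M hM' l x y p q sx sy lx ly hqp
    have hback : upd (upd l x y q) x y p = l := by
      funext z
      unfold upd
      by_cases h1 : z = x
      · subst h1; simp [lx]
      by_cases h2 : z = y
      · subst h2; simp [ly]
      simp [h1, h2]
    have h2 := claim s f hα M hM' (upd l x y q) x y q p sx sy (by simp [upd]) (by simp [upd])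
      (Ne.symm hqp)
    rw [hback] at h2
    rw [hr0, sub_self, add_zero] at hlamD
    have h3 : lam * |f (upd l x y q) - f l| = |lam * (f (upd l x y q) - f l)| := by
      rw [abs_mul, abs_of_pos (by linarith : (0 : ℝ) < lam)]
    rw [h3, hlamD]
    rw [abs_sub_comm] at h2
    calc _ ≤ |av (labRel s p) f (upd l x y q) - av (labRel s p) f l| +
          |av (labRel s q) f (upd l x y q) - av (labRel s q) f l| :=
          abs_add_le _ _
      _ ≤ 2 * M := by linarith

omit [Fintype C] in
theorem exchange (s : C → Bool) (f : (C → Fin 3) → ℝ)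
    (hα : ∀ (l : C → Fin 3) (x y : C), s x = s y → f (l ∘ Equiv.swap x y) = f l)
    (hβ : ∀ (l : C → Fin 3) (x y : C) (p q : Fin 3), s x = true → s y = false → l x = p →
      l y = p → q ≠ p → f (upd l x y q) = f l)
    (p q r : Fin 3) (h3 : r ≠ q) {Z U : Finset C} (hU : U ⊆ Z)
    {z w : C} (hz : z ∈ U) (hw : w ∈ Z) (hwU : w ∉ U) :
    f (Lam s p q r Z (insert w (U.erase z))) = f (Lam s p q r Z U) := by
  have hzZ : z ∈ Z := hU hz
  have hzw : z ≠ w := fun e => hwU (e ▸ hz)
  have hwz : w ≠ z := Ne.symm hzw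
  by_cases sz : s z = true
  · by_cases sw : s w = true
    · -- same type
      have : Lam s p q r Z (insert w (U.erase z)) = Lam s p q r Z U ∘ Equiv.swap z w := by
        funext v
        simp only [Function.comp_apply]
        by_cases h1 : v = z
        · subst h1; rw [Equiv.swap_apply_left]; simp [Lam, hzZ, hw, sz, sw, hwU, hzw]
        by_cases h2 : v = w
        · subst h2; rw [Equiv.swap_apply_right]; simp [Lam, hzZ, hw, sz, sw, hz]
        rw [Equiv.swap_apply_of_ne_of_ne h1 h2]
        simp [Lam, h1, h2]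
      rw [this, hα _ _ _ (by rw [sz, sw])]
    · have sw' : s w = false := by simpa using sw
      have : Lam s p q r Z (insert w (U.erase z)) = upd (Lam s p q r Z U) z w r := by
        funext v
        by_cases h1 : v = z
        · subst h1; simp [Lam, upd, hzZ, sz, hzw]
        by_cases h2 : v = w
        · subst h2; simp [Lam, upd, hw, sw']
        simp [Lam, upd, h1, h2]
      rw [this, hβ _ z w q r sz sw' (by simp [Lam, hzZ, hz, sz]) (by simp [Lam, hw, hwU, sw']) h3]
  · have sz' : s z = false := by simpa using sz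
    by_cases sw : s w = true
    · have : Lam s p q r Z (insert w (U.erase z)) = upd (Lam s p q r Z U) w z q := by
        funext v
        by_cases h1 : v = z
        · subst h1; simp [Lam, upd, hzZ, sz', hzw]
        by_cases h2 : v = w
        · subst h2; simp [Lam, upd, hw, sw]
        simp [Lam, upd, h1, h2]
      rw [this, hβ _ w z r q sw sz' (by simp [Lam, hw, hwU, sw]) (by simp [Lam, hzZ, hz, sz'])
        (Ne.symm h3)]
    · have sw' : s w = false := by simpa using sw
      have : Lam s p q r Z (insert w (U.erase z)) = Lam s p q r Z U ∘ Equiv.swap z w := by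
        funext v
        simp only [Function.comp_apply]
        by_cases h1 : v = z
        · subst h1; rw [Equiv.swap_apply_left]; simp [Lam, hzZ, hw, sz', sw', hwU, hzw]
        by_cases h2 : v = w
        · subst h2; rw [Equiv.swap_apply_right]; simp [Lam, hzZ, hw, sz', sw', hz]
        rw [Equiv.swap_apply_of_ne_of_ne h1 h2]
        simp [Lam, h1, h2]
      rw [this, hα _ _ _ (by rw [sz', sw'])]

omit [Fintype C] in
theorem connected (s : C → Bool) (f : (C → Fin 3) → ℝ)
    (hα : ∀ (l : C → Fin 3) (x y : C), s x = s y → f (l ∘ Equiv.swap x y) = f l)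
    (hβ : ∀ (l : C → Fin 3) (x y : C) (p q : Fin 3), s x = true → s y = false → l x = p →
      l y = p → q ≠ p → f (upd l x y q) = f l)
    (p q r : Fin 3) (h3 : r ≠ q) {Z : Finset C} :
    ∀ (j : ℕ) (U U' : Finset C), U ⊆ Z → U' ⊆ Z → U.card = U'.card → (U \ U').card = j →
      f (Lam s p q r Z U) = f (Lam s p q r Z U') := by
  intro j
  induction j with
  | zero =>
    intro U U' hU hU' hc hj
    rw [card_eq_zero, sdiff_eq_empty_iff_subset] at hj
    rw [eq_of_subset_of_card_le hj hc.ge]
  | succ j ih =>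
    intro U U' hU hU' hc hj
    have hne : (U \ U').Nonempty := by rw [← card_pos]; omega
    have hne' : (U' \ U).Nonempty := by
      rw [← card_pos]
      have := card_sdiff_add_card_inter U U'
      have h' := card_sdiff_add_card_inter U' U
      rw [inter_comm] at h'
      omega
    obtain ⟨z, hz⟩ := hne
    obtain ⟨w, hw⟩ := hne'
    rw [mem_sdiff] at hz hw
    rw [← exchange s f hα hβ p q r h3 hU hz.1 (hU' hw.1) hw.2]
    have hwz : w ≠ z := fun e => hw.2 (e ▸ hz.1)
    have hwe : w ∉ U.erase z := fun h => hw.2 (mem_of_mem_erase h)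
    refine ih _ _ ?_ hU' ?_ ?_
    · exact insert_subset (hU' hw.1) ((erase_subset _ _).trans hU)
    · rw [card_insert_of_notMem hwe, card_erase_of_mem hz.1, ← hc]
      have : 0 < U.card := card_pos.mpr ⟨z, hz.1⟩
      omega
    · have : insert w (U.erase z) \ U' = (U \ U').erase z := by
        ext v
        simp only [mem_sdiff, mem_insert, mem_erase]
        constructor
        · rintro ⟨rfl | ⟨h1, h2⟩, h3⟩
          · exact absurd hw.1 h3
          · exact ⟨h1, h2, h3⟩
        · rintro ⟨h1, h2, h3⟩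
          exact ⟨Or.inr ⟨h1, h2⟩, h3⟩
      rw [this, card_erase_of_mem (mem_sdiff.mpr hz), hj]; rfl

end

theorem label_max {C : Type*} [Fintype C] [DecidableEq C] (s : C → Bool)
    (f : (C → Fin 3) → ℝ) (lam : ℝ)
    (hf : ∀ l, ∑ p, av (labRel s p) f l = lam * f l) (hlam : 2 < lam) :
    ∀ p l, av (labRel s p) f l = f l := by
  have hα : ∀ (l : C → Fin 3) (x y : C), s x = s y → f (l ∘ Equiv.swap x y) = f l :=
    fun l x y hs => step_one s f lam hf hlam l x y hs
  have hβ : ∀ (l : C → Fin 3) (x y : C) (p q : Fin 3), s x = true → s y = false → l x = p →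
      l y = p → q ≠ p → f (upd l x y q) = f l :=
    fun l x y p q sx sy lx ly hqp => step_two s f lam hf hlam hα l x y p q sx sy lx ly hqp
  intro p l
  refine av_eq_of_inv _ _ _ fun m hm => ?_
  obtain ⟨q, hqp⟩ : ∃ q : Fin 3, q ≠ p :=
    (by decide : ∀ p : Fin 3, ∃ q : Fin 3, q ≠ p) p
  obtain ⟨r, hrp, hrq⟩ := exists_third p q hqp
  set Z : Finset C := univ.filter fun z => l z ≠ p with hZ
  have hl : ∀ z, z ∈ Z ↔ l z ≠ p := fun z => by simp [hZ]
  have hm' := (labRel_iff_card s hqp hrp hrq hl).mp hm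
  rw [← Lam_Uof s hqp hrp hrq hl, ← Lam_Uof s hqp hrp hrq hm'.1]
  exact connected s f hα hβ p q r hrq _ _ _ (filter_subset _ _) (filter_subset _ _) hm'.2 rfl

end Vale.Agent.KTV
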