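import Vale.Agent.KTV.Label
import Vale.Agent.KTV.Spectral

/-!
The three-row lemma for labelings and for `0-1` matrices with three rows.

`mat_three` from `label_three`: by `sum_nonneg_of_cls` for the relation of having the same column
sums, it suffices to sum over the matrices `M` with the same column sums as a fixed `M₀`.  Let
`C' = {x // the column sum of M₀ at x is 1 or 2}`, `s x = true` iff the column sum is `1`.  The map
`φ : (C' → Fin 3) → (Fin 3 → C → Bool)`, `φ l q x = (l x = q)` for column sum `1`, `(l x ≠ q)` for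
column sum `2`, constant on the other columns, is injective, has as range exactly the matrices with the
column sums of `M₀`, and `labRel s p l m ↔ matRel C p (φ l) (φ m)`; then use `dv_embed`.
-/

open Finset

namespace Vale.Agent.KTV

theorem label_three {C : Type*} [Fintype C] [DecidableEq C] (s : C → Bool)
    (f : (C → Fin 3) → ℝ) :
    0 ≤ ∑ l, (dv (labRel s 0) f l * dv (labRel s 1) f l + dv (labRel s 1) f l * dv (labRel s 2) f l +
      dv (labRel s 0) f l * dv (labRel s 2) f l) :=
  three_of_eig (labRel s) (fun g lam hg hl => label_max s g lam hg hl) f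

section Mat

variable {C : Type*}

/-- The column sum. -/
def csum (M : Fin 3 → C → Bool) (x : C) : ℤ := ∑ q, (if M q x = true then (1 : ℤ) else 0)

/-- Same column sums. -/
def colRel (C : Type*) : Setoid (Fin 3 → C → Bool) where
  r M N := ∀ x, csum M x = csum N x
  iseqv :=
    { refl := fun _ _ => rfl
      symm := fun h x => (h x).symm
      trans := fun h h' x => (h x).trans (h' x) }

theorem vec_one : ∀ v : Fin 3 → Bool, (∑ q, (if v q = true then (1 : ℤ) else 0)) = 1 →
    ∃ a : Fin 3, ∀ q, v q = decide (a = q) := by decide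

theorem vec_two : ∀ v : Fin 3 → Bool, (∑ q, (if v q = true then (1 : ℤ) else 0)) = 2 →
    ∃ a : Fin 3, ∀ q, v q = decide (a ≠ q) := by decide

theorem vec_rest : ∀ v w : Fin 3 → Bool, (∑ q, (if v q = true then (1 : ℤ) else 0)) =
    (∑ q, (if w q = true then (1 : ℤ) else 0)) →
    ¬ ((∑ q, (if v q = true then (1 : ℤ) else 0)) = 1 ∨
      (∑ q, (if v q = true then (1 : ℤ) else 0)) = 2) → ∀ q, v q = w q := by decide

theorem sum_dec_one : ∀ a : Fin 3,
    (∑ q, (if decide (a = q) = true then (1 : ℤ) else 0)) = 1 := by decide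

theorem sum_dec_two : ∀ a : Fin 3,
    (∑ q, (if decide (a ≠ q) = true then (1 : ℤ) else 0)) = 2 := by decide

/-- The columns with column sum `1` or `2`. -/
abbrev Act (M₀ : Fin 3 → C → Bool) : Type _ := {x : C // csum M₀ x = 1 ∨ csum M₀ x = 2}

/-- Type of an active column. -/
def typ (M₀ : Fin 3 → C → Bool) (x : Act M₀) : Bool := decide (csum M₀ x.1 = 1)

/-- The matrix attached to a labeling. -/
def phi (M₀ : Fin 3 → C → Bool) (l : Act M₀ → Fin 3) : Fin 3 → C → Bool := fun q x =>
  if h : csum M₀ x = 1 ∨ csum M₀ x = 2 then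
    (if csum M₀ x = 1 then decide (l ⟨x, h⟩ = q) else decide (l ⟨x, h⟩ ≠ q))
  else M₀ q x

theorem phi_act_one (M₀ : Fin 3 → C → Bool) (l : Act M₀ → Fin 3) (q : Fin 3) (x : Act M₀)
    (h : csum M₀ x.1 = 1) : phi M₀ l q x.1 = decide (l x = q) := by
  unfold phi
  rw [dif_pos x.2, if_pos h]

theorem phi_act_two (M₀ : Fin 3 → C → Bool) (l : Act M₀ → Fin 3) (q : Fin 3) (x : Act M₀)
    (h : ¬ csum M₀ x.1 = 1) : phi M₀ l q x.1 = decide (l x ≠ q) := by
  unfold phi
  rw [dif_pos x.2, if_neg h]

theorem phi_inact (M₀ : Fin 3 → C → Bool) (l : Act M₀ → Fin 3) (q : Fin 3) (x : C)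
    (h : ¬ (csum M₀ x = 1 ∨ csum M₀ x = 2)) : phi M₀ l q x = M₀ q x := by
  unfold phi
  rw [dif_neg h]

theorem csum_phi (M₀ : Fin 3 → C → Bool) (l : Act M₀ → Fin 3) (x : C) :
    csum (phi M₀ l) x = csum M₀ x := by
  by_cases h : csum M₀ x = 1 ∨ csum M₀ x = 2
  · by_cases h1 : csum M₀ x = 1
    · rw [h1]
      refine Eq.trans ?_ (sum_dec_one (l ⟨x, h⟩))
      unfold csum
      refine sum_congr rfl fun q _ => ?_
      have e := phi_act_one M₀ l q ⟨x, h⟩ h1
      change phi M₀ l q x = _ at e
      by_cases hq : l ⟨x, h⟩ = q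
      · exact (if_pos (e.trans (decide_eq_true hq))).trans
          (if_pos (decide_eq_true hq)).symm
      · exact (if_neg (by rw [e, decide_eq_false hq]; decide)).trans
          (if_neg (by
            intro hh
            exact hq (of_decide_eq_true hh))).symm
    · have h2 : csum M₀ x = 2 := by tauto
      rw [h2]
      refine Eq.trans ?_ (sum_dec_two (l ⟨x, h⟩))
      unfold csum
      refine sum_congr rfl fun q _ => ?_
      have e := phi_act_two M₀ l q ⟨x, h⟩ h1
      change phi M₀ l q x = _ at e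
      by_cases hq : l ⟨x, h⟩ ≠ q
      · exact (if_pos (e.trans (decide_eq_true hq))).trans
          (if_pos (decide_eq_true hq)).symm
      · exact (if_neg (by rw [e, decide_eq_false hq]; decide)).trans
          (if_neg (by
            intro hh
            exact hq (of_decide_eq_true hh))).symm
  · unfold csum
    refine sum_congr rfl fun q _ => ?_
    rw [phi_inact M₀ l q x h]

theorem phi_surj (M₀ N : Fin 3 → C → Bool) (hN : ∀ x, csum N x = csum M₀ x) :
    ∃ l, phi M₀ l = N := by
  classical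
  have key : ∀ x : Act M₀, ∃ a : Fin 3, ∀ q,
      N q x.1 = if csum M₀ x.1 = 1 then decide (a = q) else decide (a ≠ q) := by
    intro x
    by_cases h1 : csum M₀ x.1 = 1
    · obtain ⟨a, ha⟩ := vec_one (fun q => N q x.1) (by
        have := hN x.1; rw [h1] at this; exact this)
      exact ⟨a, fun q => by rw [if_pos h1]; exact ha q⟩
    · have h2 : csum M₀ x.1 = 2 := by
        have := x.2; tauto
      obtain ⟨a, ha⟩ := vec_two (fun q => N q x.1) (by
        have := hN x.1; rw [h2] at this; exact this)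
      exact ⟨a, fun q => by rw [if_neg h1]; exact ha q⟩
  choose l hl using key
  refine ⟨l, ?_⟩
  funext q x
  by_cases h : csum M₀ x = 1 ∨ csum M₀ x = 2
  · rw [hl ⟨x, h⟩ q]
    by_cases h1 : csum M₀ x = 1
    · rw [phi_act_one M₀ l q ⟨x, h⟩ h1, if_pos h1]
    · rw [phi_act_two M₀ l q ⟨x, h⟩ h1, if_neg h1]
  · rw [phi_inact M₀ l q x h]
    exact vec_rest (fun q => M₀ q x) (fun q => N q x) (hN x).symm h q

theorem phi_row_iff (M₀ : Fin 3 → C → Bool) (l m : Act M₀ → Fin 3) (p : Fin 3) :
    phi M₀ l p = phi M₀ m p ↔ ∀ x, (l x = p ↔ m x = p) := by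
  constructor
  · intro h x
    have h' := congrFun h x.1
    by_cases h1 : csum M₀ x.1 = 1
    · rw [phi_act_one M₀ l p x h1, phi_act_one M₀ m p x h1] at h'
      simpa using h'
    · rw [phi_act_two M₀ l p x h1, phi_act_two M₀ m p x h1] at h'
      simpa using h'
  · intro h
    funext x
    by_cases hx : csum M₀ x = 1 ∨ csum M₀ x = 2
    · by_cases h1 : csum M₀ x = 1
      · rw [phi_act_one M₀ l p ⟨x, hx⟩ h1, phi_act_one M₀ m p ⟨x, hx⟩ h1]
        have := h ⟨x, hx⟩
        simp [this]
      · rw [phi_act_two M₀ l p ⟨x, hx⟩ h1, phi_act_two M₀ m p ⟨x, hx⟩ h1]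
        have := h ⟨x, hx⟩
        simp [this]
    · rw [phi_inact M₀ l p x hx, phi_inact M₀ m p x hx]

theorem phi_inj (M₀ : Fin 3 → C → Bool) : Function.Injective (phi M₀) := by
  intro l m h
  funext x
  have := (phi_row_iff M₀ l m (l x)).mp (by rw [h]) x
  exact (this.mp rfl).symm

theorem rsum_phi [Fintype C] (M₀ : Fin 3 → C → Bool) (q : Fin 3) :
    ∃ K : ℤ, ∀ l : Act M₀ → Fin 3,
      ∑ x, (if phi M₀ l q x = true then (1 : ℤ) else 0) = wt (typ M₀) l q + K := by
  classical
  refine ⟨∑ x : Act M₀, (if csum M₀ x.1 = 1 then 0 else 1) +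
    ∑ x : {x : C // ¬ (csum M₀ x = 1 ∨ csum M₀ x = 2)}, (if M₀ q x.1 = true then (1 : ℤ) else 0),
    fun l => ?_⟩
  rw [← Fintype.sum_subtype_add_sum_subtype (fun x => csum M₀ x = 1 ∨ csum M₀ x = 2),
    ← add_assoc]
  congr 1
  · unfold wt
    rw [← sum_add_distrib]
    refine sum_congr rfl fun x _ => ?_
    by_cases h1 : csum M₀ x.1 = 1
    · rw [phi_act_one M₀ l q x h1]
      have ht : typ M₀ x = true := by simp [typ, h1]
      by_cases hq : l x = q <;> simp [hq, h1, ht]
    · rw [phi_act_two M₀ l q x h1]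
      have ht : typ M₀ x = false := by simp [typ, h1]
      by_cases hq : l x = q <;> simp [hq, h1, ht]
  · refine sum_congr rfl fun x _ => ?_
    rw [phi_inact M₀ l q x.1 x.2]

theorem labRel_iff_matRel [Fintype C] (M₀ : Fin 3 → C → Bool) (p : Fin 3)
    (l m : Act M₀ → Fin 3) :
    labRel (typ M₀) p l m ↔ matRel C p (phi M₀ l) (phi M₀ m) := by
  constructor
  · rintro ⟨h1, h2⟩
    refine ⟨(phi_row_iff M₀ l m p).mpr h1, fun x => ?_, fun q => ?_⟩
    · have := csum_phi M₀ l x
      have h' := csum_phi M₀ m x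
      unfold csum at this h'
      rw [this, h']
    · obtain ⟨K, hK⟩ := rsum_phi M₀ q
      rw [hK l, hK m, h2 q]
  · rintro ⟨h1, _, h3⟩
    refine ⟨(phi_row_iff M₀ l m p).mp h1, fun q => ?_⟩
    obtain ⟨K, hK⟩ := rsum_phi M₀ q
    have := h3 q
    rw [hK l, hK m] at this
    linarith

end Mat

theorem mat_three {C : Type*} [Fintype C] [DecidableEq C] (f : (Fin 3 → C → Bool) → ℝ) :
    0 ≤ ∑ M, (dv (matRel C 0) f M * dv (matRel C 1) f M + dv (matRel C 1) f M * dv (matRel C 2) f M +
      dv (matRel C 0) f M * dv (matRel C 2) f M) := by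
  classical
  refine sum_nonneg_of_cls (colRel C) _ fun M₀ => ?_
  obtain ⟨l₀, hl₀⟩ := phi_surj M₀ M₀ (fun _ => rfl)
  have hsum := sum_cls_embed (colRel C) (⊤ : Setoid (Act M₀ → Fin 3)) (phi M₀) (phi_inj M₀)
    (by
      intro l m
      constructor
      · intro _ x
        rw [csum_phi, csum_phi]
      · intro _; trivial)
    (by
      intro l N hN
      exact phi_surj M₀ N (fun x => by rw [← hN x, csum_phi]))
    (fun M => dv (matRel C 0) f M * dv (matRel C 1) f M +
      dv (matRel C 1) f M * dv (matRel C 2) f M +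
      dv (matRel C 0) f M * dv (matRel C 2) f M) l₀
  rw [hl₀] at hsum
  rw [hsum]
  have hall : cls (⊤ : Setoid (Act M₀ → Fin 3)) l₀ = univ := by
    ext l; simp only [mem_cls, mem_univ, iff_true]; trivial
  rw [hall]
  have hdv : ∀ (p : Fin 3) (l : Act M₀ → Fin 3),
      dv (matRel C p) f (phi M₀ l) = dv (labRel (typ M₀) p) (fun m => f (phi M₀ m)) l := by
    intro p l
    refine dv_embed (matRel C p) (labRel (typ M₀) p) (phi M₀) (phi_inj M₀)
      (labRel_iff_matRel M₀ p) ?_ f l
    intro l N hN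
    refine phi_surj M₀ N (fun x => ?_)
    have := hN.2.1 x
    have h' : csum (phi M₀ l) x = csum N x := this
    rw [← h', csum_phi]
  simp only [hdv]
  exact label_three (typ M₀) (fun m => f (phi M₀ m))

end Vale.Agent.KTV
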