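import Vale.Agent.KTV.Defs

/-!
# Perfect matchings on four points and the switch move
-/

open Finset BigOperators

namespace KTV

variable {n : ℕ}

/-- The matching `{ab, ce}`. -/
def mk4 (a b c e : Fin n) : Finset (Sym2 (Fin n)) := {s(a, b), s(c, e)}

theorem isPM_mk4 {a b c e : Fin n} (hab : a ≠ b) (hac : a ≠ c) (hae : a ≠ e) (hbc : b ≠ c)
    (hbe : b ≠ e) (hce : c ≠ e) {S : Finset (Fin n)} (hS : S = {a, b, c, e}) :
    IsPerfectMatchingOn S (mk4 a b c e) := by
  subst hS
  refine ⟨?_, ?_⟩
  · intro f hf
    simp only [mk4, Finset.mem_insert, Finset.mem_singleton] at hf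
    rcases hf with rfl | rfl
    · refine ⟨by simpa using hab, ?_⟩
      intro v hv
      simp only [Sym2.mem_iff] at hv
      simp only [Finset.mem_insert, Finset.mem_singleton]
      tauto
    · refine ⟨by simpa using hce, ?_⟩
      intro v hv
      simp only [Sym2.mem_iff] at hv
      simp only [Finset.mem_insert, Finset.mem_singleton]
      tauto
  · intro v hv
    simp only [Finset.mem_insert, Finset.mem_singleton] at hv
    rcases hv with rfl | rfl | rfl | rfl
    · refine ⟨s(v, b), by simp [mk4], ?_⟩
      rintro f ⟨hf, hvf⟩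
      simp only [mk4, Finset.mem_insert, Finset.mem_singleton] at hf
      rcases hf with rfl | rfl
      · rfl
      · simp only [Sym2.mem_iff] at hvf; tauto
    · refine ⟨s(a, v), by simp [mk4], ?_⟩
      rintro f ⟨hf, hvf⟩
      simp only [mk4, Finset.mem_insert, Finset.mem_singleton] at hf
      rcases hf with rfl | rfl
      · rfl
      · simp only [Sym2.mem_iff] at hvf; tauto
    · refine ⟨s(v, e), by simp [mk4], ?_⟩
      rintro f ⟨hf, hvf⟩
      simp only [mk4, Finset.mem_insert, Finset.mem_singleton] at hf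
      rcases hf with rfl | rfl
      · simp only [Sym2.mem_iff] at hvf
        rcases hvf with h | h
        · exact absurd h.symm hac
        · exact absurd h.symm hbc
      · rfl
    · refine ⟨s(c, v), by simp [mk4], ?_⟩
      rintro f ⟨hf, hvf⟩
      simp only [mk4, Finset.mem_insert, Finset.mem_singleton] at hf
      rcases hf with rfl | rfl
      · simp only [Sym2.mem_iff] at hvf
        rcases hvf with h | h
        · exact absurd h.symm hae
        · exact absurd h.symm hbe
      · rfl

/-- Every perfect matching on `{a,b,c,e}` pairs `a` with one of the others. -/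
theorem isPM_cases {a b c e : Fin n} (hab : a ≠ b) (hac : a ≠ c) (hae : a ≠ e) (hbc : b ≠ c)
    (hbe : b ≠ e) (hce : c ≠ e) {F : Finset (Sym2 (Fin n))}
    (hF : IsPerfectMatchingOn {a, b, c, e} F) :
    F = mk4 a b c e ∨ F = mk4 a c b e ∨ F = mk4 a e b c := by
  obtain ⟨h1, h2⟩ := hF
  -- the partner of a vertex
  have key : ∀ v ∈ ({a, b, c, e} : Finset (Fin n)), ∃ w ∈ ({a, b, c, e} : Finset (Fin n)),
      w ≠ v ∧ s(v, w) ∈ F ∧ ∀ f ∈ F, v ∈ f → f = s(v, w) := by
    intro v hv
    obtain ⟨f, ⟨hf, hvf⟩, hu⟩ := h2 v hv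
    obtain ⟨w, rfl⟩ := Sym2.mem_iff_exists.mp hvf
    refine ⟨w, (h1 _ hf).2 w (by simp), ?_, hf, ?_⟩
    · intro hwv
      exact (h1 _ hf).1 (by simp [hwv])
    · intro f' hf' hv'
      exact hu f' ⟨hf', hv'⟩
  -- two complementary pairs determine F
  have det : ∀ p q r t : Fin n, ({a, b, c, e} : Finset (Fin n)) = {p, q, r, t} → p ≠ r → p ≠ t →
      q ≠ r → q ≠ t → s(p, q) ∈ F → F = mk4 p q r t := by
    intro p q r t hS hpr hpt hqr hqt hpq
    have hr : r ∈ ({a, b, c, e} : Finset (Fin n)) := by rw [hS]; simp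
    have hp : p ∈ ({a, b, c, e} : Finset (Fin n)) := by rw [hS]; simp
    have hq : q ∈ ({a, b, c, e} : Finset (Fin n)) := by rw [hS]; simp
    obtain ⟨w, hw, hwr, hrw, hru⟩ := key r hr
    have hwt : w = t := by
      rw [hS] at hw
      simp only [Finset.mem_insert, Finset.mem_singleton] at hw
      rcases hw with rfl | rfl | rfl | rfl
      · obtain ⟨_, _, hu⟩ := h2 w hp
        have e1 := hu _ ⟨hpq, by simp⟩
        have e2 := hu _ ⟨hrw, by simp⟩
        have e3 : s(r, w) = s(w, q) := by rw [e2, e1]
        simp only [Sym2.eq_iff] at e3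
        rcases e3 with ⟨h, _⟩ | ⟨h, _⟩
        · exact absurd h.symm hpr
        · exact absurd h.symm hqr
      · obtain ⟨_, _, hu⟩ := h2 w hq
        have e1 := hu _ ⟨hpq, by simp⟩
        have e2 := hu _ ⟨hrw, by simp⟩
        have e3 : s(r, w) = s(p, w) := by rw [e2, e1]
        simp only [Sym2.eq_iff] at e3
        rcases e3 with ⟨h, _⟩ | ⟨h, _⟩
        · exact absurd h.symm hpr
        · exact absurd h.symm hqr
      · exact absurd rfl hwr
      · rfl
    subst hwt
    ext f
    simp only [mk4, Finset.mem_insert, Finset.mem_singleton]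
    constructor
    · intro hf
      -- take a vertex of f
      induction f using Sym2.ind with
      | _ u v =>
        have hu := (h1 _ hf).2 u (by simp)
        rw [hS] at hu
        simp only [Finset.mem_insert, Finset.mem_singleton] at hu
        rcases hu with rfl | rfl | rfl | rfl
        · obtain ⟨_, _, hu⟩ := h2 u hp
          left; rw [hu _ ⟨hf, by simp⟩, hu _ ⟨hpq, by simp⟩]
        · obtain ⟨_, _, hu⟩ := h2 u hq
          left; rw [hu _ ⟨hf, by simp⟩, hu _ ⟨hpq, by simp⟩]
        · right; exact hru _ hf (by simp)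
        · obtain ⟨_, _, hu⟩ := h2 u (by rw [hS]; simp)
          right; rw [hu _ ⟨hf, by simp⟩, hu _ ⟨hrw, by simp⟩]
    · rintro (rfl | rfl)
      · exact hpq
      · exact hrw
  obtain ⟨w, hw, hwa, haw, _⟩ := key a (by simp)
  simp only [Finset.mem_insert, Finset.mem_singleton] at hw
  rcases hw with rfl | rfl | rfl | rfl
  · exact absurd rfl hwa
  · left; exact det a w c e rfl hac hae hbc hbe haw
  · right; left
    exact det a w b e (by ext z; simp only [Finset.mem_insert, Finset.mem_singleton]; tauto)
      hab hae (Ne.symm hbc) hce haw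
  · right; right
    exact det a w b c (by ext z; simp only [Finset.mem_insert, Finset.mem_singleton]; tauto)
      hab hac (Ne.symm hbe) (Ne.symm hce) haw

theorem mk4_ne {a b c e : Fin n} (hab : a ≠ b) (hac : a ≠ c) (hae : a ≠ e) (hbc : b ≠ c)
    (_hbe : b ≠ e) (_hce : c ≠ e) : mk4 a b c e ≠ mk4 a c b e := by
  intro h
  have : s(a, b) ∈ mk4 a c b e := by rw [← h]; simp [mk4]
  simp only [mk4, Finset.mem_insert, Finset.mem_singleton, Sym2.eq_iff] at this
  tauto

theorem mk4_comm_right (a b c e : Fin n) : mk4 a b c e = mk4 a b e c := by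
  simp only [mk4, Sym2.eq_swap (a := c) (b := e)]

open Classical in
/-- There are exactly six ordered pairs of distinct perfect matchings on a 4-set. -/
theorem card_matchingPairs {S : Finset (Fin n)} (hS : S.card = 4) :
    (matchingPairs S).card = 6 := by
  obtain ⟨a, b, c, e, hab, hac, hae, hbc, hbe, hce, rfl⟩ := Finset.card_eq_four.mp hS
  have hM : matchingPairs ({a, b, c, e} : Finset (Fin n))
      = ({mk4 a b c e, mk4 a c b e, mk4 a e b c} :
          Finset (Finset (Sym2 (Fin n)))).offDiag := by
    ext ⟨F, F'⟩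
    simp only [matchingPairs, Finset.mem_filter, Finset.mem_univ, true_and, Finset.mem_offDiag,
      Finset.mem_insert, Finset.mem_singleton]
    have hin : ∀ F : Finset (Sym2 (Fin n)), IsPerfectMatchingOn {a, b, c, e} F ↔
        (F = mk4 a b c e ∨ F = mk4 a c b e ∨ F = mk4 a e b c) := by
      intro F
      constructor
      · exact isPM_cases hab hac hae hbc hbe hce
      · rintro (rfl | rfl | rfl)
        · exact isPM_mk4 hab hac hae hbc hbe hce rfl
        · refine isPM_mk4 hac hab hae (Ne.symm hbc) hce hbe ?_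
          ext z; simp only [Finset.mem_insert, Finset.mem_singleton]; tauto
        · refine isPM_mk4 hae hab hac (Ne.symm hbe) (Ne.symm hce) hbc ?_
          ext z; simp only [Finset.mem_insert, Finset.mem_singleton]; tauto
    rw [hin F, hin F']
  rw [hM, Finset.offDiag_card]
  have h3 : ({mk4 a b c e, mk4 a c b e, mk4 a e b c} :
      Finset (Finset (Sym2 (Fin n)))).card = 3 := by
    rw [Finset.card_eq_three]
    refine ⟨_, _, _, ?_, ?_, ?_, rfl⟩
    · exact mk4_ne hab hac hae hbc hbe hce
    · rw [mk4_comm_right a b c e, mk4_comm_right a e b c, mk4_comm_right a e c b]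
      exact mk4_ne hab hae hac hbe hbc (Ne.symm hce)
    · rw [mk4_comm_right a c b e]
      rw [mk4_comm_right a e b c]
      exact mk4_ne hac hae hab hce (Ne.symm hbc) (Ne.symm hbe)
  rw [h3]

end KTV
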