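import Vale.Agent.KTV.Transfer

/-!
The explicit bound `n ^ 6` for the mixing time.
-/

open Finset

namespace Vale.Agent.KTV

variable {n : ℕ}

/-- The energy of a directed move (zero unless both are perfect matchings of `S`). -/
noncomputable def en (d : Fin n → ℕ) (f : KTV.Omega n d → ℝ) (S : Finset (Fin n))
    (p : Finset (Sym2 (Fin n)) × Finset (Sym2 (Fin n))) : ℝ := by
  classical
  exact if h : KTV.IsPerfectMatchingOn S p.1 ∧ KTV.IsPerfectMatchingOn S p.2 then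
    ∑ G, (f G - f (KTV.moveO h.1 h.2 G)) ^ 2 else 0

theorem en_of (d : Fin n → ℕ) (f : KTV.Omega n d → ℝ) {S : Finset (Fin n)}
    {F F' : Finset (Sym2 (Fin n))} (hF : KTV.IsPerfectMatchingOn S F)
    (hF' : KTV.IsPerfectMatchingOn S F') :
    en d f S (F, F') = ∑ G, (f G - f (KTV.moveO hF hF' G)) ^ 2 := by
  unfold en
  rw [dif_pos ⟨hF, hF'⟩]

theorem en_nonneg (d : Fin n → ℕ) (f : KTV.Omega n d → ℝ) (S : Finset (Fin n))
    (p : Finset (Sym2 (Fin n)) × Finset (Sym2 (Fin n))) : 0 ≤ en d f S p := by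
  unfold en
  split_ifs
  · exact sum_nonneg fun G _ => sq_nonneg _
  · exact le_rfl

/-- The Dirichlet form as an average of energies. -/
theorem dirichlet_eq_en (d : Fin n → ℕ) (f : KTV.Omega n d → ℝ) :
    (1 / 2 : ℝ) * ∑ G, ∑ H, KTV.switchChain n d G H * (f G - f H) ^ 2 =
      (1 / 24) * (1 / (n.choose 4 : ℝ)) * ∑ S ∈ powersetCard 4 (univ : Finset (Fin n)),
        ∑ p ∈ KTV.matchingPairs S, en d f S p := by
  classical
  have e1 : (1 / 2 : ℝ) * ∑ G, ∑ H, KTV.switchChain n d G H * (f G - f H) ^ 2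
      = (1 / 4) * ∑ G, ∑ H, KTV.switchQ n d G H * (f G - f H) ^ 2 := by
    rw [show (1 / 4 : ℝ) = (1 / 2) * (1 / 2) by norm_num, mul_assoc]
    congr 1
    rw [mul_sum]
    refine sum_congr rfl fun G _ => ?_
    rw [mul_sum]
    refine sum_congr rfl fun H _ => ?_
    rw [KTV.switchChain_eq]
    by_cases h : G = H
    · subst h; simp
    · simp [h]; ring
  rw [e1]
  simp only [KTV.sum_switchQ_mul d]
  have e2 : ∀ S : Finset (Fin n), ∑ p ∈ KTV.matchingPairs S, en d f S p =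
      ∑ p ∈ (KTV.matchingPairs S).attach, ∑ G,
        (f G - f (KTV.moveO (KTV.mem_matchingPairs.mp p.2).1 (KTV.mem_matchingPairs.mp p.2).2.1 G)) ^ 2 := by
    intro S
    rw [← sum_attach]
    refine sum_congr rfl fun p _ => ?_
    unfold en
    rw [dif_pos ⟨(KTV.mem_matchingPairs.mp p.2).1, (KTV.mem_matchingPairs.mp p.2).2.1⟩]
  simp only [e2]
  rw [← mul_sum, sum_comm]
  have e3 : ∀ S : Finset (Fin n), ∑ G : KTV.Omega n d, (1 / 6 : ℝ) * ∑ p ∈ (KTV.matchingPairs S).attach,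
        (f G - f (KTV.moveO (KTV.mem_matchingPairs.mp p.2).1 (KTV.mem_matchingPairs.mp p.2).2.1 G)) ^ 2
      = (1 / 6) * ∑ p ∈ (KTV.matchingPairs S).attach, ∑ G,
        (f G - f (KTV.moveO (KTV.mem_matchingPairs.mp p.2).1 (KTV.mem_matchingPairs.mp p.2).2.1 G)) ^ 2 := by
    intro S
    rw [← mul_sum, sum_comm]
  simp only [e3]
  rw [← mul_sum]
  ring

/-- Quadruples of vertices. -/
abbrev Quad (n : ℕ) := Fin n × Fin n × Fin n × Fin n

/-- The good quadruples. -/
def goodQ (n : ℕ) : Finset (Quad n) := univ.filter (fun q => Good q.1 q.2.1 q.2.2.1 q.2.2.2)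

/-- The four-set and the ordered pair of matchings of a quadruple. -/
def quadMap (q : Quad n) : Finset (Fin n) × (Finset (Sym2 (Fin n)) × Finset (Sym2 (Fin n))) :=
  ({q.1, q.2.1, q.2.2.1, q.2.2.2}, (KTV.mk4 q.1 q.2.2.1 q.2.1 q.2.2.2, KTV.mk4 q.1 q.2.2.2 q.2.1 q.2.2.1))

theorem quadMap_inj {q q' : Quad n} (hq : q ∈ goodQ n) (hq' : q' ∈ goodQ n)
    (h : quadMap q = quadMap q') (h1 : q.1 = q'.1) : q = q' := by
  obtain ⟨i, k, j, l⟩ := q
  obtain ⟨i', k', j', l'⟩ := q'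
  simp only [goodQ, mem_filter, mem_univ, true_and] at hq hq'
  simp only at h1
  subst h1
  simp only [quadMap, Prod.mk.injEq] at h
  obtain ⟨hS, hF, hF'⟩ := h
  unfold Good at hq hq'
  have a1 : s(i, j) ∈ KTV.mk4 i j' k' l' := by rw [← hF]; simp [KTV.mk4]
  have a2 : s(k, l) ∈ KTV.mk4 i j' k' l' := by rw [← hF]; simp [KTV.mk4]
  have a3 : s(i, l) ∈ KTV.mk4 i l' k' j' := by rw [← hF']; simp [KTV.mk4]
  simp only [KTV.mk4, mem_insert, mem_singleton, Sym2.eq_iff] at a1 a2 a3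
  have hj : j = j' := by
    rcases a1 with (⟨-, h⟩ | ⟨h, h'⟩) | (⟨h, h'⟩ | ⟨h, h'⟩)
    · exact h
    · exact absurd h hq'.2.2.1
    · exact absurd h hq'.1
    · exact absurd h hq'.2.2.2.1
  have hl : l = l' := by
    rcases a3 with (⟨-, h⟩ | ⟨h, h'⟩) | (⟨h, h'⟩ | ⟨h, h'⟩)
    · exact h
    · exact absurd h hq'.2.2.2.1
    · exact absurd h hq'.1
    · exact absurd h hq'.2.2.1
  subst hj hl
  have hk : k = k' := by
    rcases a2 with (⟨h, h'⟩ | ⟨h, h'⟩) | (⟨h, h'⟩ | ⟨h, h'⟩)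
    · exact absurd h.symm hq.1
    · exact absurd h'.symm hq.2.2.2.1
    · exact h
    · exact absurd h hq.2.2.2.2.2
  subst hk
  rfl

theorem sum_quad_le (F : Finset (Fin n) × (Finset (Sym2 (Fin n)) × Finset (Sym2 (Fin n))) → ℝ)
    (hF : ∀ x, 0 ≤ F x) :
    ∑ q ∈ goodQ n, F (quadMap q) ≤ 4 * ∑ S ∈ powersetCard 4 (univ : Finset (Fin n)),
      ∑ p ∈ KTV.matchingPairs S, F (S, p) := by
  classical
  set T : Finset ((_ : Finset (Fin n)) × (Finset (Sym2 (Fin n)) × Finset (Sym2 (Fin n)))) :=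
    (powersetCard 4 (univ : Finset (Fin n))).sigma (fun S => KTV.matchingPairs S) with hT
  have hsum : ∑ S ∈ powersetCard 4 (univ : Finset (Fin n)), ∑ p ∈ KTV.matchingPairs S, F (S, p) =
      ∑ x ∈ T, F (x.1, x.2) := by
    rw [hT, sum_sigma]
  rw [hsum]
  have hmap : ∀ q ∈ goodQ n, (⟨(quadMap q).1, (quadMap q).2⟩ :
      (_ : Finset (Fin n)) × (Finset (Sym2 (Fin n)) × Finset (Sym2 (Fin n)))) ∈ T := by
    intro q hq
    simp only [goodQ, mem_filter, mem_univ, true_and] at hq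
    have hP := isPM_block hq
    obtain ⟨hik, hjl, hij, hil, hkj, hkl⟩ := hq
    rw [hT, mem_sigma]
    constructor
    · rw [mem_powersetCard]
      refine ⟨subset_univ _, ?_⟩
      simp only [quadMap]
      rw [card_insert_of_notMem, card_insert_of_notMem, card_insert_of_notMem, card_singleton]
      · simpa using hjl
      · simp [hkj, hkl]
      · simp [hik, hij, hil]
    · exact KTV.mem_matchingPairs.mpr hP
  rw [← sum_fiberwise_of_maps_to hmap, mul_sum]
  refine sum_le_sum fun x _ => ?_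
  have h1 : ∀ q ∈ (goodQ n).filter (fun q => (⟨(quadMap q).1, (quadMap q).2⟩ :
      (_ : Finset (Fin n)) × (Finset (Sym2 (Fin n)) × Finset (Sym2 (Fin n)))) = x),
      F (quadMap q) = F (x.1, x.2) := by
    intro q hq
    rw [mem_filter] at hq
    rw [← hq.2]
  rw [sum_congr rfl h1, sum_const, nsmul_eq_mul]
  refine mul_le_mul_of_nonneg_right ?_ (hF _)
  by_cases hne : ((goodQ n).filter (fun q => (⟨(quadMap q).1, (quadMap q).2⟩ :
      (_ : Finset (Fin n)) × (Finset (Sym2 (Fin n)) × Finset (Sym2 (Fin n)))) = x)).Nonempty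
  · obtain ⟨q₀, hq₀⟩ := hne
    rw [mem_filter] at hq₀
    have hxT := hmap q₀ hq₀.1
    rw [hq₀.2, hT, mem_sigma, mem_powersetCard] at hxT
    have h4 : x.1.card = 4 := hxT.1.2
    have : ((goodQ n).filter (fun q => (⟨(quadMap q).1, (quadMap q).2⟩ :
      (_ : Finset (Fin n)) × (Finset (Sym2 (Fin n)) × Finset (Sym2 (Fin n)))) = x)).card ≤ x.1.card := by
      refine card_le_card_of_injOn (fun q => q.1) ?_ ?_
      · intro q hq
        rw [mem_coe, mem_filter] at hq
        rw [← hq.2]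
        simp [quadMap]
      · intro q hq q' hq' h
        rw [mem_coe, mem_filter] at hq hq'
        refine quadMap_inj hq.1 hq'.1 ?_ h
        have h2 := hq.2.trans hq'.2.symm
        simp only [Sigma.mk.injEq, heq_eq_eq] at h2
        exact Prod.ext h2.1 h2.2
    rw [h4] at this
    exact_mod_cast this
  · rw [not_nonempty_iff_eq_empty] at hne
    rw [hne]; simp

theorem switch_poincare_sharp (hn : 4 ≤ n) (d : Fin n → ℕ) (f : KTV.Omega n d → ℝ)
    (hf : ∑ G, f G = 0) :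
    ∑ G, f G ^ 2 ≤ (12 * (n.choose 4 : ℝ)) *
        ((1 / 2) * ∑ G, ∑ H, KTV.switchChain n d G H * (f G - f H) ^ 2) := by
  classical
  have hgap := gap_omega d f hf
  set E : ℝ := ∑ S ∈ powersetCard 4 (univ : Finset (Fin n)),
        ∑ p ∈ KTV.matchingPairs S, en d f S p with hE
  have hS4 : gapS (fun i k j l => ∑ g, (ext d f g - ext d f (sw i k j l g)) ^ 2) =
      ∑ q ∈ goodQ n, ∑ g, (ext d f g - ext d f (sw q.1 q.2.1 q.2.2.1 q.2.2.2 g)) ^ 2 := by
    unfold gapS goodQ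
    rw [sum_filter, ← univ_product_univ, sum_product]
    refine sum_congr rfl fun i _ => ?_
    rw [← univ_product_univ, sum_product]
    refine sum_congr rfl fun k _ => ?_
    rw [← univ_product_univ, sum_product]
  have hle : ∑ q ∈ goodQ n, ∑ g, (ext d f g - ext d f (sw q.1 q.2.1 q.2.2.1 q.2.2.2 g)) ^ 2 ≤
      ∑ q ∈ goodQ n, ((fun x => en d f x.1 x.2) (quadMap q) +
        (fun x => en d f x.1 (x.2.2, x.2.1)) (quadMap q)) := by
    refine sum_le_sum fun q hq => ?_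
    simp only [goodQ, mem_filter, mem_univ, true_and] at hq
    refine (energy_sw_le d f hq).trans (le_of_eq ?_)
    rw [← en_of, ← en_of]
    rfl
  have h1 := sum_quad_le (n := n) (fun x => en d f x.1 x.2) (fun x => en_nonneg d f _ _)
  have h2 := sum_quad_le (n := n) (fun x => en d f x.1 (x.2.2, x.2.1)) (fun x => en_nonneg d f _ _)
  have h3 : ∑ S ∈ powersetCard 4 (univ : Finset (Fin n)),
      ∑ p ∈ KTV.matchingPairs S, en d f S (p.2, p.1) = E := by
    rw [hE]
    refine sum_congr rfl fun S _ => ?_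
    refine sum_nbij' (fun p => (p.2, p.1)) (fun p => (p.2, p.1)) ?_ ?_ ?_ ?_ ?_
    · intro p hp
      rw [KTV.mem_matchingPairs] at hp ⊢
      exact ⟨hp.2.1, hp.1, hp.2.2.symm⟩
    · intro p hp
      rw [KTV.mem_matchingPairs] at hp ⊢
      exact ⟨hp.2.1, hp.1, hp.2.2.symm⟩
    · intro p _; rfl
    · intro p _; rfl
    · intro p _; rfl
  simp only at h1 h2
  rw [h3] at h2
  rw [← hE] at h1
  rw [sum_add_distrib] at hle
  have hD := dirichlet_eq_en d f
  rw [← hE] at hD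
  rw [hD]
  have hc : (0 : ℝ) < (n.choose 4 : ℝ) := by exact_mod_cast Nat.choose_pos hn
  have h4 : 12 * (n.choose 4 : ℝ) * (1 / 24 * (1 / (n.choose 4 : ℝ)) * E) = (1 / 2) * E := by
    field_simp
    ring
  rw [h4]
  rw [hS4] at hgap
  linarith

/-- The explicit bound. -/
theorem mixing_explicit (n : ℕ) (hn : 4 ≤ n) (d : Fin n → ℕ) :
    KTV.mixingTime n d ≤ ((n ^ 6 : ℕ) : ℕ∞) := by
  unfold KTV.mixingTime
  refine iInf₂_le_of_le (n ^ 6) ?_ le_rfl
  intro G
  have hc : 1 ≤ n.choose 4 := Nat.choose_pos hn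
  have hcR : (1 : ℝ) ≤ (n.choose 4 : ℝ) := by exact_mod_cast hc
  have hK : (0 : ℝ) < 12 * (n.choose 4 : ℝ) := by linarith
  have h24 : 24 * (n.choose 4 : ℝ) ≤ (n : ℝ) ^ 4 := by
    have h1 : Nat.factorial 4 * n.choose 4 = n.descFactorial 4 :=
      (Nat.descFactorial_eq_factorial_mul_choose n 4).symm
    have h2 : n.descFactorial 4 ≤ n ^ 4 := Nat.descFactorial_le_pow n 4
    have h3 : 24 * n.choose 4 ≤ n ^ 4 := by
      have : Nat.factorial 4 = 24 := rfl
      rw [← this, h1]; exact h2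
    exact_mod_cast h3
  exact KTV.tv_le_quarter (KTV.switchChain n d) (KTV.switchQ n d) (KTV.switchChain_eq d)
    (KTV.switchQ_symm d) (KTV.switchQ_nonneg d) (KTV.switchQ_row hn d)
    (1 / (12 * (n.choose 4 : ℝ)))
    (by rw [div_le_one hK]; linarith)
    (by
      intro f hf
      rw [one_div, inv_mul_le_iff₀ hK]
      exact switch_poincare_sharp hn d f hf)
    (n ^ 6)
    (by
      have hcardpos : (0 : ℝ) < Fintype.card (KTV.Omega n d) := by
        exact_mod_cast Fintype.card_pos_iff.mpr ⟨G⟩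
      have h1 : (4 : ℝ) * Fintype.card (KTV.Omega n d) ≤ 2 ^ (n ^ 2 + 2) := by
        have h2 : (Fintype.card (KTV.Omega n d) : ℝ) ≤ 2 ^ (n ^ 2) := by
          exact_mod_cast KTV.card_Omega_le n d
        rw [pow_add]; nlinarith
      have h2 : Real.log (4 * Fintype.card (KTV.Omega n d)) ≤ (n : ℝ) ^ 2 + 2 := by
        calc Real.log (4 * Fintype.card (KTV.Omega n d)) ≤ Real.log (2 ^ (n ^ 2 + 2)) :=
              Real.log_le_log (by positivity) h1
          _ = ((n : ℝ) ^ 2 + 2) * Real.log 2 := by rw [Real.log_pow]; push_cast; ring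
          _ ≤ ((n : ℝ) ^ 2 + 2) * 1 := by
              refine mul_le_mul_of_nonneg_left ?_ (by positivity)
              linarith [Real.log_two_lt_d9]
          _ = _ := by ring
      have hn4 : (4 : ℝ) ≤ (n : ℝ) := by exact_mod_cast hn
      have h3 : (n : ℝ) ^ 2 + 2 ≤ 2 * (n : ℝ) ^ 2 := by nlinarith
      have h4 : 2 * (n : ℝ) ^ 2 ≤ 1 / (12 * (n.choose 4 : ℝ)) * ((n ^ 6 : ℕ) : ℝ) := by
        rw [one_div, ← div_eq_inv_mul, le_div_iff₀ hK]
        push_cast
        have : 2 * (n : ℝ) ^ 2 * (12 * (n.choose 4 : ℝ)) = (n : ℝ) ^ 2 * (24 * (n.choose 4 : ℝ)) := by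
          ring
        rw [this]
        calc (n : ℝ) ^ 2 * (24 * (n.choose 4 : ℝ)) ≤ (n : ℝ) ^ 2 * (n : ℝ) ^ 4 :=
              mul_le_mul_of_nonneg_left h24 (by positivity)
          _ = (n : ℝ) ^ 6 := by ring
      linarith) G

end Vale.Agent.KTV
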