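import Mathlib

/-!
Definitions for inequalities on the slice `powersetCard t R`.
-/

open Finset

namespace Vale.Agent.KTV

variable {V : Type*} [DecidableEq V]

/-- Exchange `j` and `l` in the set `S`. -/
def swp (j l : V) (S : Finset V) : Finset V := S.map (Equiv.swap j l).toEmbedding

/-- The members of the slice that contain exactly one of `j`, `l`. -/
def unl (R : Finset V) (t : ℕ) (j l : V) : Finset (Finset V) :=
  (powersetCard t R).filter (fun S => ¬ (j ∈ S ↔ l ∈ S))

end Vale.Agent.KTV
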