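import Vale.Agent.KTV.Gap
import Vale.Agent.KTV.Final

/-!
From graphs as Boolean functions on unordered pairs to the state space of the switch chain.
-/

open Finset

namespace Vale.Agent.KTV

variable {n : ℕ}

open Classical in
/-- A simple graph as a Boolean function on unordered pairs. -/
noncomputable def emb (G : SimpleGraph (Fin n)) : Gr (Fin n) := fun e => decide (e ∈ G.edgeSet)

theorem emb_apply (G : SimpleGraph (Fin n)) (x y : Fin n) : emb G s(x, y) = true ↔ G.Adj x y := by
  simp [emb]

theorem emb_injective : Function.Injective (emb (n := n)) := by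
  intro G H h
  ext x y
  rw [← emb_apply, ← emb_apply, h]

theorem emb_diag (G : SimpleGraph (Fin n)) (x : Fin n) : emb G s(x, x) = false := by
  simp [emb]

theorem deg_emb (G : SimpleGraph (Fin n)) (x : Fin n) :
    deg (emb G) x = ((G.neighborSet x).ncard : ℤ) := by
  classical
  unfold deg ad
  rw [sum_boole]
  congr 1
  rw [Set.ncard_eq_toFinset_card']
  congr 1
  ext y
  simp [emb_apply]

/-- The simple graph of a loopless Boolean function. -/
def ofGr (g : Gr (Fin n)) (h : ∀ x, g s(x, x) = false) : SimpleGraph (Fin n) where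
  Adj x y := g s(x, y) = true
  symm := ⟨fun x y hxy => by rw [Sym2.eq_swap]; exact hxy⟩
  loopless := ⟨fun x hx => by rw [h x] at hx; exact absurd hx (by simp)⟩

theorem emb_ofGr (g : Gr (Fin n)) (h : ∀ x, g s(x, x) = false) : emb (ofGr g h) = g := by
  funext e
  induction e using Sym2.ind with
  | _ x y =>
    have h1 : emb (ofGr g h) s(x, y) = true ↔ g s(x, y) = true := emb_apply (ofGr g h) x y
    exact Bool.eq_iff_iff.2 h1

/-- Loopless with the prescribed degrees. -/
def InO (d : Fin n → ℕ) (g : Gr (Fin n)) : Prop :=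
  (∀ x, g s(x, x) = false) ∧ ∀ x, deg g x = (d x : ℤ)

theorem inO_emb {d : Fin n → ℕ} (G : KTV.Omega n d) : InO d (emb G.1) :=
  ⟨fun x => emb_diag G.1 x, fun x => by rw [deg_emb, G.2 x]⟩

theorem exists_of_inO {d : Fin n → ℕ} {g : Gr (Fin n)} (h : InO d g) :
    ∃ G : KTV.Omega n d, emb G.1 = g := by
  refine ⟨⟨ofGr g h.1, fun x => ?_⟩, emb_ofGr g h.1⟩
  have h1 := deg_emb (ofGr g h.1) x
  rw [emb_ofGr, h.2 x] at h1
  exact_mod_cast h1.symm

theorem inO_iff_of_degRel {d : Fin n → ℕ} {g h : Gr (Fin n)} (hgh : degRel g h) :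
    InO d g ↔ InO d h := by
  unfold InO
  constructor
  · rintro ⟨h1, h2⟩
    exact ⟨fun x => by rw [← hgh.1 x]; exact h1 x, fun x => by rw [← hgh.2 x]; exact h2 x⟩
  · rintro ⟨h1, h2⟩
    exact ⟨fun x => by rw [hgh.1 x]; exact h1 x, fun x => by rw [hgh.2 x]; exact h2 x⟩

/-- The matchings of a block. -/
theorem isPM_block {i k j l : Fin n} (h : Good i k j l) :
    KTV.IsPerfectMatchingOn ({i, k, j, l} : Finset (Fin n)) (KTV.mk4 i j k l) ∧
      KTV.IsPerfectMatchingOn ({i, k, j, l} : Finset (Fin n)) (KTV.mk4 i l k j) ∧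
      KTV.mk4 i j k l ≠ KTV.mk4 i l k j := by
  obtain ⟨hik, hjl, hij, hil, hkj, hkl⟩ := h
  refine ⟨KTV.isPM_mk4 hij hik hil hkj.symm hjl hkl ?_, KTV.isPM_mk4 hil hik hij hkl.symm hjl.symm hkj ?_, ?_⟩
  · ext x; simp only [mem_insert, mem_singleton]; tauto
  · ext x; simp only [mem_insert, mem_singleton]; tauto
  · intro h
    have : s(i, j) ∈ KTV.mk4 i l k j := by rw [← h]; simp [KTV.mk4]
    simp only [KTV.mk4, mem_insert, mem_singleton, Sym2.eq_iff] at this
    tauto

/-- A switch in the direction `ij, kl → il, kj` is the corresponding move. -/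
theorem emb_move {i k j l : Fin n} (h : Good i k j l) (G : SimpleGraph (Fin n))
    (hc : isC i k j l (emb G)) (ht : emb G s(i, j) = true) :
    emb (KTV.move G (KTV.mk4 i j k l) (KTV.mk4 i l k j)) = sw i k j l (emb G) := by
  obtain ⟨hP, hP', -⟩ := isPM_block h
  obtain ⟨c1, c2, c3⟩ := hc
  have hkl : emb G s(k, l) = true := by rw [← c1]; exact ht
  have hil : emb G s(i, l) = false := by
    cases h1 : emb G s(i, l)
    · rfl
    · exact absurd (ht.trans h1.symm) c3
  have hkj : emb G s(k, j) = false := by rw [← c2]; exact hil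
  have hadm : KTV.Adm G (KTV.mk4 i j k l) (KTV.mk4 i l k j) := by
    constructor
    · intro e he
      simp only [KTV.mk4, mem_insert, mem_singleton] at he
      rcases he with rfl | rfl
      · exact (emb_apply G i j).1 ht
      · exact (emb_apply G k l).1 hkl
    · intro e he
      simp only [KTV.mk4, mem_insert, mem_singleton] at he
      rcases he with rfl | rfl
      · intro hh
        have := (emb_apply G i l).2 hh
        rw [hil] at this; exact absurd this (by simp)
      · intro hh
        have := (emb_apply G k j).2 hh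
        rw [hkj] at this; exact absurd this (by simp)
  funext e
  induction e using Sym2.ind with
  | _ x y =>
    apply Bool.eq_iff_iff.2
    rw [emb_apply, KTV.adj_move hP' hadm, ← emb_apply]
    unfold sw
    simp only [KTV.mk4, mem_insert, mem_singleton]
    by_cases e1 : s(x, y) = s(i, j)
    · rw [e1]
      have n1 : s(i, j) ≠ s(i, l) := by rw [Ne, Sym2.eq_iff]; have := h; unfold Good at this; tauto
      have n2 : s(i, j) ≠ s(k, j) := by rw [Ne, Sym2.eq_iff]; have := h; unfold Good at this; tauto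
      simp [n1, n2, ht, isC, c1, c2, hkl, hkj]
    by_cases e2 : s(x, y) = s(k, l)
    · rw [e2]
      have n1 : s(k, l) ≠ s(i, l) := by rw [Ne, Sym2.eq_iff]; have := h; unfold Good at this; tauto
      have n2 : s(k, l) ≠ s(k, j) := by rw [Ne, Sym2.eq_iff]; have := h; unfold Good at this; tauto
      simp [n1, n2, isC, c1, c2, hkl, hkj]
    by_cases e3 : s(x, y) = s(i, l)
    · rw [e3]
      simp [isC, c1, c2, hkl, hkj]
    by_cases e4 : s(x, y) = s(k, j)
    · rw [e4]
      simp [isC, c1, c2, hkl, hkj]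
    simp [e1, e2, e3, e4]

theorem isC_swap_cols {i k j l : Fin n} {g : Gr (Fin n)} (hc : isC i k j l g) :
    isC i k l j g := ⟨hc.2.1, hc.1, hc.2.2.symm⟩

theorem sw_swap_cols (i k j l : Fin n) (g : Gr (Fin n)) : sw i k l j g = sw i k j l g := by
  have h : isC i k l j g ↔ isC i k j l g := ⟨isC_swap_cols, isC_swap_cols⟩
  funext e
  unfold sw
  by_cases hc : isC i k j l g
  · have hc' := h.2 hc
    simp only [hc, hc', true_and]
    congr 1
    simp only [eq_iff_iff]
    tauto
  · have hc' : ¬ isC i k l j g := fun h' => hc (h.1 h')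
    simp [hc, hc']

theorem Good_swap_cols {i k j l : Fin n} (h : Good i k j l) : Good i k l j := by
  unfold Good at *; tauto

/-- A function on `Ω_d`, extended by zero. -/
noncomputable def ext (d : Fin n → ℕ) (f : KTV.Omega n d → ℝ) : Gr (Fin n) → ℝ :=
  Function.extend (fun G : KTV.Omega n d => emb G.1) f 0

theorem embO_injective (d : Fin n → ℕ) :
    Function.Injective (fun G : KTV.Omega n d => emb G.1) :=
  emb_injective.comp Subtype.val_injective

theorem ext_emb (d : Fin n → ℕ) (f : KTV.Omega n d → ℝ) (G : KTV.Omega n d) :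
    ext d f (emb G.1) = f G :=
  (embO_injective d).extend_apply f 0 G

theorem ext_zero (d : Fin n → ℕ) (f : KTV.Omega n d → ℝ) {g : Gr (Fin n)} (hg : ¬ InO d g) :
    ext d f g = 0 := by
  have h1 : ¬ ∃ G : KTV.Omega n d, emb G.1 = g := by
    rintro ⟨G, rfl⟩; exact hg (inO_emb G)
  exact Function.extend_apply' _ _ _ h1

/-- The energy of one switch on `Ω_d` is at most that of the two directed moves. -/
theorem energy_sw_le (d : Fin n → ℕ) (f : KTV.Omega n d → ℝ) {i k j l : Fin n}
    (h : Good i k j l) :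
    ∑ g : Gr (Fin n), (ext d f g - ext d f (sw i k j l g)) ^ 2 ≤
      ∑ G, (f G - f (KTV.moveO (isPM_block h).1 (isPM_block h).2.1 G)) ^ 2 +
      ∑ G, (f G - f (KTV.moveO (isPM_block h).2.1 (isPM_block h).1 G)) ^ 2 := by
  classical
  obtain ⟨hP, hP', hne⟩ := isPM_block h
  have e0 : ∑ g : Gr (Fin n), (ext d f g - ext d f (sw i k j l g)) ^ 2 =
      ∑ G : KTV.Omega n d, (ext d f (emb G.1) - ext d f (sw i k j l (emb G.1))) ^ 2 := by
    symm
    refine Fintype.sum_of_injective (fun G : KTV.Omega n d => emb G.1) (embO_injective d) _ _ ?_ ?_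
    · intro g hg
      have h1 : ¬ InO d g := fun h' => hg (exists_of_inO h')
      have h2 : ¬ InO d (sw i k j l g) := by
        rw [← inO_iff_of_degRel (degRel_of_pairRel (pairRel_sw i k j l h g))]
        exact h1
      rw [ext_zero d f h1, ext_zero d f h2]
      simp
    · intro G; rfl
  rw [e0, ← sum_add_distrib]
  refine sum_le_sum fun G _ => ?_
  rw [ext_emb]
  by_cases hc : isC i k j l (emb G.1)
  · cases ht : emb G.1 s(i, j)
    · have ht' : emb G.1 s(i, l) = true := by
        cases h1 : emb G.1 s(i, l)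
        · exact absurd (ht.trans h1.symm) hc.2.2
        · rfl
      have hmv := emb_move (Good_swap_cols h) G.1 (isC_swap_cols hc) ht'
      rw [sw_swap_cols] at hmv
      have x2 : ext d f (sw i k j l (emb G.1)) = f (KTV.moveO hP' hP G) := by
        rw [← hmv]
        exact ext_emb d f (KTV.moveO hP' hP G)
      rw [x2]
      have := sq_nonneg (f G - f (KTV.moveO hP hP' G))
      linarith
    · have hmv := emb_move h G.1 hc ht
      have x2 : ext d f (sw i k j l (emb G.1)) = f (KTV.moveO hP hP' G) := by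
        rw [← hmv]
        exact ext_emb d f (KTV.moveO hP hP' G)
      rw [x2]
      have := sq_nonneg (f G - f (KTV.moveO hP' hP G))
      linarith
  · rw [sw_of_not_isC hc, ext_emb]
    have := sq_nonneg (f G - f (KTV.moveO hP hP' G))
    have := sq_nonneg (f G - f (KTV.moveO hP' hP G))
    simp only [sub_self]
    nlinarith

theorem energy_sw (hn : 4 ≤ n) (d : Fin n → ℕ) (f : KTV.Omega n d → ℝ) {i k j l : Fin n}
    (h : Good i k j l) (D : ℝ)
    (hD : D = (1 / 2) * ∑ G, ∑ H, KTV.switchChain n d G H * (f G - f H) ^ 2) :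
    ∑ g : Gr (Fin n), (ext d f g - ext d f (sw i k j l g)) ^ 2 ≤
      2 * (n : ℝ) ^ 4 * D := by
  have hb := energy_sw_le d f h
  obtain ⟨hP, hP', hne⟩ := isPM_block h
  have hS : ({i, k, j, l} : Finset (Fin n)).card = 4 := by
    obtain ⟨hik, hjl, hij, hil, hkj, hkl⟩ := h
    rw [card_insert_of_notMem, card_insert_of_notMem, card_insert_of_notMem, card_singleton]
    · simpa using hjl
    · simp [hkj, hkl]
    · simp [hik, hij, hil]
  have b1 := KTV.energy_le hn d f hS hP hP' hne
  have b2 := KTV.energy_le hn d f hS hP' hP hne.symm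
  rw [← hD] at b1 b2
  linarith

/-- The gap inequality, restricted to `Ω_d`. -/
theorem gap_omega (d : Fin n → ℕ) (f : KTV.Omega n d → ℝ) (hf : ∑ G, f G = 0) :
    16 * ∑ G, f G ^ 2 ≤
      gapS (fun i k j l => ∑ g, (ext d f g - ext d f (sw i k j l g)) ^ 2) := by
  classical
  have hcls : ∀ g, ∑ h ∈ cls degRel g, ext d f h = 0 := by
    intro g
    by_cases hg : InO d g
    · have h1 : cls degRel g = (univ : Finset (KTV.Omega n d)).image (fun G => emb G.1) := by
        ext h
        simp only [mem_cls, mem_image, mem_univ, true_and]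
        constructor
        · intro hgh
          exact exists_of_inO ((inO_iff_of_degRel hgh).1 hg)
        · rintro ⟨G, rfl⟩
          have hG := inO_emb G
          exact ⟨fun x => by rw [hg.1 x, hG.1 x], fun x => by rw [hg.2 x, hG.2 x]⟩
      rw [h1, sum_image (fun a _ b _ hab => embO_injective d hab)]
      rw [sum_congr rfl fun G _ => ext_emb d f G]
      exact hf
    · refine sum_eq_zero fun h hh => ext_zero d f ?_
      rw [← inO_iff_of_degRel (mem_cls.1 hh)]
      exact hg
  have hgap := gap_graph (ext d f) hcls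
  have hsum : ∑ g, ext d f g ^ 2 = ∑ G, f G ^ 2 := by
    symm
    refine Fintype.sum_of_injective (fun G : KTV.Omega n d => emb G.1) (embO_injective d) _ _ ?_ ?_
    · intro g hg
      rw [ext_zero d f (fun h' => hg (exists_of_inO h'))]; norm_num
    · intro G; rw [← ext_emb d f G]
  rw [hsum] at hgap
  exact hgap

/-- The Poincare inequality of the switch chain. -/
theorem switch_poincare (hn : 4 ≤ n) (d : Fin n → ℕ) (f : KTV.Omega n d → ℝ)
    (hf : ∑ G, f G = 0) :
    ∑ G, f G ^ 2 ≤ (((1 : ℕ) : ℝ) * (n : ℝ) ^ 8) *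
        ((1 / 2) * ∑ G, ∑ H, KTV.switchChain n d G H * (f G - f H) ^ 2) := by
  classical
  set D : ℝ := (1 / 2) * ∑ G, ∑ H, KTV.switchChain n d G H * (f G - f H) ^ 2 with hD
  have hgap := gap_omega d f hf
  have hDn : 0 ≤ D := by
    have hQ : ∀ G H, 0 ≤ KTV.switchChain n d G H := by
      intro G H
      rw [KTV.switchChain_eq]
      have := KTV.switchQ_nonneg d G H
      split_ifs <;> linarith
    rw [hD]
    exact mul_nonneg (by norm_num) (sum_nonneg fun G _ => sum_nonneg fun H _ =>
      mul_nonneg (hQ G H) (sq_nonneg _))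
  have hS4 : gapS (fun i k j l => ∑ g, (ext d f g - ext d f (sw i k j l g)) ^ 2) ≤
      (n : ℝ) ^ 4 * (2 * (n : ℝ) ^ 4 * D) := by
    unfold gapS
    have hbound : ∀ i k j l : Fin n, (if Good i k j l then
        ∑ g, (ext d f g - ext d f (sw i k j l g)) ^ 2 else 0) ≤ 2 * (n : ℝ) ^ 4 * D := by
      intro i k j l
      split_ifs with h
      · exact energy_sw hn d f h D hD
      · positivity
    calc ∑ i, ∑ k, ∑ j, ∑ l, (if Good i k j l then
          ∑ g, (ext d f g - ext d f (sw i k j l g)) ^ 2 else 0)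
        ≤ ∑ _i : Fin n, ∑ _k : Fin n, ∑ _j : Fin n, ∑ _l : Fin n, 2 * (n : ℝ) ^ 4 * D :=
          sum_le_sum fun i _ => sum_le_sum fun k _ => sum_le_sum fun j _ =>
            sum_le_sum fun l _ => hbound i k j l
      _ = (n : ℝ) ^ 4 * (2 * (n : ℝ) ^ 4 * D) := by
          simp only [sum_const, card_univ, Fintype.card_fin, nsmul_eq_mul]
          ring
  have hfin : 16 * ∑ G, f G ^ 2 ≤ 2 * (n : ℝ) ^ 8 * D := by
    calc 16 * ∑ G, f G ^ 2 ≤ (n : ℝ) ^ 4 * (2 * (n : ℝ) ^ 4 * D) := hgap.trans hS4
      _ = 2 * (n : ℝ) ^ 8 * D := by ring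
  have hpos : 0 ≤ (n : ℝ) ^ 8 * D := by positivity
  push_cast
  linarith

theorem ktv_conjecture : KTV.KannanTetaliVempala :=
  KTV.ktv_of_poincare 1 8 le_rfl (fun _ hn d f hf => switch_poincare hn d f hf)

end Vale.Agent.KTV
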