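import Vale.Agent.KTV.Mat3
import Vale.Agent.KTV.Switch

/-!
The three-row lemma for graphs.

`tri_graph` from `mat_three`: let `t : Fin 3 → V` be injective with values `i, j, k`.  By
`sum_nonneg_of_cls` it suffices to sum over the graphs that agree with a fixed `g₀` on all
`s(x,y)` with `x, y` both outside `{i,j,k}` and on the loops `s(x,x)`.  With
`C = Option {x // x ∉ {i,j,k}}` let `φ : (Fin 3 → C → Bool) → Gr V` send `M` to the graph with
`s(t p, x) = M p (some x)`, `s(t q, t r) = !(M p none)` for `{p,q,r} = {0,1,2}`, and `g₀` elsewhere.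
It is injective with exactly this range, and
`matRel C p M N ↔ pairRel (t q) (t r) (φ M) (φ N)`; then use `dv_embed`.
-/

open Finset

namespace Vale.Agent.KTV

section Tri

variable {V : Type*} (t : Fin 3 → V)

/-- The vertices outside the three chosen ones. -/
abbrev Out : Type _ := {x : V // ∀ p, x ≠ t p}

/-- The edge attached to row `p` and column `c`. -/
def edg (z : Fin 3 × Option (Out t)) : Sym2 V :=
  match z.2 with
  | some x => s(t z.1, x.1)
  | none => s(t (z.1 + 1), t (z.1 + 2))

/-- The Boolean carried by that edge. -/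
def vlu (M : Fin 3 → Option (Out t) → Bool) (z : Fin 3 × Option (Out t)) : Bool :=
  match z.2 with
  | some x => M z.1 (some x)
  | none => !(M z.1 none)

/-- The graph attached to a matrix. -/
noncomputable def gph (g₀ : Gr V) (M : Fin 3 → Option (Out t) → Bool) : Gr V :=
  Function.extend (edg t) (vlu t M) g₀

theorem fin3_a (p : Fin 3) : p + 1 + 1 = p + 2 := by revert p; decide
theorem fin3_b (p : Fin 3) : p + 1 + 2 = p := by revert p; decide
theorem fin3_c (p : Fin 3) : p + 2 + 1 = p := by revert p; decide
theorem fin3_d (p : Fin 3) : p + 2 + 2 = p + 1 := by revert p; decide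
theorem fin3_e (p : Fin 3) : p + 1 ≠ p := by revert p; decide
theorem fin3_f (p : Fin 3) : p + 2 ≠ p := by revert p; decide
theorem fin3_g (p : Fin 3) : p + 1 ≠ p + 2 := by revert p; decide
theorem fin3_opp (p q : Fin 3) (h : (p + 1 = q + 1 ∧ p + 2 = q + 2) ∨
    (p + 1 = q + 2 ∧ p + 2 = q + 1)) : p = q := by revert p q; decide
theorem fin3_cases (p q : Fin 3) : q = p ∨ q = p + 1 ∨ q = p + 2 := by revert p q; decide

variable {t}

theorem edg_inj (ht : Function.Injective t) : Function.Injective (edg t) := by
  rintro ⟨p, c⟩ ⟨q, c'⟩ h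
  rcases c with _ | x <;> rcases c' with _ | x'
  · simp only [edg, Sym2.eq_iff, ht.eq_iff] at h
    rw [fin3_opp p q h]
  · simp only [edg, Sym2.eq_iff] at h
    rcases h with ⟨_, h⟩ | ⟨h, _⟩
    · exact absurd h.symm (x'.2 _)
    · exact absurd h.symm (x'.2 _)
  · simp only [edg, Sym2.eq_iff] at h
    rcases h with ⟨_, h⟩ | ⟨_, h⟩
    · exact absurd h (x.2 _)
    · exact absurd h (x.2 _)
  · simp only [edg, Sym2.eq_iff] at h
    rcases h with ⟨h1, h2⟩ | ⟨_, h⟩
    · rw [ht h1, Subtype.ext h2]
    · exact absurd h (x.2 _)

theorem gph_edg (ht : Function.Injective t) (g₀ : Gr V) (M : Fin 3 → Option (Out t) → Bool)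
    (z : Fin 3 × Option (Out t)) : gph t g₀ M (edg t z) = vlu t M z :=
  (edg_inj ht).extend_apply _ _ _

theorem gph_out (ht : Function.Injective t) (g₀ : Gr V) (M : Fin 3 → Option (Out t) → Bool)
    (p : Fin 3) (x : Out t) : gph t g₀ M s(t p, x.1) = M p (some x) :=
  gph_edg ht g₀ M (p, some x)

theorem gph_in (ht : Function.Injective t) (g₀ : Gr V) (M : Fin 3 → Option (Out t) → Bool)
    (p : Fin 3) : gph t g₀ M s(t (p + 1), t (p + 2)) = !(M p none) :=
  gph_edg ht g₀ M (p, none)

theorem gph_rest (g₀ : Gr V) (M : Fin 3 → Option (Out t) → Bool) (e : Sym2 V)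
    (he : ¬ ∃ z, edg t z = e) : gph t g₀ M e = g₀ e :=
  Function.extend_apply' _ _ _ he

theorem gph_surj (ht : Function.Injective t) (g₀ N : Gr V)
    (hN : ∀ e, (¬ ∃ z, edg t z = e) → N e = g₀ e) : ∃ M, gph t g₀ M = N := by
  refine ⟨fun p c => match c with
    | some x => N (edg t (p, some x))
    | none => !(N (edg t (p, none))), ?_⟩
  funext e
  by_cases he : ∃ z, edg t z = e
  · obtain ⟨⟨p, c⟩, rfl⟩ := he
    rw [gph_edg ht]
    rcases c with _ | x
    · simp [vlu]
    · simp [vlu]
  · rw [gph_rest _ _ _ he, hN e he]

theorem gph_inj (ht : Function.Injective t) (g₀ : Gr V) : Function.Injective (gph t g₀) := by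
  intro M N h
  funext p c
  have := congrFun h (edg t (p, c))
  rw [gph_edg ht, gph_edg ht] at this
  rcases c with _ | x
  · simpa [vlu] using this
  · simpa [vlu] using this

/-- Agreement outside the range of `edg`. -/
def restRel (t : Fin 3 → V) : Setoid (Gr V) where
  r g h := ∀ e, (¬ ∃ z, edg t z = e) → g e = h e
  iseqv :=
    { refl := fun _ _ _ => rfl
      symm := fun h e he => (h e he).symm
      trans := fun h h' e he => (h e he).trans (h' e he) }

/-- Boolean to integer. -/
theorem ad_out (ht : Function.Injective t) (g₀ : Gr V) (M : Fin 3 → Option (Out t) → Bool)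
    (p : Fin 3) (x : Out t) :
    ad (gph t g₀ M) (t p) x.1 = if M p (some x) = true then (1 : ℤ) else 0 := by
  unfold ad; rw [gph_out ht]

theorem ad_in (ht : Function.Injective t) (g₀ : Gr V) (M : Fin 3 → Option (Out t) → Bool)
    (p : Fin 3) :
    ad (gph t g₀ M) (t (p + 1)) (t (p + 2)) = 1 - if M p none = true then (1 : ℤ) else 0 := by
  unfold ad; rw [gph_in ht]
  cases M p none <;> simp

theorem ad_in1 (ht : Function.Injective t) (g₀ : Gr V) (M : Fin 3 → Option (Out t) → Bool)
    (p : Fin 3) :
    ad (gph t g₀ M) (t p) (t (p + 1)) = 1 - if M (p + 2) none = true then (1 : ℤ) else 0 := by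
  have := ad_in ht g₀ M (p + 2)
  rwa [fin3_c, fin3_d] at this

theorem ad_in2 (ht : Function.Injective t) (g₀ : Gr V) (M : Fin 3 → Option (Out t) → Bool)
    (p : Fin 3) :
    ad (gph t g₀ M) (t p) (t (p + 2)) = 1 - if M (p + 1) none = true then (1 : ℤ) else 0 := by
  have := ad_in ht g₀ M (p + 1)
  rw [fin3_a, fin3_b] at this
  rw [ad_comm]; exact this

theorem loop_not_edg (ht : Function.Injective t) (v : V) : ¬ ∃ z, edg t z = s(v, v) := by
  rintro ⟨⟨p, c⟩, h⟩
  rcases c with _ | x
  · simp only [edg, Sym2.eq_iff] at h
    have h' : t (p + 1) = t (p + 2) := by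
      rcases h with ⟨h1, h2⟩ | ⟨h1, h2⟩ <;> rw [h1, h2]
    exact fin3_g p (ht h')
  · simp only [edg, Sym2.eq_iff] at h
    have h' : x.1 = t p := by
      rcases h with ⟨h1, h2⟩ | ⟨h1, h2⟩ <;> rw [h1, h2]
    exact x.2 p h'

theorem sum_vertices [Fintype V] [DecidableEq V] (ht : Function.Injective t) (F : V → ℤ) :
    ∑ v, F v = ∑ x : Out t, F x.1 + ∑ q : Fin 3, F (t q) := by
  rw [← Fintype.sum_subtype_add_sum_subtype (fun v => ∀ p, v ≠ t p)]
  congr 1
  symm
  refine Fintype.sum_bijective
    (fun q => (⟨t q, by push Not; exact ⟨q, rfl⟩⟩ : {v : V // ¬ ∀ p, v ≠ t p})) ?_ _ _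
    (fun _ => rfl)
  constructor
  · intro a b h
    exact ht (by simpa using h)
  · rintro ⟨v, hv⟩
    push Not at hv
    obtain ⟨q, hq⟩ := hv
    exact ⟨q, Subtype.ext hq.symm⟩

theorem sum_fin3 (p : Fin 3) (F : Fin 3 → ℤ) : ∑ q, F q = F p + F (p + 1) + F (p + 2) := by
  fin_cases p
  · simp [Fin.sum_univ_three]
  · simp only [Fin.sum_univ_three]
    change F 0 + F 1 + F 2 = F 1 + F 2 + F 0
    ring
  · simp only [Fin.sum_univ_three]
    change F 0 + F 1 + F 2 = F 2 + F 0 + F 1
    ring

theorem deg_gph [Fintype V] [DecidableEq V] (ht : Function.Injective t) (g₀ : Gr V)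
    (M : Fin 3 → Option (Out t) → Bool) (p : Fin 3) :
    deg (gph t g₀ M) (t p) = (∑ c, (if M p c = true then (1 : ℤ) else 0)) + 2
      - (∑ q, (if M q none = true then (1 : ℤ) else 0)) + ad g₀ (t p) (t p) := by
  unfold deg
  rw [sum_vertices ht, sum_fin3 p, ad_in1 ht, ad_in2 ht, Fintype.sum_option,
    sum_fin3 p (fun q => if M q none = true then (1 : ℤ) else 0)]
  have hl : ad (gph t g₀ M) (t p) (t p) = ad g₀ (t p) (t p) := by
    unfold ad; rw [gph_rest _ _ _ (loop_not_edg ht _)]
  rw [hl]
  have hs : ∑ x : Out t, ad (gph t g₀ M) (t p) x.1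
      = ∑ x : Out t, (if M p (some x) = true then (1 : ℤ) else 0) :=
    sum_congr rfl fun x _ => ad_out ht g₀ M p x
  rw [hs]
  ring

theorem bool_of_ite {a b : Bool} (h : (if a = true then (1 : ℤ) else 0) =
    (if b = true then (1 : ℤ) else 0)) : a = b := by
  cases a <;> cases b <;> simp_all

theorem matRel_iff_pairRel [Fintype V] [DecidableEq V] (ht : Function.Injective t) (g₀ : Gr V)
    (p : Fin 3) (M N : Fin 3 → Option (Out t) → Bool) :
    matRel (Option (Out t)) p M N ↔
      (pairRel (t (p + 1)) (t (p + 2))) (gph t g₀ M) (gph t g₀ N) := by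
  constructor
  · rintro ⟨h1, h2, h3⟩
    refine ⟨?_, ?_, ?_⟩
    · intro x y hxy
      by_cases he : ∃ z, edg t z = s(x, y)
      · obtain ⟨⟨q, c⟩, he⟩ := he
        rw [← he, gph_edg ht, gph_edg ht]
        have hq : q = p := by
          rcases fin3_cases p q with h | h | h
          · exact h
          · exfalso
            subst h
            rcases c with _ | w
            · simp only [edg, Sym2.eq_iff, fin3_a, fin3_b] at he
              rcases he with ⟨rfl, rfl⟩ | ⟨rfl, rfl⟩
              · have := hxy.mp (Or.inr rfl)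
                rcases this with h | h
                · exact fin3_e p (ht h).symm
                · exact fin3_f p (ht h).symm
              · have := hxy.mpr (Or.inr rfl)
                rcases this with h | h
                · exact fin3_e p (ht h).symm
                · exact fin3_f p (ht h).symm
            · simp only [edg, Sym2.eq_iff] at he
              rcases he with ⟨rfl, rfl⟩ | ⟨rfl, rfl⟩
              · have := hxy.mp (Or.inl rfl)
                rcases this with h | h
                · exact w.2 _ h
                · exact w.2 _ h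
              · have := hxy.mpr (Or.inl rfl)
                rcases this with h | h
                · exact w.2 _ h
                · exact w.2 _ h
          · exfalso
            subst h
            rcases c with _ | w
            · simp only [edg, Sym2.eq_iff, fin3_c, fin3_d] at he
              rcases he with ⟨rfl, rfl⟩ | ⟨rfl, rfl⟩
              · have := hxy.mpr (Or.inl rfl)
                rcases this with h | h
                · exact fin3_e p (ht h).symm
                · exact fin3_f p (ht h).symm
              · have := hxy.mp (Or.inl rfl)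
                rcases this with h | h
                · exact fin3_e p (ht h).symm
                · exact fin3_f p (ht h).symm
            · simp only [edg, Sym2.eq_iff] at he
              rcases he with ⟨rfl, rfl⟩ | ⟨rfl, rfl⟩
              · have := hxy.mp (Or.inr rfl)
                rcases this with h | h
                · exact w.2 _ h
                · exact w.2 _ h
              · have := hxy.mpr (Or.inr rfl)
                rcases this with h | h
                · exact w.2 _ h
                · exact w.2 _ h
        subst hq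
        rcases c with _ | w
        · simp only [vlu, h1]
        · simp only [vlu, h1]
      · rw [gph_rest _ _ _ he, gph_rest _ _ _ he]
    · intro x hx1 hx2
      by_cases hx : ∀ q, x ≠ t q
      · have e1 := ad_out ht g₀ M (p + 1) ⟨x, hx⟩
        have e2 := ad_out ht g₀ M (p + 2) ⟨x, hx⟩
        have e3 := ad_out ht g₀ N (p + 1) ⟨x, hx⟩
        have e4 := ad_out ht g₀ N (p + 2) ⟨x, hx⟩
        simp only at e1 e2 e3 e4
        rw [e1, e2, e3, e4]
        have := h2 (some ⟨x, hx⟩)
        rw [sum_fin3 p, sum_fin3 p] at this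
        have h1' := congrFun h1 (some ⟨x, hx⟩)
        rw [h1'] at this
        linarith
      · push Not at hx
        obtain ⟨q, rfl⟩ := hx
        have hq : q = p := by
          rcases fin3_cases p q with h | h | h
          · exact h
          · exact absurd (by rw [h]) hx1
          · exact absurd (by rw [h]) hx2
        subst hq
        rw [ad_comm _ (t (q + 1)), ad_comm _ (t (q + 2)), ad_comm _ (t (q + 1)),
          ad_comm _ (t (q + 2)), ad_in1 ht, ad_in2 ht, ad_in1 ht, ad_in2 ht]
        have := h2 none
        rw [sum_fin3 q, sum_fin3 q] at this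
        have h1' := congrFun h1 none
        rw [h1'] at this
        linarith
    · rw [deg_gph ht, deg_gph ht, h3 (p + 1), h2 none]
  · intro h
    have hrow : M p = N p := by
      funext c
      rcases c with _ | x
      · have := h.1 (t (p + 1)) (t (p + 2)) (by simp)
        rw [gph_in ht, gph_in ht] at this
        simpa using this
      · have := h.1 (t p) x.1 (by
          constructor
          · rintro (h | h)
            · exact absurd (ht h).symm (fin3_e p)
            · exact absurd (ht h).symm (fin3_f p)
          · rintro (h | h)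
            · exact absurd h (x.2 _)
            · exact absurd h (x.2 _))
        rw [gph_out ht, gph_out ht] at this
        exact this
    have hcol : ∀ c, ∑ q, (if M q c = true then (1 : ℤ) else 0)
        = ∑ q, (if N q c = true then (1 : ℤ) else 0) := by
      intro c
      rw [sum_fin3 p, sum_fin3 p, hrow]
      rcases c with _ | x
      · have := h.2.1 (t p) (fun h => fin3_e p (ht h).symm) (fun h => fin3_f p (ht h).symm)
        rw [ad_comm _ (t (p + 1)), ad_comm _ (t (p + 2)), ad_comm _ (t (p + 1)),
          ad_comm _ (t (p + 2)), ad_in1 ht, ad_in2 ht, ad_in1 ht, ad_in2 ht] at this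
        linarith
      · have := h.2.1 x.1 (x.2 _) (x.2 _)
        rw [ad_out ht, ad_out ht, ad_out ht, ad_out ht] at this
        linarith
    refine ⟨hrow, hcol, fun q => ?_⟩
    have := pairRel_deg h (t q)
    rw [deg_gph ht, deg_gph ht, hcol none] at this
    linarith

theorem closed_gph [Fintype V] [DecidableEq V] (ht : Function.Injective t) (g₀ : Gr V)
    (p : Fin 3) (M : Fin 3 → Option (Out t) → Bool) (N : Gr V)
    (h : (pairRel (t (p + 1)) (t (p + 2))) (gph t g₀ M) N) : ∃ M', gph t g₀ M' = N := by
  refine gph_surj ht g₀ N fun e he => ?_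
  rw [← gph_rest g₀ M e he]
  symm
  induction e using Sym2.ind with
  | _ x y =>
    refine h.1 x y ?_
    have aux : ∀ (x y : V), (¬ ∃ z, edg t z = s(x, y)) → ∀ q : Fin 3, x = t q →
        y = t q := by
      intro x y he q hx
      by_contra hy
      subst hx
      by_cases hyo : ∀ a, y ≠ t a
      · exact he ⟨(q, some ⟨y, hyo⟩), rfl⟩
      · push Not at hyo
        obtain ⟨a, rfl⟩ := hyo
        rcases fin3_cases q a with h | h | h
        · exact hy (by rw [h])
        · subst h
          refine he ⟨(q + 2, none), ?_⟩
          simp only [edg, fin3_c, fin3_d]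
        · subst h
          refine he ⟨(q + 1, none), ?_⟩
          simp only [edg, fin3_a, fin3_b]
          rw [Sym2.eq_swap]
    have he' : ¬ ∃ z, edg t z = s(y, x) := by rwa [Sym2.eq_swap]
    constructor
    · rintro (hx | hx)
      · exact Or.inl (aux x y he _ hx)
      · exact Or.inr (aux x y he _ hx)
    · rintro (hy | hy)
      · exact Or.inl (aux y x he' _ hy)
      · exact Or.inr (aux y x he' _ hy)

end Tri

variable {V : Type*} [Fintype V] [DecidableEq V]

theorem tri_graph (i j k : V) (hij : i ≠ j) (hjk : j ≠ k) (hik : i ≠ k) (f : Gr V → ℝ) :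
    0 ≤ ∑ g, (dv (pairRel i j) f g * dv (pairRel j k) f g +
      dv (pairRel j k) f g * dv (pairRel i k) f g +
      dv (pairRel i j) f g * dv (pairRel i k) f g) := by
  classical
  set t : Fin 3 → V := ![i, j, k] with htdef
  have ht : Function.Injective t := by
    intro a b h
    fin_cases a <;> fin_cases b <;> simp_all
    all_goals first
      | exact absurd h.symm hij
      | exact absurd h.symm hjk
      | exact absurd h.symm hik
      | exact absurd h hij
      | exact absurd h hjk
      | exact absurd h hik
  refine sum_nonneg_of_cls (restRel t) _ fun g₀ => ?_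
  obtain ⟨M₀, hM₀⟩ := gph_surj ht g₀ g₀ (fun _ _ => rfl)
  have hsum := sum_cls_embed (restRel t) (⊤ : Setoid (Fin 3 → Option (Out t) → Bool))
    (gph t g₀) (gph_inj ht g₀)
    (by
      intro M N
      constructor
      · intro _ e he
        rw [gph_rest _ _ _ he, gph_rest _ _ _ he]
      · intro _; trivial)
    (by
      intro M N hN
      refine gph_surj ht g₀ N (fun e he => ?_)
      rw [← hN e he, gph_rest _ _ _ he])
    (fun g => dv (pairRel i j) f g * dv (pairRel j k) f g +
      dv (pairRel j k) f g * dv (pairRel i k) f g +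
      dv (pairRel i j) f g * dv (pairRel i k) f g) M₀
  rw [hM₀] at hsum
  rw [hsum]
  have hall : cls (⊤ : Setoid (Fin 3 → Option (Out t) → Bool)) M₀ = univ := by
    ext l; simp only [mem_cls, mem_univ, iff_true]; trivial
  rw [hall]
  have hdv : ∀ (p : Fin 3) (M : Fin 3 → Option (Out t) → Bool),
      dv (pairRel (t (p + 1)) (t (p + 2))) f (gph t g₀ M)
        = dv (matRel (Option (Out t)) p) (fun m => f (gph t g₀ m)) M := by
    intro p M
    exact dv_embed _ (matRel (Option (Out t)) p) (gph t g₀) (gph_inj ht g₀)
      (matRel_iff_pairRel ht g₀ p) (fun M N hN => closed_gph ht g₀ p M N hN) f M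
  have h0 : ∀ M, dv (pairRel j k) f (gph t g₀ M)
      = dv (matRel (Option (Out t)) 0) (fun m => f (gph t g₀ m)) M := hdv 0
  have h1 : ∀ M, dv (pairRel i k) f (gph t g₀ M)
      = dv (matRel (Option (Out t)) 1) (fun m => f (gph t g₀ m)) M := by
    intro M
    rw [pairRel_comm i k]
    exact hdv 1 M
  have h2 : ∀ M, dv (pairRel i j) f (gph t g₀ M)
      = dv (matRel (Option (Out t)) 2) (fun m => f (gph t g₀ m)) M := hdv 2
  simp only [h0, h1, h2]
  refine (mat_three (fun m => f (gph t g₀ m))).trans (le_of_eq ?_)
  refine sum_congr rfl fun M _ => ?_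
  ring

end Vale.Agent.KTV
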